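import Mathlib

/-!
Definitions for the Rayleigh case of Talagrand's conjecture on fractional covers.
-/

namespace Vale.Agent.Lib.P034
open Finset

variable {X : Type*} [Fintype X] [DecidableEq X]

/-- The partial derivative with respect to the variables of `S`, evaluated at the point `z`, of the
multi-affine polynomial with coefficients `g`: the sum over `A` containing `S` of
`g A` times the product of `z i` over `i` in `A \ S`. -/
noncomputable def polyWith (g : Finset X → ℝ) (z : X → ℝ) (S : Finset X) : ℝ :=
  ∑ A ∈ univ.filter (fun A => S ⊆ A), g A * ∏ i ∈ A \ S, z i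

/-- The multi-affine polynomial with coefficients `g` is Rayleigh: at every strictly positive
point, and for all distinct variables `x`, `y`, one has `P * P_xy ≤ P_x * P_y`.
Every multi-affine real stable polynomial with nonnegative coefficients has this property. -/
def IsRayleigh (g : Finset X → ℝ) : Prop :=
  ∀ z : X → ℝ, (∀ i, 0 < z i) → ∀ x y : X, x ≠ y →
    polyWith g z ∅ * polyWith g z {x, y} ≤ polyWith g z {x} * polyWith g z {y}

/-- The part of the weight function `g` living on sets of size exactly `s`. -/
noncomputable def levelPart (g : Finset X → ℝ) (s : ℕ) (A : Finset X) : ℝ :=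
  if A.card = s then g A else 0

/-- `G` covers `F`: every member of `F` contains a member of `G`. -/
def IsCover (G F : Finset (Finset X)) : Prop :=
  ∀ H ∈ F, ∃ S ∈ G, S ⊆ H

/-- The cost of `G` at `p`: the sum of `p ^ |S|` over `S` in `G`. -/
noncomputable def coverCost (G : Finset (Finset X)) (p : ℝ) : ℝ :=
  ∑ S ∈ G, p ^ S.card

/-- `F` is `p`-small: it has a cover of cost at most one half at `p`. -/
def IsSmall (F : Finset (Finset X)) (p : ℝ) : Prop :=
  ∃ G : Finset (Finset X), IsCover G F ∧ coverCost G p ≤ 1 / 2

end Vale.Agent.Lib.P034
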