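import Mathlib
import Vale.Agent.Lib.P034.Defs

/-!
A Markov chain on subsets built from a weight function: total mass, mass on subsets of a set,
and a lower bound along a single path.
-/

namespace Vale.Agent.Lib.P034
open Finset

variable {X : Type*} [Fintype X] [DecidableEq X]

/-- The normaliser of the one step kernel at the state `T`: the sum of `h B * r ^ |B \ T|`. -/
noncomputable def kerMass (h : Finset X → ℝ) (r : ℝ) (T : Finset X) : ℝ :=
  ∑ B, h B * r ^ (B \ T).card

/-- The weight of the state `T` after `j` steps of the chain that moves from `T` to `T ∪ B` with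
weight `h B / kerMass h r T`, started at the empty set. -/
noncomputable def chainW (h : Finset X → ℝ) (r : ℝ) : ℕ → Finset X → ℝ
  | 0, T => if T = ∅ then 1 else 0
  | j + 1, T' => ∑ T, ∑ B, if T ∪ B = T' then chainW h r j T * h B / kerMass h r T else 0

variable {h : Finset X → ℝ} {r : ℝ}

lemma kerMass_nonneg (hh : ∀ B, 0 ≤ h B) (hr : 0 ≤ r) (T : Finset X) : 0 ≤ kerMass h r T :=
  Finset.sum_nonneg (fun B _ => mul_nonneg (hh B) (pow_nonneg hr _))

lemma chainW_nonneg (hh : ∀ B, 0 ≤ h B) (hr : 0 ≤ r) (j : ℕ) (T : Finset X) :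
    0 ≤ chainW h r j T := by
  induction j generalizing T with
  | zero => simp only [chainW]; split_ifs <;> norm_num
  | succ j ih =>
    simp only [chainW]
    refine Finset.sum_nonneg (fun T' _ => Finset.sum_nonneg (fun B _ => ?_))
    split_ifs
    · exact div_nonneg (mul_nonneg (ih T') (hh B)) (kerMass_nonneg hh hr T')
    · exact le_rfl

lemma card_union_eq_add_sdiff (T B : Finset X) : (T ∪ B).card = T.card + (B \ T).card := by
  rw [← Finset.card_union_of_disjoint Finset.disjoint_sdiff, Finset.union_sdiff_self_eq_union]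

/-- Summing a function of `T ∪ B` over the values of the union. -/
lemma sum_ite_union_eq (c : Finset X → ℝ) (x : ℝ) (T B : Finset X) :
    (∑ T', c T' * (if T ∪ B = T' then x else 0)) = c (T ∪ B) * x := by
  rw [Finset.sum_eq_single (T ∪ B)]
  · simp
  · intro b _ hb
    rw [if_neg (fun h => hb h.symm), mul_zero]
  · intro h
    exact absurd (Finset.mem_univ _) h

/-- The weighted total mass of the chain does not exceed one. -/
lemma chain_total (hh : ∀ B, 0 ≤ h B) (hr : 0 ≤ r) (j : ℕ) :
    ∑ T, r ^ T.card * chainW h r j T ≤ 1 := by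
  induction j with
  | zero =>
    rw [Finset.sum_eq_single (∅ : Finset X)]
    · simp [chainW]
    · intro b _ hb
      simp [chainW, hb]
    · intro h
      exact absurd (Finset.mem_univ _) h
  | succ j ih =>
    have step : ∀ T' : Finset X, r ^ T'.card * chainW h r (j + 1) T' =
        ∑ T, ∑ B, r ^ T'.card * (if T ∪ B = T' then chainW h r j T * h B / kerMass h r T else 0) := by
      intro T'
      simp only [chainW, Finset.mul_sum]
    calc ∑ T', r ^ T'.card * chainW h r (j + 1) T'
        = ∑ T', ∑ T, ∑ B,
            r ^ T'.card * (if T ∪ B = T' then chainW h r j T * h B / kerMass h r T else 0) :=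
          Finset.sum_congr rfl (fun T' _ => step T')
      _ = ∑ T, ∑ B, ∑ T',
            r ^ T'.card * (if T ∪ B = T' then chainW h r j T * h B / kerMass h r T else 0) := by
          rw [Finset.sum_comm]
          refine Finset.sum_congr rfl (fun T _ => ?_)
          rw [Finset.sum_comm]
      _ = ∑ T, ∑ B, r ^ (T ∪ B).card * (chainW h r j T * h B / kerMass h r T) := by
          refine Finset.sum_congr rfl (fun T _ => Finset.sum_congr rfl (fun B _ => ?_))
          exact sum_ite_union_eq (fun T' => r ^ T'.card) _ T B
      _ ≤ ∑ T, r ^ T.card * chainW h r j T := by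
          refine Finset.sum_le_sum (fun T _ => ?_)
          have hw := chainW_nonneg hh hr j T
          have hD := kerMass_nonneg hh hr T
          have e : ∀ B, r ^ (T ∪ B).card * (chainW h r j T * h B / kerMass h r T) =
              (r ^ T.card * chainW h r j T) * ((h B * r ^ (B \ T).card) / kerMass h r T) := by
            intro B
            rw [card_union_eq_add_sdiff, pow_add]
            ring
          rw [Finset.sum_congr rfl (fun B _ => e B), ← Finset.mul_sum, ← Finset.sum_div]
          have hle : (∑ B, h B * r ^ (B \ T).card) / kerMass h r T ≤ 1 := by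
            change kerMass h r T / kerMass h r T ≤ 1
            exact div_self_le_one _
          calc _ ≤ (r ^ T.card * chainW h r j T) * 1 :=
                mul_le_mul_of_nonneg_left hle (mul_nonneg (pow_nonneg hr _) hw)
            _ = _ := mul_one _
      _ ≤ 1 := ih

/-- The chain lives on sets of size at most `j * n` when the weight lives on sets of size at
most `n`. -/
lemma chainW_support {n : ℕ} (hs : ∀ B : Finset X, n < B.card → h B = 0) (j : ℕ) (T : Finset X)
    (hT : chainW h r j T ≠ 0) : T.card ≤ j * n := by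
  induction j generalizing T with
  | zero =>
    simp only [chainW] at hT
    by_cases h0 : T = ∅
    · simp [h0]
    · simp [h0] at hT
  | succ j ih =>
    simp only [chainW] at hT
    obtain ⟨T', _, hT'⟩ := Finset.exists_ne_zero_of_sum_ne_zero hT
    obtain ⟨B, _, hB⟩ := Finset.exists_ne_zero_of_sum_ne_zero hT'
    by_cases hu : T' ∪ B = T
    · rw [if_pos hu] at hB
      have h1 : chainW h r j T' ≠ 0 := by
        intro h0
        apply hB
        simp [h0]
      have h2 : h B ≠ 0 := by
        intro h0
        apply hB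
        simp [h0]
      have h3 : B.card ≤ n := by
        by_contra hc
        exact h2 (hs B (not_le.mp hc))
      have h4 := ih T' h1
      rw [← hu]
      calc (T' ∪ B).card ≤ T'.card + B.card := Finset.card_union_le _ _
        _ ≤ j * n + n := add_le_add h4 h3
        _ = (j + 1) * n := by ring
    · rw [if_neg hu] at hB
      exact absurd rfl hB

/-- The mass of the chain on subsets of `I` at the next step. -/
lemma chain_mass_succ (I : Finset X) (j : ℕ) :
    ∑ T' ∈ I.powerset, chainW h r (j + 1) T' =
      ∑ T ∈ I.powerset, chainW h r j T * (∑ B ∈ I.powerset, h B) / kerMass h r T := by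
  classical
  have key : ∀ T B : Finset X,
      (∑ T' ∈ I.powerset, if T ∪ B = T' then chainW h r j T * h B / kerMass h r T else 0) =
        if T ⊆ I ∧ B ⊆ I then chainW h r j T * h B / kerMass h r T else 0 := by
    intro T B
    rw [Finset.sum_ite_eq]
    simp only [Finset.mem_powerset, Finset.union_subset_iff]
  calc ∑ T' ∈ I.powerset, chainW h r (j + 1) T'
      = ∑ T' ∈ I.powerset, ∑ T, ∑ B,
          (if T ∪ B = T' then chainW h r j T * h B / kerMass h r T else 0) := by
        refine Finset.sum_congr rfl (fun T' _ => ?_)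
        simp only [chainW]
    _ = ∑ T, ∑ B, ∑ T' ∈ I.powerset,
          (if T ∪ B = T' then chainW h r j T * h B / kerMass h r T else 0) := by
        rw [Finset.sum_comm]
        refine Finset.sum_congr rfl (fun T _ => ?_)
        rw [Finset.sum_comm]
    _ = ∑ T, ∑ B, (if T ⊆ I ∧ B ⊆ I then chainW h r j T * h B / kerMass h r T else 0) := by
        refine Finset.sum_congr rfl (fun T _ => Finset.sum_congr rfl (fun B _ => key T B))
    _ = ∑ T ∈ I.powerset, chainW h r j T * (∑ B ∈ I.powerset, h B) / kerMass h r T := by
        have hpow : ∀ c : Finset X → ℝ, ∑ T ∈ I.powerset, c T = ∑ T, if T ⊆ I then c T else 0 := by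
          intro c
          rw [← Finset.sum_filter]
          refine Finset.sum_congr ?_ (fun _ _ => rfl)
          ext B; simp
        rw [hpow (fun T => chainW h r j T * (∑ B ∈ I.powerset, h B) / kerMass h r T)]
        refine Finset.sum_congr rfl (fun T _ => ?_)
        by_cases hT : T ⊆ I
        · simp only [hT, true_and, if_true]
          rw [Finset.mul_sum, Finset.sum_div, hpow]
        · simp [hT]

/-- If the normaliser is at most `v` on all small subsets of `I`, the mass on subsets of `I` grows
geometrically. -/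
lemma chain_mass_lower (hh : ∀ B, 0 ≤ h B) (hr0 : 0 < r) {n N : ℕ} (hn : 0 < n)
    (hs : ∀ B : Finset X, n < B.card → h B = 0) (I : Finset X) {v : ℝ} (hv : 0 < v)
    (hD : ∀ T ⊆ I, T.card ≤ N → kerMass h r T ≤ v) (j : ℕ) (hj : j ≤ N / n + 1) :
    ((∑ B ∈ I.powerset, h B) / v) ^ j ≤ ∑ T ∈ I.powerset, chainW h r j T := by
  have hM : 0 ≤ ∑ B ∈ I.powerset, h B := Finset.sum_nonneg (fun B _ => hh B)
  induction j with
  | zero =>
    simp only [pow_zero]
    rw [Finset.sum_eq_single (∅ : Finset X)]
    · simp [chainW]
    · intro b _ hb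
      simp [chainW, hb]
    · intro h
      exact absurd (Finset.empty_mem_powerset I) h
  | succ j ih =>
    have ih' := ih (by omega)
    rw [chain_mass_succ, pow_succ]
    have hjn : j * n ≤ N := by
      have : j ≤ N / n := by omega
      exact (Nat.le_div_iff_mul_le hn).mp this
    have term : ∀ T ∈ I.powerset, chainW h r j T * ((∑ B ∈ I.powerset, h B) / v) ≤
        chainW h r j T * (∑ B ∈ I.powerset, h B) / kerMass h r T := by
      intro T hT
      have hTI : T ⊆ I := Finset.mem_powerset.mp hT
      by_cases hw : chainW h r j T = 0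
      · simp [hw]
      have hcard : T.card ≤ N := (chainW_support hs j T hw).trans hjn
      have hDv := hD T hTI hcard
      have hw0 := chainW_nonneg hh hr0.le j T
      by_cases hM0 : ∑ B ∈ I.powerset, h B = 0
      · simp [hM0]
      have hpos : 0 < kerMass h r T := by
        have hMpos : 0 < ∑ B ∈ I.powerset, h B := lt_of_le_of_ne hM (Ne.symm hM0)
        obtain ⟨B, _, hB⟩ := Finset.exists_ne_zero_of_sum_ne_zero hM0
        have hBpos : 0 < h B := lt_of_le_of_ne (hh B) (Ne.symm hB)
        have : h B * r ^ (B \ T).card ≤ kerMass h r T :=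
          Finset.single_le_sum (f := fun B => h B * r ^ (B \ T).card)
            (fun B _ => mul_nonneg (hh B) (pow_nonneg hr0.le _)) (Finset.mem_univ B)
        exact lt_of_lt_of_le (mul_pos hBpos (pow_pos hr0 _)) this
      rw [mul_div_assoc]
      exact mul_le_mul_of_nonneg_left (div_le_div_of_nonneg_left hM hpos hDv) hw0
    calc ((∑ B ∈ I.powerset, h B) / v) ^ j * ((∑ B ∈ I.powerset, h B) / v)
        ≤ (∑ T ∈ I.powerset, chainW h r j T) * ((∑ B ∈ I.powerset, h B) / v) :=
          mul_le_mul_of_nonneg_right ih' (div_nonneg hM hv.le)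
      _ = ∑ T ∈ I.powerset, chainW h r j T * ((∑ B ∈ I.powerset, h B) / v) := by
          rw [Finset.sum_mul]
      _ ≤ _ := Finset.sum_le_sum term

/-- One term of the chain recursion. -/
lemma chainW_succ_ge (hh : ∀ B, 0 ≤ h B) (hr : 0 ≤ r) (j : ℕ) (T B : Finset X) :
    chainW h r j T * h B / kerMass h r T ≤ chainW h r (j + 1) (T ∪ B) := by
  simp only [chainW]
  have hnn : ∀ T' B' : Finset X,
      0 ≤ (if T' ∪ B' = T ∪ B then chainW h r j T' * h B' / kerMass h r T' else 0) := by
    intro T' B'
    split_ifs
    · exact div_nonneg (mul_nonneg (chainW_nonneg hh hr j T') (hh B')) (kerMass_nonneg hh hr T')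
    · exact le_rfl
  calc chainW h r j T * h B / kerMass h r T
      = (if T ∪ B = T ∪ B then chainW h r j T * h B / kerMass h r T else 0) := by simp
    _ ≤ ∑ B', (if T ∪ B' = T ∪ B then chainW h r j T * h B' / kerMass h r T else 0) :=
        Finset.single_le_sum (f := fun B' =>
          (if T ∪ B' = T ∪ B then chainW h r j T * h B' / kerMass h r T else 0))
          (fun B' _ => hnn T B') (Finset.mem_univ B)
    _ ≤ ∑ T', ∑ B', (if T' ∪ B' = T ∪ B then chainW h r j T' * h B' / kerMass h r T' else 0) :=
        Finset.single_le_sum (f := fun T' => ∑ B',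
          (if T' ∪ B' = T ∪ B then chainW h r j T' * h B' / kerMass h r T' else 0))
          (fun T' _ => Finset.sum_nonneg (fun B' _ => hnn T' B')) (Finset.mem_univ T)

/-- A set every element of which lies in a heavy subset is reached by the chain with large
weight. -/
lemma chain_path_lower (hh : ∀ B, 0 ≤ h B) (hr0 : 0 < r) (I : Finset X) (hI : I.Nonempty)
    {η : ℝ} (hη : 0 < η)
    (hheavy : ∀ x ∈ I, ∃ B ⊆ I, x ∈ B ∧ 0 < h B ∧ ∀ T ⊆ I, η * kerMass h r T ≤ h B)
    (j : ℕ) : ∃ T ⊆ I, η ^ j ≤ chainW h r j T ∧ min j I.card ≤ T.card := by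
  induction j with
  | zero =>
    refine ⟨∅, Finset.empty_subset _, ?_, by simp⟩
    simp [chainW]
  | succ j ih =>
    obtain ⟨T, hTI, hw, hc⟩ := ih
    have hw0 : 0 ≤ η ^ j := (pow_pos hη j).le
    have gain : ∀ B, 0 < h B → η * kerMass h r T ≤ h B →
        η ^ (j + 1) ≤ chainW h r (j + 1) (T ∪ B) := by
      intro B hB hBk
      have hpos : 0 < kerMass h r T := by
        have : h B * r ^ (B \ T).card ≤ kerMass h r T :=
          Finset.single_le_sum (f := fun B => h B * r ^ (B \ T).card)
            (fun B _ => mul_nonneg (hh B) (pow_nonneg hr0.le _)) (Finset.mem_univ B)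
        exact lt_of_lt_of_le (mul_pos hB (pow_pos hr0 _)) this
      have h1 : η ≤ h B / kerMass h r T := (le_div_iff₀ hpos).mpr hBk
      calc η ^ (j + 1) = η ^ j * η := pow_succ _ _
        _ ≤ chainW h r j T * (h B / kerMass h r T) :=
            mul_le_mul hw h1 hη.le (chainW_nonneg hh hr0.le j T)
        _ = chainW h r j T * h B / kerMass h r T := by ring
        _ ≤ _ := chainW_succ_ge hh hr0.le j T B
    by_cases hTeq : T = I
    · obtain ⟨x, hx⟩ := hI
      obtain ⟨B, hBI, _, hB, hBk⟩ := hheavy x hx
      refine ⟨T ∪ B, Finset.union_subset hTI hBI, gain B hB (hBk T hTI), ?_⟩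
      have : (T ∪ B) = I := by
        rw [hTeq]
        exact Finset.union_eq_left.mpr hBI
      rw [this]
      exact min_le_right _ _
    · obtain ⟨x, hxI, hxT⟩ : ∃ x ∈ I, x ∉ T := by
        by_contra hcon
        push Not at hcon
        exact hTeq (Finset.Subset.antisymm hTI hcon)
      obtain ⟨B, hBI, hxB, hB, hBk⟩ := hheavy x hxI
      refine ⟨T ∪ B, Finset.union_subset hTI hBI, gain B hB (hBk T hTI), ?_⟩
      have hlt : T.card < (T ∪ B).card := by
        apply Finset.card_lt_card
        refine ⟨Finset.subset_union_left, fun hsub => hxT (hsub (Finset.mem_union_right _ hxB))⟩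
      have hle : (T ∪ B).card ≤ I.card := Finset.card_le_card (Finset.union_subset hTI hBI)
      have : T.card < I.card := lt_of_lt_of_le hlt hle
      have hc' : min j I.card ≤ T.card := hc
      rcases le_total j I.card with hjI | hjI
      · rw [min_eq_left hjI] at hc'
        exact (min_le_left _ _).trans (by omega)
      · rw [min_eq_right hjI] at hc'
        omega

/-- The total weighted size of a family of sets reached with weight at least `w`. -/
lemma family_cost_le (hh : ∀ B, 0 ≤ h B) (hr : 0 ≤ r) (j : ℕ) (𝓘 : Finset (Finset X)) {w : ℝ}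
    (hw : 0 < w) (hreach : ∀ I ∈ 𝓘, w ≤ chainW h r j I) :
    ∑ I ∈ 𝓘, r ^ I.card ≤ 1 / w := by
  rw [le_div_iff₀ hw]
  calc (∑ I ∈ 𝓘, r ^ I.card) * w = ∑ I ∈ 𝓘, r ^ I.card * w := by rw [Finset.sum_mul]
    _ ≤ ∑ I ∈ 𝓘, r ^ I.card * chainW h r j I :=
        Finset.sum_le_sum (fun I hI =>
          mul_le_mul_of_nonneg_left (hreach I hI) (pow_nonneg hr _))
    _ ≤ ∑ I, r ^ I.card * chainW h r j I :=
        Finset.sum_le_sum_of_subset_of_nonneg (Finset.subset_univ _)
          (fun I _ _ => mul_nonneg (pow_nonneg hr _) (chainW_nonneg hh hr j I))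
    _ ≤ 1 := chain_total hh hr j

end Vale.Agent.Lib.P034
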