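import Mathlib
import Vale.Agent.Lib.P034.Chain1

/-!
Derandomised rounding: a subfamily of items whose cost plus the weight of the targets it misses is
at most the expectation under independent inclusion.
-/

namespace Vale.Agent.Lib.P034
open Finset

open scoped Classical in
/-- Derandomised independent rounding, by induction on the items. -/
theorem rounding_exists {ι κ : Type*} (S : Finset ι) (c y : ι → ℝ)
    (hy0 : ∀ i, 0 ≤ y i) (hy1 : ∀ i, y i ≤ 1)
    (Tg : Finset κ) (R : ι → κ → Prop) :
    ∀ w : κ → ℝ, (∀ t, 0 ≤ w t) → ∃ 𝒯, 𝒯 ⊆ S ∧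
      ∑ i ∈ 𝒯, c i + ∑ t ∈ Tg, (if ∃ i ∈ 𝒯, R i t then 0 else w t) ≤
        ∑ i ∈ S, y i * c i + ∑ t ∈ Tg, w t * ∏ i ∈ S.filter (fun i => R i t), (1 - y i) := by
  induction S using Finset.induction_on with
  | empty =>
    intro w _
    refine ⟨∅, Finset.Subset.refl _, ?_⟩
    simp
  | insert a S ha ih =>
    intro w hw
    set P : κ → ℝ := fun t => ∏ i ∈ S.filter (fun i => R i t), (1 - y i) with hP
    have hP0 : ∀ t, 0 ≤ P t := fun t =>
      Finset.prod_nonneg (fun i _ => sub_nonneg.mpr (hy1 i))
    set w1 : κ → ℝ := fun t => if R a t then 0 else w t with hw1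
    have hw10 : ∀ t, 0 ≤ w1 t := by
      intro t
      simp only [hw1]
      split_ifs
      · exact le_rfl
      · exact hw t
    obtain ⟨T1, hT1, hV1⟩ := ih w1 hw10
    obtain ⟨T0, hT0, hV0⟩ := ih w hw
    set Sy : ℝ := ∑ i ∈ S, y i * c i with hSy
    set R1 : ℝ := Sy + ∑ t ∈ Tg, w1 t * P t with hR1
    set R0 : ℝ := Sy + ∑ t ∈ Tg, w t * P t with hR0
    have hfilter : ∀ t, ∏ i ∈ (insert a S).filter (fun i => R i t), (1 - y i) =
        if R a t then (1 - y a) * P t else P t := by
      intro t
      by_cases hat : R a t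
      · rw [Finset.filter_insert, if_pos hat, Finset.prod_insert, if_pos hat]
        simp [ha]
      · rw [Finset.filter_insert, if_neg hat, if_neg hat]
    have hRHS : ∑ i ∈ insert a S, y i * c i +
        ∑ t ∈ Tg, w t * ∏ i ∈ (insert a S).filter (fun i => R i t), (1 - y i) =
        y a * (c a + R1) + (1 - y a) * R0 := by
      rw [Finset.sum_insert ha]
      have e : ∑ t ∈ Tg, w t * ∏ i ∈ (insert a S).filter (fun i => R i t), (1 - y i) =
          y a * (∑ t ∈ Tg, w1 t * P t) + (1 - y a) * ∑ t ∈ Tg, w t * P t := by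
        rw [Finset.mul_sum, Finset.mul_sum, ← Finset.sum_add_distrib]
        refine Finset.sum_congr rfl (fun t _ => ?_)
        rw [hfilter t]
        simp only [hw1]
        split_ifs <;> ring
      rw [e, hR1, hR0]
      ring
    have hya0 := hy0 a
    have hya1 := hy1 a
    by_cases hcase : c a + R1 ≤ R0
    · refine ⟨insert a T1, Finset.insert_subset_insert a hT1, ?_⟩
      have hnot : a ∉ T1 := fun h => ha (hT1 h)
      rw [hRHS, Finset.sum_insert hnot]
      have eterm : ∀ t, (if ∃ i ∈ insert a T1, R i t then (0 : ℝ) else w t) =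
          if ∃ i ∈ T1, R i t then 0 else w1 t := by
        intro t
        by_cases hat : R a t
        · have h1 : ∃ i ∈ insert a T1, R i t := ⟨a, Finset.mem_insert_self _ _, hat⟩
          rw [if_pos h1]
          simp only [hw1, if_pos hat]
          split_ifs <;> rfl
        · have h2 : (∃ i ∈ insert a T1, R i t) ↔ ∃ i ∈ T1, R i t := by
            constructor
            · rintro ⟨i, hi, hRi⟩
              rcases Finset.mem_insert.mp hi with rfl | hi
              · exact absurd hRi hat
              · exact ⟨i, hi, hRi⟩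
            · rintro ⟨i, hi, hRi⟩
              exact ⟨i, Finset.mem_insert_of_mem hi, hRi⟩
          simp only [hw1, if_neg hat, h2]
      rw [Finset.sum_congr rfl (fun t _ => eterm t)]
      have hV1' : ∑ i ∈ T1, c i + ∑ t ∈ Tg, (if ∃ i ∈ T1, R i t then 0 else w1 t) ≤ R1 := hV1
      nlinarith
    · refine ⟨T0, hT0.trans (Finset.subset_insert a S), ?_⟩
      rw [hRHS]
      have hV0' : ∑ i ∈ T0, c i + ∑ t ∈ Tg, (if ∃ i ∈ T0, R i t then 0 else w t) ≤ R0 := hV0
      push Not at hcase
      nlinarith

/-- A product of `1 - min 1 u` is bounded by the exponential of minus the sum. -/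
lemma prod_one_sub_min_le {ι : Type*} (S : Finset ι) (u : ι → ℝ) :
    ∏ i ∈ S, (1 - min 1 (u i)) ≤ Real.exp (-∑ i ∈ S, u i) := by
  rw [← Finset.sum_neg_distrib, Real.exp_sum]
  refine Finset.prod_le_prod (fun i _ => sub_nonneg.mpr (min_le_left _ _)) (fun i _ => ?_)
  rcases le_total 1 (u i) with h | h
  · rw [min_eq_left h]
    simpa using (Real.exp_pos _).le
  · rw [min_eq_right h]
    have := Real.add_one_le_exp (-(u i))
    linarith

end Vale.Agent.Lib.P034
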