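import Mathlib
import Vale.Agent.Lib.P034.Chain2

/-!
The step lemma: chain amplification, a universe free bound on the minimal certificates, and
rounding.
-/

namespace Vale.Agent.Lib.P034
open Finset

variable {X : Type*} [Fintype X] [DecidableEq X]

/-- The weight `h` with all values below `γ` on nonempty sets removed. -/
noncomputable def thresh (h : Finset X → ℝ) (γ : ℝ) (B : Finset X) : ℝ :=
  if B = ∅ ∨ γ ≤ h B then h B else 0

variable {h : Finset X → ℝ} {r γ : ℝ}

lemma thresh_nonneg (hh : ∀ B, 0 ≤ h B) (B : Finset X) : 0 ≤ thresh h γ B := by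
  unfold thresh
  split_ifs
  · exact hh B
  · exact le_rfl

lemma thresh_le (hh : ∀ B, 0 ≤ h B) (B : Finset X) : thresh h γ B ≤ h B := by
  unfold thresh
  split_ifs
  · exact le_rfl
  · exact hh B

lemma kerMass_thresh_le (hh : ∀ B, 0 ≤ h B) (hr : 0 ≤ r) (T : Finset X) :
    kerMass (thresh h γ) r T ≤ kerMass h r T :=
  Finset.sum_le_sum (fun B _ => mul_le_mul_of_nonneg_right (thresh_le hh B) (pow_nonneg hr _))

lemma thresh_mass (hγ : 0 ≤ γ) (I : Finset X) :
    ∑ B ∈ I.powerset, h B ≤ ∑ B ∈ I.powerset, thresh h γ B + 2 ^ I.card * γ := by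
  have hcard : ∑ _B ∈ I.powerset, γ = 2 ^ I.card * γ := by
    rw [Finset.sum_const, Finset.card_powerset, nsmul_eq_mul]
    push_cast
    ring
  rw [← hcard, ← Finset.sum_add_distrib]
  refine Finset.sum_le_sum (fun B _ => ?_)
  unfold thresh
  split_ifs with hc
  · linarith
  · push Not at hc
    linarith [hc.2]

lemma exists_minimal_sub (P : Finset X → Prop) (I0 : Finset X) (h0 : P I0) :
    ∃ I, I ⊆ I0 ∧ P I ∧ ∀ x ∈ I, ¬ P (I.erase x) := by
  induction' hn : I0.card using Nat.strong_induction_on with n ih generalizing I0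
  by_cases hx : ∃ x ∈ I0, P (I0.erase x)
  · obtain ⟨x, hxI, hPx⟩ := hx
    have hlt : (I0.erase x).card < n := by
      rw [← hn]
      exact Finset.card_erase_lt_of_mem hxI
    obtain ⟨I, hI, hPI, hmin⟩ := ih _ hlt (I0.erase x) hPx rfl
    exact ⟨I, hI.trans (Finset.erase_subset _ _), hPI, hmin⟩
  · push Not at hx
    exact ⟨I0, Finset.Subset.refl _, h0, hx⟩

/-- In a minimal set of large mass every element lies in a subset of positive weight. -/
lemma minimal_heavy {f : Finset X → ℝ} (hf : ∀ B, 0 ≤ f B) {w : ℝ} (I : Finset X)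
    (hI : w ≤ ∑ B ∈ I.powerset, f B)
    (hmin : ∀ x ∈ I, ¬ w ≤ ∑ B ∈ (I.erase x).powerset, f B) (x : X) (hx : x ∈ I) :
    ∃ B, B ⊆ I ∧ x ∈ B ∧ 0 < f B := by
  by_contra hcon
  push Not at hcon
  apply hmin x hx
  have : ∑ B ∈ (I.erase x).powerset, f B = ∑ B ∈ I.powerset, f B := by
    apply Finset.sum_subset
    · exact Finset.powerset_mono.mpr (Finset.erase_subset _ _)
    · intro B hB hB'
      have hBI : B ⊆ I := Finset.mem_powerset.mp hB
      have hxB : x ∈ B := by
        by_contra hxB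
        apply hB'
        rw [Finset.mem_powerset]
        intro y hy
        rw [Finset.mem_erase]
        exact ⟨fun e => hxB (e ▸ hy), hBI hy⟩
      exact le_antisymm (hcon B hBI hxB) (hf B)
  rw [this]
  exact hI

/-- The step lemma for a weight function. -/
theorem step_cover (hh : ∀ B, 0 ≤ h B) {n : ℕ} (hn : 0 < n)
    (hs : ∀ B : Finset X, n < B.card → h B = 0) (hr0 : 0 < r)
    (Seedless : Finset X → Prop) (hanti : ∀ T I, T ⊆ I → Seedless I → Seedless T)
    (hseed : ∀ T, Seedless T → kerMass h r T ≤ 2 ^ T.card)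
    (N N' : ℕ) {v w lam : ℝ} (hv : 0 < v) (hγ : 0 < γ) (hlam : 0 ≤ lam) (hw0 : h ∅ < w) :
    ∃ C : Finset (Finset X),
      ∑ T ∈ C, r ^ T.card ≤
        lam + (2 ^ N' / γ) ^ N' * Real.exp (-(lam * ((w / v) ^ (N / n + 1) - 1))) ∧
      ∀ I0, Seedless I0 → I0.card ≤ N' → (∀ I' ⊆ I0, I'.card ≤ N → kerMass h r I' ≤ v) →
        w + 2 ^ N' * γ ≤ ∑ B ∈ I0.powerset, h B → ∃ T ∈ C, T ⊆ I0 := by
  classical
  set f : Finset X → ℝ := thresh h γ with hf
  have hf0 : ∀ B, 0 ≤ f B := thresh_nonneg hh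
  have hker : ∀ T, kerMass f r T ≤ kerMass h r T := kerMass_thresh_le hh hr0.le
  have hfs : ∀ B : Finset X, n < B.card → f B = 0 := by
    intro B hB
    simp only [hf, thresh]
    rw [hs B hB]
    split_ifs <;> rfl
  set k := N / n + 1 with hk
  set η : ℝ := γ / 2 ^ N' with hη
  have hηpos : 0 < η := div_pos hγ (by positivity)
  set 𝓘 : Finset (Finset X) := Finset.univ.filter (fun I =>
    Seedless I ∧ I.card ≤ N' ∧ (w ≤ ∑ B ∈ I.powerset, f B) ∧
      (∀ x ∈ I, ¬ w ≤ ∑ B ∈ (I.erase x).powerset, f B) ∧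
      (∀ I' ⊆ I, I'.card ≤ N → kerMass h r I' ≤ v)) with h𝓘
  -- every member is reached by the chain with large weight
  have hreach : ∀ I ∈ 𝓘, η ^ N' ≤ chainW f r N' I := by
    intro I hI
    simp only [h𝓘, Finset.mem_filter, Finset.mem_univ, true_and] at hI
    obtain ⟨hSI, hcard, hmass, hmin, _⟩ := hI
    have hne : I.Nonempty := by
      by_contra hne
      rw [Finset.not_nonempty_iff_eq_empty] at hne
      subst hne
      simp only [Finset.powerset_empty, Finset.sum_singleton] at hmass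
      have : f ∅ ≤ h ∅ := thresh_le hh ∅
      linarith
    have hheavy : ∀ x ∈ I, ∃ B ⊆ I, x ∈ B ∧ 0 < f B ∧ ∀ T ⊆ I, η * kerMass f r T ≤ f B := by
      intro x hx
      obtain ⟨B, hBI, hxB, hBpos⟩ := minimal_heavy hf0 I hmass hmin x hx
      refine ⟨B, hBI, hxB, hBpos, fun T hT => ?_⟩
      have hBne : B ≠ ∅ := fun e => by simp [e] at hxB
      have hBval : γ ≤ f B := by
        have : f B = h B ∧ γ ≤ h B := by
          simp only [hf, thresh] at hBpos ⊢
          by_cases hc : B = ∅ ∨ γ ≤ h B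
          · rw [if_pos hc]
            exact ⟨rfl, hc.resolve_left hBne⟩
          · rw [if_neg hc] at hBpos
            exact absurd hBpos (lt_irrefl _)
        rw [this.1]
        exact this.2
      have hk1 : kerMass f r T ≤ 2 ^ N' := by
        calc kerMass f r T ≤ kerMass h r T := hker T
          _ ≤ 2 ^ T.card := hseed T (hanti T I hT hSI)
          _ ≤ 2 ^ N' := pow_le_pow_right₀ (by norm_num)
              ((Finset.card_le_card hT).trans hcard)
      calc η * kerMass f r T ≤ η * 2 ^ N' := mul_le_mul_of_nonneg_left hk1 hηpos.le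
        _ = γ := by rw [hη]; field_simp
        _ ≤ f B := hBval
    obtain ⟨T, hTI, hT1, hT2⟩ := chain_path_lower hf0 hr0 I hne hηpos hheavy N'
    have hTeq : T = I := by
      apply Finset.eq_of_subset_of_card_le hTI
      rwa [min_eq_right hcard] at hT2
    rwa [hTeq] at hT1
  have hcost𝓘 : ∑ I ∈ 𝓘, r ^ I.card ≤ (2 ^ N' / γ) ^ N' := by
    have h1 := family_cost_le hf0 hr0.le N' 𝓘 (pow_pos hηpos N') hreach
    have h2 : 1 / η ^ N' = (2 ^ N' / γ) ^ N' := by
      rw [hη, one_div, ← inv_pow, inv_div]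
    rwa [h2] at h1
  -- the mass of the chain on nonempty subsets of a member
  set E : ℝ := Real.exp (-(lam * ((w / v) ^ k - 1))) with hE
  have hEpos : 0 ≤ E := (Real.exp_pos _).le
  set S : Finset (Finset X) := Finset.univ.filter (fun T => T ≠ ∅) with hS
  set u : Finset X → ℝ := fun T => lam * chainW f r k T with hu
  set y : Finset X → ℝ := fun T => min 1 (u T) with hy
  have hu0 : ∀ T, 0 ≤ u T := fun T => mul_nonneg hlam (chainW_nonneg hf0 hr0.le k T)
  have hy0 : ∀ T, 0 ≤ y T := fun T => le_min zero_le_one (hu0 T)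
  have hy1 : ∀ T, y T ≤ 1 := fun T => min_le_left _ _
  obtain ⟨𝒯, h𝒯S, hround⟩ := rounding_exists S (fun T => r ^ T.card) y hy0 hy1 𝓘
    (fun T I => T ⊆ I) (fun I => r ^ I.card) (fun I => pow_nonneg hr0.le _)
  have hprod : ∀ I ∈ 𝓘, ∏ T ∈ S.filter (fun T => T ⊆ I), (1 - y T) ≤ E := by
    intro I hI
    simp only [h𝓘, Finset.mem_filter, Finset.mem_univ, true_and] at hI
    obtain ⟨_, _, hmass, _, hD⟩ := hI
    have hD' : ∀ T ⊆ I, T.card ≤ N → kerMass f r T ≤ v :=
      fun T hT hc => (hker T).trans (hD T hT hc)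
    have hlow := chain_mass_lower hf0 hr0 hn hfs I hv hD' k le_rfl
    have hratio : (w / v) ^ k ≤ ((∑ B ∈ I.powerset, f B) / v) ^ k := by
      have hw0' : 0 ≤ w := le_trans (hh ∅) hw0.le
      exact pow_le_pow_left₀ (div_nonneg hw0' hv.le)
        (div_le_div_of_nonneg_right hmass hv.le) k
    have hempty : chainW f r k ∅ ≤ 1 := by
      have h1 := chain_total hf0 hr0.le k
      have h2 : r ^ (∅ : Finset X).card * chainW f r k ∅ ≤ ∑ T, r ^ T.card * chainW f r k T :=
        Finset.single_le_sum (f := fun T => r ^ T.card * chainW f r k T)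
          (fun T _ => mul_nonneg (pow_nonneg hr0.le _) (chainW_nonneg hf0 hr0.le k T))
          (Finset.mem_univ _)
      simp only [Finset.card_empty, pow_zero, one_mul] at h2
      linarith
    have hsplit : ∑ T ∈ I.powerset, chainW f r k T =
        chainW f r k ∅ + ∑ T ∈ S.filter (fun T => T ⊆ I), chainW f r k T := by
      rw [← Finset.add_sum_erase _ _ (Finset.empty_mem_powerset I)]
      congr 1
      refine Finset.sum_congr ?_ (fun _ _ => rfl)
      ext T
      simp [hS, and_comm]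
    have hsum : (w / v) ^ k - 1 ≤ ∑ T ∈ S.filter (fun T => T ⊆ I), chainW f r k T := by
      linarith
    calc ∏ T ∈ S.filter (fun T => T ⊆ I), (1 - y T)
        ≤ Real.exp (-∑ T ∈ S.filter (fun T => T ⊆ I), u T) := prod_one_sub_min_le _ _
      _ ≤ E := by
          apply Real.exp_le_exp.mpr
          apply neg_le_neg
          simp only [hu]
          rw [← Finset.mul_sum]
          exact mul_le_mul_of_nonneg_left hsum hlam
  have hyc : ∑ T ∈ S, y T * r ^ T.card ≤ lam := by
    calc ∑ T ∈ S, y T * r ^ T.card ≤ ∑ T ∈ S, lam * (r ^ T.card * chainW f r k T) := by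
          refine Finset.sum_le_sum (fun T _ => ?_)
          have : y T ≤ lam * chainW f r k T := min_le_right _ _
          calc y T * r ^ T.card ≤ (lam * chainW f r k T) * r ^ T.card :=
                mul_le_mul_of_nonneg_right this (pow_nonneg hr0.le _)
            _ = _ := by ring
      _ ≤ ∑ T, lam * (r ^ T.card * chainW f r k T) :=
          Finset.sum_le_sum_of_subset_of_nonneg (Finset.subset_univ _)
            (fun T _ _ => mul_nonneg hlam (mul_nonneg (pow_nonneg hr0.le _)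
              (chainW_nonneg hf0 hr0.le k T)))
      _ = lam * ∑ T, r ^ T.card * chainW f r k T := by rw [Finset.mul_sum]
      _ ≤ lam * 1 := mul_le_mul_of_nonneg_left (chain_total hf0 hr0.le k) hlam
      _ = lam := mul_one _
  have htarget : ∑ I ∈ 𝓘, r ^ I.card * ∏ T ∈ S.filter (fun T => T ⊆ I), (1 - y T) ≤
      (2 ^ N' / γ) ^ N' * E := by
    calc ∑ I ∈ 𝓘, r ^ I.card * ∏ T ∈ S.filter (fun T => T ⊆ I), (1 - y T)
        ≤ ∑ I ∈ 𝓘, r ^ I.card * E :=
          Finset.sum_le_sum (fun I hI =>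
            mul_le_mul_of_nonneg_left (hprod I hI) (pow_nonneg hr0.le _))
      _ = (∑ I ∈ 𝓘, r ^ I.card) * E := by rw [Finset.sum_mul]
      _ ≤ _ := mul_le_mul_of_nonneg_right hcost𝓘 hEpos
  set Miss : Finset (Finset X) := 𝓘.filter (fun I => ¬ ∃ T ∈ 𝒯, T ⊆ I) with hMiss
  refine ⟨𝒯 ∪ Miss, ?_, ?_⟩
  · have hmisscost : ∑ I ∈ Miss, r ^ I.card =
        ∑ I ∈ 𝓘, (if ∃ T ∈ 𝒯, T ⊆ I then 0 else r ^ I.card) := by
      rw [hMiss, Finset.sum_filter]
      refine Finset.sum_congr rfl (fun I _ => ?_)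
      by_cases hc : ∃ T ∈ 𝒯, T ⊆ I
      · rw [if_pos hc, if_neg (not_not.mpr hc)]
      · rw [if_neg hc, if_pos hc]
    have hunion : ∑ T ∈ 𝒯 ∪ Miss, r ^ T.card ≤ ∑ T ∈ 𝒯, r ^ T.card + ∑ T ∈ Miss, r ^ T.card := by
      rw [← Finset.sum_union_inter]
      have : 0 ≤ ∑ T ∈ 𝒯 ∩ Miss, r ^ T.card := Finset.sum_nonneg (fun T _ => pow_nonneg hr0.le _)
      linarith
    have hround' : ∑ T ∈ 𝒯, r ^ T.card + ∑ I ∈ Miss, r ^ I.card ≤
        ∑ T ∈ S, y T * r ^ T.card +
          ∑ I ∈ 𝓘, r ^ I.card * ∏ T ∈ S.filter (fun T => T ⊆ I), (1 - y T) := by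
      rw [hmisscost]
      convert hround using 3
      · split_ifs <;> rfl
      · congr 1
        refine Finset.prod_congr ?_ (fun _ _ => rfl)
        ext T
        simp only [Finset.mem_filter]
    linarith
  · intro I0 hS0 hc0 hD0 hmass0
    have hmass1 : w ≤ ∑ B ∈ I0.powerset, f B := by
      have h1 := thresh_mass (h := h) hγ.le I0
      have h2 : (2 : ℝ) ^ I0.card * γ ≤ 2 ^ N' * γ :=
        mul_le_mul_of_nonneg_right (pow_le_pow_right₀ (by norm_num) hc0) hγ.le
      linarith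
    obtain ⟨I, hI0, hPI, hmin⟩ := exists_minimal_sub (fun I => w ≤ ∑ B ∈ I.powerset, f B) I0 hmass1
    have hImem : I ∈ 𝓘 := by
      simp only [h𝓘, Finset.mem_filter, Finset.mem_univ, true_and]
      refine ⟨hanti I I0 hI0 hS0, (Finset.card_le_card hI0).trans hc0, hPI, hmin, ?_⟩
      exact fun I' hI' hc => hD0 I' (hI'.trans hI0) hc
    by_cases hc : ∃ T ∈ 𝒯, T ⊆ I
    · obtain ⟨T, hT, hTI⟩ := hc
      exact ⟨T, Finset.mem_union_left _ hT, hTI.trans hI0⟩
    · exact ⟨I, Finset.mem_union_right _ (Finset.mem_filter.mpr ⟨hImem, hc⟩), hI0⟩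

end Vale.Agent.Lib.P034
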