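import Mathlib
import Vale.Agent.Lib.P034.Chain3

/-!
The interpolated weights: the polynomial `phiA`, the kernel weight `hW`, and their identities.
-/

namespace Vale.Agent.Lib.P034
open Finset

variable {X : Type*} [Fintype X] [DecidableEq X]

/-- The value `∑ S, g S * a ^ |S \ I|`. At `a = 0` it is the mass of `g` on subsets of `I`. -/
noncomputable def phiA (g : Finset X → ℝ) (a : ℝ) (I : Finset X) : ℝ :=
  ∑ S, g S * a ^ (S \ I).card

/-- The sum over the sets containing `A` of `g S * b ^ |S \ A|`. -/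
noncomputable def seedSum (g : Finset X → ℝ) (b : ℝ) (A : Finset X) : ℝ :=
  ∑ S ∈ univ.filter (fun S => A ⊆ S), g S * b ^ (S \ A).card

/-- The kernel weight attached to `g` at the parameter `a`. -/
noncomputable def hW (g : Finset X → ℝ) (a : ℝ) (B : Finset X) : ℝ :=
  (1 - a) ^ B.card * seedSum g a B

/-- No nonempty subset of `T` has `seedSum` at least one. -/
def SeedFree (g : Finset X → ℝ) (b : ℝ) (T : Finset X) : Prop :=
  ∀ A ⊆ T, A ≠ ∅ → seedSum g b A < 1

/-- The nonempty sets with `seedSum` at least one. -/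
noncomputable def seedSets (g : Finset X → ℝ) (b : ℝ) : Finset (Finset X) :=
  univ.filter (fun A => A ≠ ∅ ∧ 1 ≤ seedSum g b A)

variable {g : Finset X → ℝ}

omit [Fintype X] in
lemma prod_ite_mem_eq (t I : Finset X) (r : ℝ) :
    ∏ x ∈ t, (if x ∈ I then (1 : ℝ) else r) = r ^ (t \ I).card := by
  rw [Finset.prod_ite]
  simp only [Finset.prod_const_one, one_mul, Finset.prod_const]
  congr 2
  ext x
  simp [Finset.mem_sdiff]

omit [Fintype X] in
lemma fiber_identity (a r : ℝ) (S I : Finset X) :
    ∑ B ∈ S.powerset, (1 - a) ^ B.card * a ^ (S \ B).card * r ^ (B \ I).card =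
      (a + (1 - a) * r) ^ (S \ I).card := by
  have key := Finset.prod_add (fun x => (1 - a) * (if x ∈ I then (1 : ℝ) else r)) (fun _ => a) S
  have e1 : ∏ x ∈ S, ((1 - a) * (if x ∈ I then (1 : ℝ) else r) + a) =
      ∏ x ∈ S, (if x ∈ I then (1 : ℝ) else (a + (1 - a) * r)) := by
    refine Finset.prod_congr rfl (fun x _ => ?_)
    split_ifs <;> ring
  rw [e1, prod_ite_mem_eq] at key
  rw [key]
  refine Finset.sum_congr rfl (fun B _ => ?_)
  rw [Finset.prod_mul_distrib, prod_ite_mem_eq, Finset.prod_const, Finset.prod_const]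
  ring

/-- The basic identity: the kernel mass of `hW g a` at `r` is `phiA g` at `a + (1 - a) * r`. -/
theorem kerMass_hW (a r : ℝ) (I : Finset X) :
    kerMass (hW g a) r I = phiA g (a + (1 - a) * r) I := by
  unfold kerMass hW seedSum phiA
  have h1 : ∀ B : Finset X, (1 - a) ^ B.card *
        (∑ S ∈ univ.filter (fun S => B ⊆ S), g S * a ^ (S \ B).card) * r ^ (B \ I).card =
      ∑ S ∈ univ.filter (fun S => B ⊆ S),
        g S * ((1 - a) ^ B.card * a ^ (S \ B).card * r ^ (B \ I).card) := by
    intro B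
    rw [Finset.mul_sum, Finset.sum_mul]
    refine Finset.sum_congr rfl (fun S _ => ?_)
    ring
  simp only [h1]
  rw [Finset.sum_comm' (s' := fun S => S.powerset) (t' := Finset.univ)]
  · refine Finset.sum_congr rfl (fun S _ => ?_)
    rw [← Finset.mul_sum, fiber_identity]
  · intro B S
    simp [Finset.mem_powerset]

omit [Fintype X] in
lemma zero_pow_sdiff (B I : Finset X) :
    (0 : ℝ) ^ (B \ I).card = if B ⊆ I then 1 else 0 := by
  by_cases h : B ⊆ I
  · rw [if_pos h, Finset.sdiff_eq_empty_iff_subset.mpr h]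
    simp
  · rw [if_neg h]
    apply zero_pow
    intro hc
    exact h (Finset.sdiff_eq_empty_iff_subset.mp (Finset.card_eq_zero.mp hc))

lemma sum_zero_pow_sdiff (F : Finset X → ℝ) (I : Finset X) :
    ∑ B, F B * (0 : ℝ) ^ (B \ I).card = ∑ B ∈ I.powerset, F B := by
  rw [← Finset.sum_subset (Finset.subset_univ I.powerset)]
  · refine Finset.sum_congr rfl (fun B hB => ?_)
    rw [zero_pow_sdiff, if_pos (Finset.mem_powerset.mp hB), mul_one]
  · intro B _ hB
    rw [zero_pow_sdiff, if_neg (fun h => hB (Finset.mem_powerset.mpr h)), mul_zero]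

/-- Summing the kernel weight over subsets gives `phiA`. -/
theorem sum_powerset_hW (a : ℝ) (I : Finset X) :
    ∑ B ∈ I.powerset, hW g a B = phiA g a I := by
  have h := kerMass_hW (g := g) a 0 I
  unfold kerMass at h
  rw [sum_zero_pow_sdiff] at h
  rw [h]
  simp

lemma phiA_zero (D : Finset X) : phiA g 0 D = ∑ S ∈ D.powerset, g S := by
  unfold phiA
  exact sum_zero_pow_sdiff g D

lemma hW_empty (a : ℝ) : hW g a (∅ : Finset X) = phiA g a ∅ := by
  simp [hW, seedSum, phiA]

lemma seedSum_nonneg (hg : ∀ S, 0 ≤ g S) {b : ℝ} (hb : 0 ≤ b) (A : Finset X) :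
    0 ≤ seedSum g b A :=
  Finset.sum_nonneg (fun S _ => mul_nonneg (hg S) (pow_nonneg hb _))

lemma hW_nonneg (hg : ∀ S, 0 ≤ g S) {a : ℝ} (ha0 : 0 ≤ a) (ha1 : a ≤ 1) (B : Finset X) :
    0 ≤ hW g a B :=
  mul_nonneg (pow_nonneg (sub_nonneg.mpr ha1) _) (seedSum_nonneg hg ha0 B)

lemma hW_support {n : ℕ} (hs : ∀ S : Finset X, S.card ≠ n → g S = 0) (a : ℝ) (B : Finset X)
    (hB : n < B.card) : hW g a B = 0 := by
  unfold hW seedSum
  rw [Finset.sum_eq_zero, mul_zero]
  intro S hS
  have hBS : B ⊆ S := (Finset.mem_filter.mp hS).2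
  have : S.card ≠ n := by
    have := Finset.card_le_card hBS
    omega
  rw [hs S this, zero_mul]

lemma phiA_mono (hg : ∀ S, 0 ≤ g S) {a b : ℝ} (ha : 0 ≤ a) (hab : a ≤ b) (I : Finset X) :
    phiA g a I ≤ phiA g b I :=
  Finset.sum_le_sum (fun S _ => mul_le_mul_of_nonneg_left
    (pow_le_pow_left₀ ha hab _) (hg S))

lemma seedFree_anti {b : ℝ} {T I : Finset X} (hTI : T ⊆ I) (h : SeedFree g b I) :
    SeedFree g b T := fun A hA hne => h A (hA.trans hTI) hne

lemma seedFree_of_no_seed {b : ℝ} {T : Finset X} (h : ∀ A ∈ seedSets g b, ¬ A ⊆ T) :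
    SeedFree g b T := by
  intro A hA hne
  by_contra hc
  push Not at hc
  exact h A (Finset.mem_filter.mpr ⟨Finset.mem_univ _, hne, hc⟩) hA

/-- The cost of the seed sets. -/
theorem seedSets_cost (hg : ∀ S, 0 ≤ g S) {b r : ℝ} (hb : 0 ≤ b) (hr : 0 ≤ r) :
    ∑ A ∈ seedSets g b, r ^ A.card ≤ ∑ S, g S * (r + b) ^ S.card := by
  calc ∑ A ∈ seedSets g b, r ^ A.card
      ≤ ∑ A ∈ seedSets g b, r ^ A.card * seedSum g b A := by
        refine Finset.sum_le_sum (fun A hA => ?_)
        have h1 : 1 ≤ seedSum g b A := (Finset.mem_filter.mp hA).2.2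
        exact le_mul_of_one_le_right (pow_nonneg hr _) h1
    _ ≤ ∑ A, r ^ A.card * seedSum g b A :=
        Finset.sum_le_sum_of_subset_of_nonneg (Finset.subset_univ _)
          (fun A _ _ => mul_nonneg (pow_nonneg hr _) (seedSum_nonneg hg hb A))
    _ = ∑ S, g S * (r + b) ^ S.card := by
        unfold seedSum
        simp only [Finset.mul_sum]
        rw [Finset.sum_comm' (s' := fun S => S.powerset) (t' := Finset.univ)]
        · refine Finset.sum_congr rfl (fun S _ => ?_)
          rw [← Finset.sum_pow_mul_eq_add_pow, Finset.mul_sum]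
          refine Finset.sum_congr rfl (fun A hA => ?_)
          rw [Finset.card_sdiff_of_subset (Finset.mem_powerset.mp hA)]
          ring
        · intro A S
          simp [Finset.mem_powerset]

/-- On seed free sets the polynomial is at most `2 ^ |T|`. -/
theorem seedFree_phi_le (hg : ∀ S, 0 ≤ g S) {b bs : ℝ} (hb0 : 0 ≤ b) (hb : b ≤ bs)
    (hΦ : phiA g bs ∅ ≤ 1) {T : Finset X} (hT : SeedFree g bs T) :
    phiA g b T ≤ 2 ^ T.card := by
  have hbs0 : 0 ≤ bs := hb0.trans hb
  have hfib : phiA g b T = ∑ A ∈ T.powerset,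
      ∑ S ∈ univ.filter (fun S => S ∩ T = A), g S * b ^ (S \ T).card := by
    unfold phiA
    rw [Finset.sum_fiberwise_of_maps_to]
    intro S _
    exact Finset.mem_powerset.mpr Finset.inter_subset_right
  rw [hfib]
  have hone : ∀ A ∈ T.powerset,
      ∑ S ∈ univ.filter (fun S => S ∩ T = A), g S * b ^ (S \ T).card ≤ 1 := by
    intro A hA
    have hAT : A ⊆ T := Finset.mem_powerset.mp hA
    by_cases hne : A = ∅
    · subst hne
      calc ∑ S ∈ univ.filter (fun S => S ∩ T = ∅), g S * b ^ (S \ T).card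
          ≤ ∑ S, g S * bs ^ (S \ (∅ : Finset X)).card := by
            refine (Finset.sum_le_sum (fun S hS => ?_)).trans
              (Finset.sum_le_sum_of_subset_of_nonneg (Finset.subset_univ _)
                (fun S _ _ => mul_nonneg (hg S) (pow_nonneg hbs0 _)))
            have hSe : S ∩ T = ∅ := (Finset.mem_filter.mp hS).2
            have hST : S \ T = S \ ∅ := by
              rw [Finset.sdiff_empty]
              exact Finset.sdiff_eq_self_of_disjoint (Finset.disjoint_iff_inter_eq_empty.mpr hSe)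
            rw [hST]
            exact mul_le_mul_of_nonneg_left (pow_le_pow_left₀ hb0 hb _) (hg S)
        _ ≤ 1 := hΦ
    · have hlt := hT A hAT hne
      refine le_trans ?_ hlt.le
      unfold seedSum
      calc ∑ S ∈ univ.filter (fun S => S ∩ T = A), g S * b ^ (S \ T).card
          ≤ ∑ S ∈ univ.filter (fun S => S ∩ T = A), g S * bs ^ (S \ A).card := by
            refine Finset.sum_le_sum (fun S hS => ?_)
            have hSe : S ∩ T = A := (Finset.mem_filter.mp hS).2
            have hST : S \ T = S \ A := by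
              rw [← hSe]
              ext x
              simp only [Finset.mem_sdiff, Finset.mem_inter]
              tauto
            rw [hST]
            exact mul_le_mul_of_nonneg_left (pow_le_pow_left₀ hb0 hb _) (hg S)
        _ ≤ ∑ S ∈ univ.filter (fun S => A ⊆ S), g S * bs ^ (S \ A).card := by
            refine Finset.sum_le_sum_of_subset_of_nonneg ?_
              (fun S _ _ => mul_nonneg (hg S) (pow_nonneg hbs0 _))
            intro S hS
            have hSe : S ∩ T = A := (Finset.mem_filter.mp hS).2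
            refine Finset.mem_filter.mpr ⟨Finset.mem_univ _, ?_⟩
            rw [← hSe]
            exact Finset.inter_subset_left
  calc ∑ A ∈ T.powerset, ∑ S ∈ univ.filter (fun S => S ∩ T = A), g S * b ^ (S \ T).card
      ≤ ∑ _A ∈ T.powerset, (1 : ℝ) := Finset.sum_le_sum hone
    _ = 2 ^ T.card := by
        rw [Finset.sum_const, Finset.card_powerset]
        simp

end Vale.Agent.Lib.P034
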