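import Mathlib

/-!
Numbers for the level induction: the scale sequence and two exponential inequalities.
-/

namespace Vale.Agent.Lib.P034

/-- The threshold for the class of `n`-sets: these thresholds sum to less than one half. -/
noncomputable def wn (n : ℕ) : ℝ := 1 / (2 * n * (n + 1))

/-- The size scales at the class of `n`-sets. -/
def Nn (n : ℕ) : ℕ → ℕ
  | 0 => 2 ^ (14 * n)
  | j + 1 => 2 ^ Nat.sqrt (Nn n j)

/-- A tower type sequence, starting at `2 ^ 14`. -/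
def tower : ℕ → ℕ
  | 0 => 2 ^ 14
  | j + 1 => 2 ^ Nat.sqrt (tower j)

lemma wn_pos {n : ℕ} (hn : 0 < n) : 0 < wn n := by
  unfold wn
  have : (0 : ℝ) < n := by exact_mod_cast hn
  positivity

lemma nat_mul_succ_le (n : ℕ) : n * (n + 1) ≤ 2 ^ (2 * n) := by
  have h1 : n + 1 ≤ 2 ^ n := Nat.lt_two_pow_self
  have h2 : n ≤ 2 ^ n := h1.trans' (Nat.le_succ n)
  calc n * (n + 1) ≤ 2 ^ n * 2 ^ n := Nat.mul_le_mul h2 h1
    _ = 2 ^ (2 * n) := by rw [two_mul, pow_add]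

lemma wn_inv_le {n : ℕ} (hn : 0 < n) : 1 / wn n ≤ 2 ^ (2 * n + 1) := by
  have hn' : (0 : ℝ) < n := by exact_mod_cast hn
  have h1 : 1 / wn n = 2 * ((n : ℝ) * (n + 1)) := by
    unfold wn
    field_simp
  rw [h1, pow_succ, mul_comm]
  have h2 : ((n : ℝ) * (n + 1)) ≤ 2 ^ (2 * n) := by
    exact_mod_cast nat_mul_succ_le n
  linarith

/-- The ratio needed in the rounding cost. -/
lemma gamma_bound {n : ℕ} (hn : 0 < n) (N' s : ℕ) :
    (2 : ℝ) ^ N' / ((1 / 2) ^ s * wn n / 2 ^ N') ≤ 2 ^ (2 * N' + s + 2 * n + 1) := by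
  have hw := wn_pos hn
  have h2 : (0 : ℝ) < 2 ^ N' := by positivity
  have h3 : ((1 : ℝ) / 2) ^ s = 1 / 2 ^ s := by rw [one_div_pow]
  have e : (2 : ℝ) ^ N' / ((1 / 2) ^ s * wn n / 2 ^ N') = 2 ^ N' * 2 ^ N' * 2 ^ s * (1 / wn n) := by
    rw [h3]
    field_simp
  rw [e]
  have e2 : (2 : ℝ) ^ (2 * N' + s + 2 * n + 1) = 2 ^ N' * 2 ^ N' * 2 ^ s * 2 ^ (2 * n + 1) := by
    rw [pow_add, pow_add, two_mul, pow_add, pow_add]
    ring
  rw [e2]
  exact mul_le_mul_of_nonneg_left (wn_inv_le hn) (by positivity)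

/-- Turning an exponential into powers of two. -/
lemma exp_neg_le_half_pow (m : ℕ) {x : ℝ} (hx : (m : ℝ) ≤ x) :
    Real.exp (-x) ≤ (1 / 2) ^ m := by
  have h1 : Real.exp (-x) ≤ Real.exp (-(m : ℝ)) := Real.exp_le_exp.mpr (by linarith)
  have h2 : Real.exp (-(m : ℝ)) = (Real.exp (-1)) ^ m := by
    rw [← Real.exp_nat_mul]
    congr 1
    ring
  have h3 : Real.exp (-1) ≤ 1 / 2 := by
    rw [Real.exp_neg, one_div]
    have : (2 : ℝ) ≤ Real.exp 1 := by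
      have := Real.add_one_le_exp (1 : ℝ)
      linarith
    exact inv_anti₀ (by norm_num) this
  calc Real.exp (-x) ≤ (Real.exp (-1)) ^ m := by rw [← h2]; exact h1
    _ ≤ (1 / 2) ^ m := pow_le_pow_left₀ (Real.exp_pos _).le h3 m

/-- The rounding cost is small once the amplification factor is large. -/
lemma exp_part {n : ℕ} (hn : 0 < n) (N' s B : ℕ) {R : ℝ}
    (hR : 2 ^ B * (((N' * (2 * N' + s + 2 * n + 1) + B : ℕ) : ℝ)) + 1 ≤ R) :
    ((2 : ℝ) ^ N' / ((1 / 2) ^ s * wn n / 2 ^ N')) ^ N' *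
      Real.exp (-((1 / 2) ^ B * (R - 1))) ≤ (1 / 2) ^ B := by
  set A := N' * (2 * N' + s + 2 * n + 1) with hA
  have hw := wn_pos hn
  have h1 : ((2 : ℝ) ^ N' / ((1 / 2) ^ s * wn n / 2 ^ N')) ^ N' ≤ 2 ^ A := by
    rw [hA, mul_comm N', pow_mul]
    exact pow_le_pow_left₀ (by positivity) (gamma_bound hn N' s) N'
  have h2 : ((A + B : ℕ) : ℝ) ≤ (1 / 2) ^ B * (R - 1) := by
    have h0 : (0 : ℝ) < 2 ^ B := by positivity
    have e : ((1 : ℝ) / 2) ^ B = 1 / 2 ^ B := by rw [one_div_pow]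
    rw [e, one_div, inv_mul_eq_div, le_div_iff₀ h0]
    linarith
  have h3 := exp_neg_le_half_pow (A + B) h2
  calc _ ≤ 2 ^ A * Real.exp (-((1 / 2) ^ B * (R - 1))) :=
        mul_le_mul_of_nonneg_right h1 (Real.exp_pos _).le
    _ ≤ 2 ^ A * (1 / 2) ^ (A + B) := mul_le_mul_of_nonneg_left h3 (by positivity)
    _ = (1 / 2) ^ B := by
        rw [pow_add, ← mul_assoc, ← mul_pow]
        norm_num

lemma two_mul_sq_le (y : ℕ) (hy : 8 ≤ y) : (2 * y) * (2 * y) ≤ 2 ^ y := by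
  induction y, hy using Nat.le_induction with
  | base => norm_num
  | succ y hy ih =>
    rw [pow_succ]
    nlinarith

/-- The invariant on the scales. -/
lemma Nn_sqrt_ge {n : ℕ} (hn : 0 < n) (j : ℕ) : n * 2 ^ (j + 6) ≤ Nat.sqrt (Nn n j) := by
  induction j with
  | zero =>
    rw [Nat.le_sqrt]
    have h1 : n ≤ 2 ^ n := Nat.lt_two_pow_self.le
    have h2 : n * 2 ^ (0 + 6) ≤ 2 ^ (7 * n) := by
      calc n * 2 ^ (0 + 6) ≤ 2 ^ n * 2 ^ 6 := Nat.mul_le_mul_right _ h1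
        _ = 2 ^ (n + 6) := by rw [pow_add]
        _ ≤ 2 ^ (7 * n) := Nat.pow_le_pow_right (by norm_num) (by omega)
    calc n * 2 ^ (0 + 6) * (n * 2 ^ (0 + 6)) ≤ 2 ^ (7 * n) * 2 ^ (7 * n) := Nat.mul_le_mul h2 h2
      _ = Nn n 0 := by
          simp only [Nn]
          rw [← pow_add]
          congr 1
          ring
  | succ j ih =>
    have hy8 : 8 ≤ Nat.sqrt (Nn n j) := by
      have : 1 * 2 ^ (j + 6) ≤ n * 2 ^ (j + 6) := Nat.mul_le_mul_right _ hn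
      have h64 : 2 ^ 6 ≤ 2 ^ (j + 6) := Nat.pow_le_pow_right (by norm_num) (by omega)
      omega
    have h := two_mul_sq_le _ hy8
    have h2 : 2 * Nat.sqrt (Nn n j) ≤ Nat.sqrt (Nn n (j + 1)) := by
      rw [Nat.le_sqrt]
      exact h
    calc n * 2 ^ (j + 1 + 6) = 2 * (n * 2 ^ (j + 6)) := by rw [show j + 1 + 6 = (j + 6) + 1 by ring, pow_succ]; ring
      _ ≤ 2 * Nat.sqrt (Nn n j) := Nat.mul_le_mul_left _ ih
      _ ≤ _ := h2

lemma tower_le_Nn {n : ℕ} (hn : 0 < n) (j : ℕ) : tower j ≤ Nn n j := by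
  induction j with
  | zero =>
    simp only [tower, Nn]
    exact Nat.pow_le_pow_right (by norm_num) (by omega)
  | succ j ih =>
    simp only [tower, Nn]
    exact Nat.pow_le_pow_right (by norm_num) (Nat.sqrt_le_sqrt ih)

lemma Nn_step_ge {n : ℕ} (hn : 0 < n) (j : ℕ) :
    2 ^ (j + 3) * (3 * Nat.sqrt (Nn n j) + 4) ≤ Nn n j / n + 1 := by
  set y := Nat.sqrt (Nn n j) with hy
  have hge := Nn_sqrt_ge hn j
  rw [← hy] at hge
  have hy1 : 1 ≤ y := by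
    have : 1 * 2 ^ (j + 6) ≤ n * 2 ^ (j + 6) := Nat.mul_le_mul_right _ hn
    have h64 : 1 ≤ 2 ^ (j + 6) := Nat.one_le_two_pow
    omega
  have h1 : y * y ≤ Nn n j := Nat.sqrt_le (Nn n j)
  have h2 : y * 2 ^ (j + 6) ≤ Nn n j / n := by
    rw [Nat.le_div_iff_mul_le hn]
    calc y * 2 ^ (j + 6) * n = y * (n * 2 ^ (j + 6)) := by ring
      _ ≤ y * y := Nat.mul_le_mul_left _ hge
      _ ≤ _ := h1
  have h3 : 2 ^ (j + 3) * (3 * y + 4) ≤ y * 2 ^ (j + 6) := by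
    have e : 2 ^ (j + 6) = 2 ^ (j + 3) * 8 := by rw [show j + 6 = (j + 3) + 3 by ring, pow_add]; norm_num
    rw [e]
    have : 3 * y + 4 ≤ y * 8 := by omega
    calc 2 ^ (j + 3) * (3 * y + 4) ≤ 2 ^ (j + 3) * (y * 8) := Nat.mul_le_mul_left _ this
      _ = _ := by ring
  omega

/-- The growth of the ratio: `(1 + 1 / M) ^ k ≥ 2 ^ K` when `k ≥ M * K`. -/
lemma one_add_inv_pow_ge (M K k : ℕ) (hM : 0 < M) (hk : M * K ≤ k) :
    (2 : ℝ) ^ K ≤ (1 + 1 / (M : ℝ)) ^ k := by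
  have hM' : (0 : ℝ) < M := by exact_mod_cast hM
  have hbase : (1 : ℝ) ≤ 1 + 1 / (M : ℝ) := by
    have : 0 < 1 / (M : ℝ) := by positivity
    linarith
  have h1 : (2 : ℝ) ≤ (1 + 1 / (M : ℝ)) ^ M := by
    have := one_add_mul_le_pow (a := 1 / (M : ℝ)) (by
      have : 0 < 1 / (M : ℝ) := by positivity
      linarith) M
    have e : (M : ℝ) * (1 / (M : ℝ)) = 1 := by field_simp
    rw [e] at this
    linarith
  calc (2 : ℝ) ^ K ≤ ((1 + 1 / (M : ℝ)) ^ M) ^ K := pow_le_pow_left₀ (by norm_num) h1 K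
    _ = (1 + 1 / (M : ℝ)) ^ (M * K) := by rw [pow_mul]
    _ ≤ _ := pow_le_pow_right₀ hbase hk

/-- The arithmetic needed at a general level. -/
lemma level_numeric {n : ℕ} (hn : 0 < n) (j : ℕ) :
    let y := Nat.sqrt (Nn n j)
    let N' := Nn n (j + 1)
    let B := n + j + 7
    2 ^ B * (N' * (2 * N' + (j + 4) + 2 * n + 1) + B) + 1 ≤ 2 ^ (3 * y + 4) := by
  intro y N' B
  have hge : n * 2 ^ (j + 6) ≤ y := Nn_sqrt_ge hn j
  have hj5 : j + 5 ≤ 2 ^ (j + 5) := Nat.lt_two_pow_self.le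
  have hn1 : 1 ≤ n := hn
  have h25 : 2 ≤ 2 ^ (j + 5) := by
    calc 2 = 2 ^ 1 := by norm_num
      _ ≤ 2 ^ (j + 5) := Nat.pow_le_pow_right (by norm_num) (by omega)
  have hsum : n * 2 ^ (j + 6) = n * 2 ^ (j + 5) + n * 2 ^ (j + 5) := by
    rw [pow_succ]; ring
  have h1 : 2 * n ≤ n * 2 ^ (j + 5) := by
    rw [mul_comm 2 n]
    exact Nat.mul_le_mul_left _ h25
  have h2 : j + 5 ≤ n * 2 ^ (j + 5) := by
    calc j + 5 ≤ 2 ^ (j + 5) := hj5
      _ = 1 * 2 ^ (j + 5) := (one_mul _).symm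
      _ ≤ n * 2 ^ (j + 5) := Nat.mul_le_mul_right _ hn1
  have hyge : 2 * n + j + 5 ≤ y := by omega
  have hN' : N' = 2 ^ y := rfl
  have hylt : y ≤ 2 ^ y := Nat.lt_two_pow_self.le
  have hB : B ≤ y := by
    show n + j + 7 ≤ y
    have h32 : 2 ^ 5 ≤ 2 ^ (j + 5) := Nat.pow_le_pow_right (by norm_num) (by omega)
    have h33 : 1 * 2 ^ (j + 5) ≤ n * 2 ^ (j + 5) := Nat.mul_le_mul_right _ hn1
    omega
  have hA : N' * (2 * N' + (j + 4) + 2 * n + 1) ≤ 2 ^ (2 * y + 2) := by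
    have h3 : 2 * N' + (j + 4) + 2 * n + 1 ≤ 4 * 2 ^ y := by
      rw [hN']
      omega
    calc N' * (2 * N' + (j + 4) + 2 * n + 1) ≤ 2 ^ y * (4 * 2 ^ y) := by
          rw [hN']
          exact Nat.mul_le_mul_left _ (by rw [← hN']; exact h3)
      _ = 2 ^ (2 * y + 2) := by
          rw [show 2 * y + 2 = y + y + 2 by ring, pow_add, pow_add]
          ring
  have hA2 : N' * (2 * N' + (j + 4) + 2 * n + 1) + B ≤ 2 ^ (2 * y + 3) := by
    have : y ≤ 2 ^ (2 * y + 2) := by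
      refine hylt.trans (Nat.pow_le_pow_right (by norm_num) (by omega))
    have e : 2 ^ (2 * y + 3) = 2 ^ (2 * y + 2) + 2 ^ (2 * y + 2) := by rw [pow_succ]; ring
    omega
  have hB2 : 2 ^ B ≤ 2 ^ y := Nat.pow_le_pow_right (by norm_num) hB
  have h8 : 2 ^ B * (N' * (2 * N' + (j + 4) + 2 * n + 1) + B) ≤ 2 ^ (3 * y + 3) := by
    calc _ ≤ 2 ^ y * 2 ^ (2 * y + 3) := Nat.mul_le_mul hB2 hA2
      _ = 2 ^ (3 * y + 3) := by
          rw [← pow_add]
          congr 1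
          ring
  have e : 2 ^ (3 * y + 4) = 2 ^ (3 * y + 3) + 2 ^ (3 * y + 3) := by rw [pow_succ]; ring
  have h9 : 1 ≤ 2 ^ (3 * y + 3) := Nat.one_le_two_pow
  omega

/-- The arithmetic needed at the first level. -/
lemma base_numeric {n : ℕ} (hn : 0 < n) :
    let N' := Nn n 0
    let B := n + 6
    2 ^ B * (N' * (2 * N' + 3 + 2 * n + 1) + B) + 1 ≤ 2 ^ (29 * n + 10) := by
  intro N' B
  have hN' : N' = 2 ^ (14 * n) := rfl
  have hn1 : 1 ≤ n := hn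
  have h14 : 14 * n + 1 ≤ 2 ^ (14 * n + 1) := by
    have : 14 * n + 1 < 2 ^ (14 * n + 1) := Nat.lt_two_pow_self
    omega
  have h1 : N' ≥ 2 ^ 14 := by
    rw [hN']
    exact Nat.pow_le_pow_right (by norm_num) (by omega)
  have hlin : 14 * n + 1 ≤ N' + N' := by
    have e : 2 ^ (14 * n + 1) = 2 ^ (14 * n) + 2 ^ (14 * n) := by rw [pow_succ]; ring
    rw [hN']
    omega
  have h3 : 2 * N' + 3 + 2 * n + 1 ≤ 4 * N' := by
    have : (2 : ℕ) ^ 14 = 16384 := by norm_num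
    omega
  have hA : N' * (2 * N' + 3 + 2 * n + 1) ≤ 2 ^ (28 * n + 2) := by
    calc N' * (2 * N' + 3 + 2 * n + 1) ≤ N' * (4 * N') := Nat.mul_le_mul_left _ h3
      _ = 2 ^ (28 * n + 2) := by
          rw [hN', show 28 * n + 2 = 14 * n + 14 * n + 2 by ring, pow_add, pow_add]
          ring
  have hB : B ≤ 2 ^ (28 * n + 2) := by
    have h4 : 2 ^ 14 ≤ 2 ^ (28 * n + 2) := Nat.pow_le_pow_right (by norm_num) (by omega)
    have h5 : n + 6 ≤ 2 ^ (14 * n + 1) := by omega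
    have h6 : 2 ^ (14 * n + 1) ≤ 2 ^ (28 * n + 2) :=
      Nat.pow_le_pow_right (by norm_num) (by omega)
    exact h5.trans h6
  have hA2 : N' * (2 * N' + 3 + 2 * n + 1) + B ≤ 2 ^ (28 * n + 3) := by
    have e : 2 ^ (28 * n + 3) = 2 ^ (28 * n + 2) + 2 ^ (28 * n + 2) := by rw [pow_succ]; ring
    omega
  have h8 : 2 ^ B * (N' * (2 * N' + 3 + 2 * n + 1) + B) ≤ 2 ^ (29 * n + 9) := by
    calc _ ≤ 2 ^ B * 2 ^ (28 * n + 3) := Nat.mul_le_mul_left _ hA2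
      _ = 2 ^ (29 * n + 9) := by
          rw [← pow_add]
          congr 1
          show n + 6 + (28 * n + 3) = 29 * n + 9
          ring
  have e : 2 ^ (29 * n + 10) = 2 ^ (29 * n + 9) + 2 ^ (29 * n + 9) := by rw [pow_succ]; ring
  have h9 : 1 ≤ 2 ^ (29 * n + 9) := Nat.one_le_two_pow
  omega

/-- The ratio at a general level. -/
lemma ratio_ge {n : ℕ} (hn : 0 < n) (j : ℕ) :
    1 + 1 / ((2 ^ (j + 3) : ℕ) : ℝ) ≤
      (wn n * (1 - (1 / 2) ^ (j + 2) - (1 / 2) ^ (j + 4))) / (wn n * (1 - (1 / 2) ^ (j + 1))) := by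
  have hw := wn_pos hn
  set t : ℝ := (1 / 2) ^ (j + 4) with ht
  have ht0 : 0 < t := by positivity
  have ht1 : t ≤ 1 / 16 := by
    rw [ht, pow_add]
    have : ((1 : ℝ) / 2) ^ j ≤ 1 := pow_le_one₀ (by norm_num) (by norm_num)
    nlinarith
  have e1 : ((1 : ℝ) / 2) ^ (j + 2) = 4 * t := by
    rw [ht, show j + 4 = (j + 2) + 2 by ring, pow_add]
    ring
  have e2 : ((1 : ℝ) / 2) ^ (j + 1) = 8 * t := by
    rw [ht, show j + 4 = (j + 1) + 3 by ring, pow_add]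
    ring
  have e3 : 1 / ((2 ^ (j + 3) : ℕ) : ℝ) = 2 * t := by
    rw [ht, show j + 4 = (j + 3) + 1 by ring, pow_add]
    push_cast
    rw [one_div_pow]
    ring
  rw [e1, e2, e3]
  have hpos : 0 < 1 - 8 * t := by linarith
  rw [le_div_iff₀ (mul_pos hw hpos)]
  nlinarith [mul_pos hw ht0, mul_pos (mul_pos hw ht0) ht0]

/-- The amplification at a general level. -/
lemma level_amplify {n : ℕ} (hn : 0 < n) (j : ℕ) :
    (2 : ℝ) ^ (3 * Nat.sqrt (Nn n j) + 4) ≤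
      ((wn n * (1 - (1 / 2) ^ (j + 2) - (1 / 2) ^ (j + 4))) / (wn n * (1 - (1 / 2) ^ (j + 1)))) ^
        (Nn n j / n + 1) := by
  refine (one_add_inv_pow_ge (2 ^ (j + 3)) (3 * Nat.sqrt (Nn n j) + 4) (Nn n j / n + 1)
    (by positivity) (Nn_step_ge hn j)).trans ?_
  refine pow_le_pow_left₀ ?_ (ratio_ge hn j) _
  positivity

/-- The final arithmetic at a general level: the rounding cost at the level is small. -/
lemma level_cost {n : ℕ} (hn : 0 < n) (j : ℕ) :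
    ((2 : ℝ) ^ Nn n (j + 1) / ((1 / 2) ^ (j + 4) * wn n / 2 ^ Nn n (j + 1))) ^ Nn n (j + 1) *
      Real.exp (-((1 / 2) ^ (n + j + 7) *
        (((wn n * (1 - (1 / 2) ^ (j + 2) - (1 / 2) ^ (j + 4))) /
          (wn n * (1 - (1 / 2) ^ (j + 1)))) ^ (Nn n j / n + 1) - 1))) ≤ (1 / 2) ^ (n + j + 7) := by
  refine exp_part hn (Nn n (j + 1)) (j + 4) (n + j + 7) ?_
  refine le_trans ?_ (level_amplify hn j)
  have h := level_numeric hn j
  simp only at h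
  exact_mod_cast h

/-- The final arithmetic at the first level. -/
lemma base_cost {n : ℕ} (hn : 0 < n) :
    ((2 : ℝ) ^ Nn n 0 / ((1 / 2) ^ 3 * wn n / 2 ^ Nn n 0)) ^ Nn n 0 *
      Real.exp (-((1 / 2) ^ (n + 6) *
        (((3 / 8 * wn n) / (1 / 2) ^ (60 * n)) ^ (0 / n + 1) - 1))) ≤ (1 / 2) ^ (n + 6) := by
  refine exp_part hn (Nn n 0) 3 (n + 6) ?_
  have h := base_numeric hn
  simp only at h
  have h' : (2 : ℝ) ^ (n + 6) * ((Nn n 0 * (2 * Nn n 0 + 3 + 2 * n + 1) + (n + 6) : ℕ) : ℝ) + 1 ≤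
      2 ^ (29 * n + 10) := by
    exact_mod_cast h
  refine h'.trans ?_
  have hw := wn_pos hn
  rw [Nat.zero_div, zero_add, pow_one, one_div_pow, div_div_eq_mul_div, div_one]
  have h1 : 1 / wn n ≤ 2 ^ (2 * n + 1) := wn_inv_le hn
  have h2 : 1 ≤ wn n * 2 ^ (2 * n + 1) := by
    rwa [div_le_iff₀ hw, mul_comm] at h1
  have h3 : (2 : ℝ) ^ (60 * n) = 2 ^ (31 * n + 13) * 2 ^ (29 * n - 13) := by
    rw [← pow_add]
    congr 1
    omega
  have h4 : (2 : ℝ) ^ (29 * n + 10) * 2 ^ (2 * n + 1) * 4 ≤ 2 ^ (60 * n) := by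
    have : (2 : ℝ) ^ (29 * n + 10) * 2 ^ (2 * n + 1) * 4 = 2 ^ (29 * n + 10 + (2 * n + 1) + 2) := by
      rw [pow_add _ (29 * n + 10 + (2 * n + 1))]
      norm_num
      ring
    rw [this]
    exact pow_le_pow_right₀ (by norm_num) (by omega)
  have h5 : (0 : ℝ) < 2 ^ (29 * n + 10) := by positivity
  have h6 : (2 : ℝ) ^ (29 * n + 10) ≤ 3 / 8 * wn n * 2 ^ (60 * n) := by
    have h7 : (2 : ℝ) ^ (29 * n + 10) * (wn n * 2 ^ (2 * n + 1)) ≤ wn n * 2 ^ (60 * n) / 4 := by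
      have := mul_le_mul_of_nonneg_left h4 hw.le
      nlinarith
    nlinarith
  exact h6

end Vale.Agent.Lib.P034
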