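import Mathlib
import Vale.Agent.Lib.P034.Chain4
import Vale.Agent.Lib.P034.Chain5

/-!
The level induction for a single class of `n`-sets.
-/

namespace Vale.Agent.Lib.P034
open Finset

variable {X : Type*} [Fintype X] [DecidableEq X] {g : Finset X → ℝ}

/-- One step at the class of `n`-sets. -/
theorem class_step {n : ℕ} (hg : ∀ S, 0 ≤ g S) (hn : 0 < n)
    (hs : ∀ S : Finset X, S.card ≠ n → g S = 0)
    {a r bs : ℝ} (ha0 : 0 ≤ a) (ha1 : a ≤ 1) (hr0 : 0 < r) (hbs : a + (1 - a) * r ≤ bs)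
    (hΦ : phiA g bs ∅ ≤ 1) (N N' : ℕ) {v w lam γ : ℝ} (hv : 0 < v) (hγ : 0 < γ) (hlam : 0 ≤ lam)
    (hw0 : phiA g a ∅ < w) :
    ∃ C : Finset (Finset X),
      ∑ T ∈ C, r ^ T.card ≤
        lam + (2 ^ N' / γ) ^ N' * Real.exp (-(lam * ((w / v) ^ (N / n + 1) - 1))) ∧
      ∀ I0, SeedFree g bs I0 → I0.card ≤ N' →
        (∀ I' ⊆ I0, I'.card ≤ N → phiA g (a + (1 - a) * r) I' ≤ v) →
        (∀ T ∈ C, ¬ T ⊆ I0) → phiA g a I0 < w + 2 ^ N' * γ := by
  have hb0 : 0 ≤ a + (1 - a) * r :=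
    add_nonneg ha0 (mul_nonneg (sub_nonneg.mpr ha1) hr0.le)
  obtain ⟨C, hC, hcov⟩ := step_cover (h := hW g a) (r := r) (γ := γ) (hW_nonneg hg ha0 ha1) hn
    (fun B hB => hW_support hs a B hB) hr0 (SeedFree g bs)
    (fun T I hTI hI => seedFree_anti hTI hI)
    (fun T hT => by
      rw [kerMass_hW]
      exact seedFree_phi_le hg hb0 hbs hΦ hT)
    N N' hv hγ hlam (by rw [hW_empty]; exact hw0)
  refine ⟨C, hC, fun I0 hS hc hD hno => ?_⟩
  by_contra hlt
  push Not at hlt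
  rw [← sum_powerset_hW] at hlt
  obtain ⟨T, hT, hTI⟩ := hcov I0 hS hc
    (fun I' hI' hc' => by rw [kerMass_hW]; exact hD I' hI' hc') hlt
  exact hno T hT hTI

/-- The statement at one level. -/
def LvlOK (g : Finset X → ℝ) (bs a r : ℝ) (N : ℕ) (v c : ℝ) : Prop :=
  ∃ C : Finset (Finset X), ∑ T ∈ C, r ^ T.card ≤ c ∧
    ∀ T, SeedFree g bs T → (∀ A ∈ C, ¬ A ⊆ T) → ∀ I ⊆ T, I.card ≤ N → phiA g a I ≤ v

/-- The passage from one level to the next. -/
theorem lvl_step {n : ℕ} (hg : ∀ S, 0 ≤ g S) (hn : 0 < n)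
    (hs : ∀ S : Finset X, S.card ≠ n → g S = 0)
    {a r bs : ℝ} (ha0 : 0 ≤ a) (ha1 : a ≤ 1) (hr0 : 0 < r) (hbs : a + (1 - a) * r ≤ bs)
    (hΦ : phiA g bs ∅ ≤ 1) {N N' : ℕ} {v w lam γ c e v' : ℝ} (hv : 0 < v) (hγ : 0 < γ)
    (hlam : 0 ≤ lam) (hw0 : phiA g a ∅ < w)
    (hlvl : LvlOK g bs (a + (1 - a) * r) r N v c)
    (hcost : lam + (2 ^ N' / γ) ^ N' * Real.exp (-(lam * ((w / v) ^ (N / n + 1) - 1))) ≤ e)
    (hv' : v' = w + 2 ^ N' * γ) :
    LvlOK g bs a r N' v' (c + e) := by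
  obtain ⟨C, hC, hcov⟩ := hlvl
  obtain ⟨C', hC', hcov'⟩ := class_step hg hn hs ha0 ha1 hr0 hbs hΦ N N' hv hγ hlam hw0
  refine ⟨C ∪ C', ?_, ?_⟩
  · have h0 : 0 ≤ ∑ T ∈ C ∩ C', r ^ T.card := Finset.sum_nonneg (fun T _ => pow_nonneg hr0.le _)
    have h1 := Finset.sum_union_inter (s₁ := C) (s₂ := C') (f := fun T => r ^ T.card)
    linarith
  · intro T hS hno I hI hc
    rw [hv']
    refine (hcov' I (seedFree_anti hI hS) hc ?_ ?_).le
    · intro I' hI' hc'
      exact hcov T hS (fun A hA => hno A (Finset.mem_union_left _ hA)) I' (hI'.trans hI) hc'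
    · intro A hA hAI
      exact hno A (Finset.mem_union_right _ hA) (hAI.trans hI)

/-- The parameter sequence. -/
noncomputable def aI (r : ℝ) (i : ℕ) : ℝ := 1 - (1 - r) ^ i

lemma aI_zero (r : ℝ) : aI r 0 = 0 := by simp [aI]

lemma aI_succ (r : ℝ) (i : ℕ) : aI r i + (1 - aI r i) * r = aI r (i + 1) := by
  simp only [aI, pow_succ]
  ring

lemma aI_nonneg {r : ℝ} (hr0 : 0 ≤ r) (hr1 : r ≤ 1) (i : ℕ) : 0 ≤ aI r i := by
  unfold aI
  have : (1 - r) ^ i ≤ 1 := pow_le_one₀ (by linarith) (by linarith)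
  linarith

lemma aI_le_one {r : ℝ} (hr1 : r ≤ 1) (i : ℕ) : aI r i ≤ 1 := by
  unfold aI
  have : 0 ≤ (1 - r) ^ i := pow_nonneg (by linarith) _
  linarith

lemma aI_le_mul {r : ℝ} (hr1 : r ≤ 1) (i : ℕ) : aI r i ≤ i * r := by
  unfold aI
  have := one_add_mul_le_pow (a := -r) (by linarith) i
  have e : (1 : ℝ) + -r = 1 - r := by ring
  rw [e] at this
  nlinarith

lemma aI_mono {r : ℝ} (hr0 : 0 ≤ r) (hr1 : r ≤ 1) {i k : ℕ} (hik : i ≤ k) : aI r i ≤ aI r k := by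
  unfold aI
  have : (1 - r) ^ k ≤ (1 - r) ^ i :=
    pow_le_pow_of_le_one (by linarith) (by linarith) hik
  linarith

/-- The thresholds at a level. -/
noncomputable def vL (n j : ℕ) : ℝ := wn n * (1 - (1 / 2) ^ (j + 1))

/-- The cost at a level. -/
noncomputable def cL (n j : ℕ) : ℝ := (1 / 2) ^ (n + 4) * (1 - (1 / 2) ^ (j + 1))

lemma small_lt_wn {n : ℕ} (hn : 0 < n) : ((1 : ℝ) / 2) ^ (60 * n + 1) < 1 / 4 * wn n := by
  have hw := wn_pos hn
  have h1 : 1 / wn n ≤ 2 ^ (2 * n + 1) := wn_inv_le hn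
  have h2 : ((1 : ℝ) / 2) ^ (2 * n + 1) ≤ wn n := by
    rw [one_div_pow]
    rw [div_le_iff₀ hw] at h1
    rw [div_le_iff₀ (by positivity)]
    linarith
  have h3 : ((1 : ℝ) / 2) ^ (60 * n + 1) < (1 / 2) ^ (2 * n + 3) :=
    pow_lt_pow_right_of_lt_one₀ (by norm_num) (by norm_num) (by omega)
  have h4 : ((1 : ℝ) / 2) ^ (2 * n + 3) = 1 / 4 * (1 / 2) ^ (2 * n + 1) := by
    rw [show 2 * n + 3 = (2 * n + 1) + 2 by ring, pow_add]
    ring
  linarith

/-- The level induction. -/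
theorem class_levels {n : ℕ} (hg : ∀ S, 0 ≤ g S) (hn : 0 < n)
    (hs : ∀ S : Finset X, S.card ≠ n → g S = 0)
    {r : ℝ} (hr0 : 0 < r) (hr1 : r ≤ 1) (d : ℕ)
    (hΦ : phiA g (aI r (d + 1)) ∅ ≤ (1 / 2) ^ (60 * n + 1)) :
    ∀ j, j ≤ d → LvlOK g (aI r (d + 1)) (aI r (d - j)) r (Nn n j) (vL n j) (cL n j) := by
  have hw := wn_pos hn
  set bs := aI r (d + 1) with hbsdef
  have hΦ1 : phiA g bs ∅ ≤ 1 :=
    hΦ.trans (pow_le_one₀ (by norm_num) (by norm_num))
  have hsmall : ∀ i, i ≤ d + 1 → phiA g (aI r i) ∅ < 1 / 4 * wn n := by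
    intro i hi
    calc phiA g (aI r i) ∅ ≤ phiA g bs ∅ :=
          phiA_mono hg (aI_nonneg hr0.le hr1 i) (aI_mono hr0.le hr1 hi) ∅
      _ ≤ (1 / 2) ^ (60 * n + 1) := hΦ
      _ < _ := small_lt_wn hn
  intro j
  induction j with
  | zero =>
    intro _
    -- the trivial level, then one step
    have h0 : LvlOK g bs (aI r (d + 1)) r 0 ((1 / 2) ^ (60 * n)) 0 := by
      refine ⟨∅, by simp, ?_⟩
      intro T _ _ I _ hc
      have hI : I = ∅ := Finset.card_eq_zero.mp (Nat.le_zero.mp hc)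
      subst hI
      refine hΦ.trans ?_
      exact pow_le_pow_of_le_one (by norm_num) (by norm_num) (by omega)
    rw [← aI_succ] at h0
    have hd : d - 0 = d := rfl
    rw [hd]
    have hγ : 0 < (1 / 2 : ℝ) ^ 3 * wn n / 2 ^ Nn n 0 := by positivity
    have := lvl_step (g := g) (n := n) (a := aI r d) (r := r) (bs := bs)
      (N := 0) (N' := Nn n 0) (v := (1 / 2) ^ (60 * n)) (w := 3 / 8 * wn n)
      (lam := (1 / 2) ^ (n + 6)) (γ := (1 / 2 : ℝ) ^ 3 * wn n / 2 ^ Nn n 0)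
      (c := 0) (e := cL n 0) (v' := vL n 0)
      hg hn hs (aI_nonneg hr0.le hr1 d) (aI_le_one hr1 d) hr0
      (by rw [aI_succ]) hΦ1 (by positivity) hγ (by positivity)
      (by
        have := hsmall d (by omega)
        linarith)
      h0
      (by
        have hb := base_cost hn
        have e : cL n 0 = (1 / 2) ^ (n + 6) + (1 / 2) ^ (n + 6) := by
          unfold cL
          rw [show n + 6 = (n + 4) + 2 by ring, pow_add]
          norm_num
          ring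
        rw [e]
        linarith)
      (by
        unfold vL
        have h2 : (0 : ℝ) < 2 ^ Nn n 0 := by positivity
        field_simp
        norm_num)
    rwa [zero_add] at this
  | succ j ih =>
    intro hj
    have hprev := ih (by omega)
    have hsub : d - j = (d - (j + 1)) + 1 := by omega
    rw [hsub, ← aI_succ] at hprev
    set a := aI r (d - (j + 1)) with ha
    have hγ : 0 < (1 / 2 : ℝ) ^ (j + 4) * wn n / 2 ^ Nn n (j + 1) := by positivity
    have h12 : ((1 : ℝ) / 2) ^ (j + 1) ≤ 1 / 2 := by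
      rw [pow_succ]
      have : ((1 : ℝ) / 2) ^ j ≤ 1 := pow_le_one₀ (by norm_num) (by norm_num)
      linarith
    have hvpos : 0 < vL n j := by
      unfold vL
      exact mul_pos hw (by linarith)
    have hwL : 1 / 4 * wn n ≤ wn n * (1 - (1 / 2) ^ (j + 2) - (1 / 2) ^ (j + 4)) := by
      have e1 : ((1 : ℝ) / 2) ^ (j + 2) = (1 / 2) ^ (j + 1) * (1 / 2) := by
        rw [pow_succ _ (j + 1)]
      have e2 : ((1 : ℝ) / 2) ^ (j + 4) = (1 / 2) ^ (j + 1) * (1 / 8) := by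
        rw [show j + 4 = (j + 1) + 3 by ring, pow_add _ (j + 1) 3]
        norm_num
      rw [e1, e2]
      nlinarith
    have := lvl_step (g := g) (n := n) (a := a) (r := r) (bs := bs)
      (N := Nn n j) (N' := Nn n (j + 1)) (v := vL n j)
      (w := wn n * (1 - (1 / 2) ^ (j + 2) - (1 / 2) ^ (j + 4)))
      (lam := (1 / 2) ^ (n + j + 7)) (γ := (1 / 2 : ℝ) ^ (j + 4) * wn n / 2 ^ Nn n (j + 1))
      (c := cL n j) (e := (1 / 2) ^ (n + j + 7) + (1 / 2) ^ (n + j + 7)) (v' := vL n (j + 1))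
      hg hn hs (aI_nonneg hr0.le hr1 _) (aI_le_one hr1 _) hr0
      (by
        rw [ha, aI_succ]
        exact aI_mono hr0.le hr1 (by omega)) hΦ1 hvpos hγ (by positivity)
      (by
        have := hsmall (d - (j + 1)) (by omega)
        linarith)
      hprev
      (by
        have hb := level_cost hn j
        unfold vL
        linarith)
      (by
        unfold vL
        have h2 : (0 : ℝ) < 2 ^ Nn n (j + 1) := by positivity
        field_simp
        ring)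
    convert this using 1
    unfold cL
    ring

end Vale.Agent.Lib.P034
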