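import Mathlib
import Vale.Agent.Lib.P034.Chain6

/-!
Assembly over the classes: a fractional cover whose certificates have size at most `tower d` gives
a cover at the parameter `p / (2 ^ 60 * (d + 2))`.
-/

namespace Vale.Agent.Lib.P034
open Finset

variable {X : Type*} [Fintype X] [DecidableEq X] {g : Finset X → ℝ}

omit [Fintype X] [DecidableEq X] in
lemma levelPart_nonneg (hg : ∀ S, 0 ≤ g S) (n : ℕ) (S : Finset X) : 0 ≤ levelPart g n S := by
  unfold levelPart
  split_ifs
  · exact hg S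
  · exact le_rfl

omit [Fintype X] [DecidableEq X] in
lemma levelPart_support (n : ℕ) (S : Finset X) (hS : S.card ≠ n) : levelPart g n S = 0 := by
  unfold levelPart
  rw [if_neg hS]

/-- The cost of the class of `n`-sets at a smaller parameter. -/
lemma class_val (hg : ∀ S, 0 ≤ g S) (n : ℕ) {p x : ℝ} (hp0 : 0 < p)
    (hcost : ∑ S, g S * p ^ S.card ≤ 1 / 2) (hx0 : 0 ≤ x) (hx : x ≤ p / 2 ^ 60) :
    ∑ S, levelPart g n S * x ^ S.card ≤ (1 / 2) ^ (60 * n + 1) := by
  have h1 : ∀ c : ℝ, ∑ S, levelPart g n S * c ^ S.card = (∑ S, levelPart g n S) * c ^ n := by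
    intro c
    rw [Finset.sum_mul]
    refine Finset.sum_congr rfl (fun S _ => ?_)
    by_cases hS : S.card = n
    · rw [hS]
    · rw [levelPart_support n S hS, zero_mul, zero_mul]
  have hM0 : 0 ≤ ∑ S, levelPart g n S :=
    Finset.sum_nonneg (fun S _ => levelPart_nonneg hg n S)
  have h2 : (∑ S, levelPart g n S) * p ^ n ≤ 1 / 2 := by
    rw [← h1]
    refine le_trans (Finset.sum_le_sum (fun S _ => ?_)) hcost
    refine mul_le_mul_of_nonneg_right ?_ (pow_nonneg hp0.le _)
    unfold levelPart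
    split_ifs
    · exact le_rfl
    · exact hg S
  rw [h1]
  have h3 : x ^ n ≤ p ^ n * (1 / 2) ^ (60 * n) := by
    calc x ^ n ≤ (p / 2 ^ 60) ^ n := pow_le_pow_left₀ hx0 hx n
      _ = p ^ n * (1 / 2) ^ (60 * n) := by
          have e : p / 2 ^ 60 = p * (1 / 2) ^ 60 := by norm_num [div_eq_mul_inv]
          rw [e, mul_pow, pow_mul (1 / 2 : ℝ)]
  calc (∑ S, levelPart g n S) * x ^ n
      ≤ (∑ S, levelPart g n S) * (p ^ n * (1 / 2) ^ (60 * n)) :=
        mul_le_mul_of_nonneg_left h3 hM0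
    _ = ((∑ S, levelPart g n S) * p ^ n) * (1 / 2) ^ (60 * n) := by ring
    _ ≤ (1 / 2) * (1 / 2) ^ (60 * n) := mul_le_mul_of_nonneg_right h2 (by positivity)
    _ = (1 / 2) ^ (60 * n + 1) := by rw [pow_succ]; ring

/-- The cover for one class. -/
theorem class_cover (hg : ∀ S, 0 ≤ g S) {n : ℕ} (hn : 0 < n) {p r : ℝ} (hp0 : 0 < p) (hr0 : 0 < r)
    (hr1 : r ≤ 1) (d : ℕ) (hcost : ∑ S, g S * p ^ S.card ≤ 1 / 2)
    (hr : ((d : ℝ) + 2) * r = p / 2 ^ 60) :
    ∃ C : Finset (Finset X), ∑ T ∈ C, r ^ T.card ≤ (1 / 2) ^ (n + 3) ∧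
      ∀ D : Finset X, D.card ≤ Nn n d → (∀ A ∈ C, ¬ A ⊆ D) →
        ∑ S ∈ D.powerset, levelPart g n S < wn n := by
  set g' : Finset X → ℝ := levelPart g n with hg'
  have hg'0 : ∀ S, 0 ≤ g' S := levelPart_nonneg hg n
  have hs : ∀ S : Finset X, S.card ≠ n → g' S = 0 := levelPart_support n
  set bs := aI r (d + 1) with hbs
  have hbs0 : 0 ≤ bs := aI_nonneg hr0.le hr1 _
  have hbs1 : bs ≤ ((d : ℝ) + 1) * r := by
    have := aI_le_mul (r := r) hr1 (d + 1)
    push_cast at this
    exact this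
  have hsum : r + bs ≤ p / 2 ^ 60 := by
    rw [← hr]
    nlinarith
  have hbsle : bs ≤ p / 2 ^ 60 := by linarith
  have hΦ : phiA g' bs ∅ ≤ (1 / 2) ^ (60 * n + 1) := by
    have := class_val hg n hp0 hcost hbs0 hbsle
    unfold phiA
    simpa using this
  have hseed : ∑ A ∈ seedSets g' bs, r ^ A.card ≤ (1 / 2) ^ (60 * n + 1) :=
    (seedSets_cost hg'0 hbs0 hr0.le).trans
      (class_val hg n hp0 hcost (add_nonneg hr0.le hbs0) hsum)
  obtain ⟨C, hC, hcov⟩ := class_levels hg'0 hn hs hr0 hr1 d hΦ d le_rfl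
  have hwn := wn_pos hn
  refine ⟨C ∪ seedSets g' bs, ?_, ?_⟩
  · have h0 : 0 ≤ ∑ T ∈ C ∩ seedSets g' bs, r ^ T.card :=
      Finset.sum_nonneg (fun T _ => pow_nonneg hr0.le _)
    have h1 := Finset.sum_union_inter (s₁ := C) (s₂ := seedSets g' bs)
      (f := fun T => r ^ T.card)
    have h2 : cL n d ≤ (1 / 2) ^ (n + 4) := by
      unfold cL
      have : (0 : ℝ) < (1 / 2) ^ (d + 1) := by positivity
      have h3 : (0 : ℝ) < (1 / 2) ^ (n + 4) := by positivity
      nlinarith
    have h3 : ((1 : ℝ) / 2) ^ (60 * n + 1) ≤ (1 / 2) ^ (n + 4) :=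
      pow_le_pow_of_le_one (by norm_num) (by norm_num) (by omega)
    have h4 : ((1 : ℝ) / 2) ^ (n + 3) = (1 / 2) ^ (n + 4) + (1 / 2) ^ (n + 4) := by
      rw [pow_succ _ (n + 3)]
      ring
    rw [h4]
    linarith
  · intro D hD hno
    have hSF : SeedFree g' bs D := seedFree_of_no_seed
      (fun A hA => hno A (Finset.mem_union_right _ hA))
    have h1 := hcov D hSF (fun A hA => hno A (Finset.mem_union_left _ hA)) D
      (Finset.Subset.refl _) hD
    rw [Nat.sub_self, aI_zero, phiA_zero] at h1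
    refine lt_of_le_of_lt h1 ?_
    unfold vL
    have : (0 : ℝ) < (1 / 2) ^ (d + 1) := by positivity
    nlinarith

lemma sum_biUnion_le_sum {α β : Type*} [DecidableEq β] (s : Finset α) (t : α → Finset β)
    (f : β → ℝ) (hf : ∀ b, 0 ≤ f b) : ∑ b ∈ s.biUnion t, f b ≤ ∑ a ∈ s, ∑ b ∈ t a, f b := by
  classical
  induction s using Finset.induction_on with
  | empty => simp
  | insert a s ha ih =>
    rw [Finset.biUnion_insert, Finset.sum_insert ha]
    have h0 : 0 ≤ ∑ b ∈ t a ∩ s.biUnion t, f b := Finset.sum_nonneg (fun b _ => hf b)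
    have h1 := Finset.sum_union_inter (s₁ := t a) (s₂ := s.biUnion t) (f := f)
    linarith

lemma sum_geom_le (m : ℕ) : ∑ k ∈ Finset.range m, ((1 : ℝ) / 2) ^ (k + 1 + 3) ≤ 1 / 8 := by
  have h : ∀ m : ℕ, ∑ k ∈ Finset.range m, ((1 : ℝ) / 2) ^ (k + 1 + 3) =
      1 / 8 * (1 - (1 / 2) ^ m) := by
    intro m
    induction m with
    | zero => simp
    | succ m ih =>
      rw [Finset.sum_range_succ, ih]
      ring
  rw [h]
  have : (0 : ℝ) < (1 / 2) ^ m := by positivity
  linarith

lemma sum_wn_lt (m : ℕ) : ∑ k ∈ Finset.range m, wn (k + 1) < 1 / 2 := by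
  have h : ∀ m : ℕ, ∑ k ∈ Finset.range m, wn (k + 1) = 1 / 2 * (1 - 1 / ((m : ℝ) + 1)) := by
    intro m
    induction m with
    | zero => simp
    | succ m ih =>
      rw [Finset.sum_range_succ, ih]
      unfold wn
      push_cast
      have h1 : (0 : ℝ) < (m : ℝ) + 1 := by positivity
      have h2 : (0 : ℝ) < (m : ℝ) + 1 + 1 := by positivity
      field_simp
      ring
  rw [h]
  have : (0 : ℝ) < 1 / ((m : ℝ) + 1) := by positivity
  linarith

omit [Fintype X] [DecidableEq X] in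
/-- Splitting the mass on subsets of `D` by size. -/
lemma sum_powerset_split (D : Finset X) :
    ∑ S ∈ D.powerset, g S =
      ∑ S ∈ D.powerset, levelPart g 0 S +
        ∑ k ∈ Finset.range D.card, ∑ S ∈ D.powerset, levelPart g (k + 1) S := by
  have h : ∀ S ∈ D.powerset, g S = ∑ s ∈ Finset.range (D.card + 1), levelPart g s S := by
    intro S hS
    have hc : S.card < D.card + 1 :=
      Nat.lt_succ_of_le (Finset.card_le_card (Finset.mem_powerset.mp hS))
    unfold levelPart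
    rw [Finset.sum_ite_eq, if_pos (Finset.mem_range.mpr hc)]
  rw [Finset.sum_congr rfl h, Finset.sum_comm, Finset.sum_range_succ', add_comm]

/-- The main theorem in terms of the tower sequence. -/
theorem tower_small (F : Finset (Finset X)) (g : Finset X → ℝ) (p : ℝ) (hg : ∀ S, 0 ≤ g S)
    (hp0 : 0 < p) (hp1 : p ≤ 1) (hcost : ∑ S, g S * p ^ S.card ≤ 1 / 2) (d : ℕ)
    (hcov : ∀ H ∈ F, ∃ D, D ⊆ H ∧ D.card ≤ tower d ∧ 1 ≤ ∑ S ∈ D.powerset, g S) :
    IsSmall F (p / (2 ^ 60 * ((d : ℝ) + 2))) := by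
  set r : ℝ := p / (2 ^ 60 * ((d : ℝ) + 2)) with hrdef
  have hd2 : (0 : ℝ) < (d : ℝ) + 2 := by positivity
  have hr0 : 0 < r := by positivity
  have hr1 : r ≤ 1 := by
    rw [hrdef, div_le_one (by positivity)]
    have : (1 : ℝ) ≤ 2 ^ 60 * ((d : ℝ) + 2) := by
      have h2 : (1 : ℝ) ≤ 2 ^ 60 := by norm_num
      nlinarith
    linarith
  have hr : ((d : ℝ) + 2) * r = p / 2 ^ 60 := by
    rw [hrdef]
    field_simp
  have hcl := fun k : ℕ => class_cover hg (Nat.succ_pos k) hp0 hr0 hr1 d hcost hr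
  choose C hC hCcov using hcl
  set m := Fintype.card X with hm
  refine ⟨(Finset.range m).biUnion C, ?_, ?_⟩
  · intro H hH
    obtain ⟨D, hDH, hDc, hD1⟩ := hcov H hH
    by_contra hno
    push Not at hno
    have hlt : ∀ k ∈ Finset.range D.card,
        ∑ S ∈ D.powerset, levelPart g (k + 1) S ≤ wn (k + 1) := by
      intro k hk
      have hkm : k < m := lt_of_lt_of_le (Finset.mem_range.mp hk) (Finset.card_le_univ D)
      refine (hCcov k D (hDc.trans (tower_le_Nn (Nat.succ_pos k) d)) ?_).le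
      intro A hA hAD
      exact hno A (Finset.mem_biUnion.mpr ⟨k, Finset.mem_range.mpr hkm, hA⟩) (hAD.trans hDH)
    have h0 : ∑ S ∈ D.powerset, levelPart g 0 S ≤ 1 / 2 := by
      have hS : ∑ S ∈ D.powerset, levelPart g 0 S = g ∅ := by
        rw [Finset.sum_eq_single (∅ : Finset X)]
        · simp [levelPart]
        · intro S _ hS
          exact levelPart_support 0 S (fun h => hS (Finset.card_eq_zero.mp h))
        · intro h
          exact absurd (Finset.empty_mem_powerset D) h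
      rw [hS]
      have := Finset.single_le_sum (f := fun S => g S * p ^ S.card)
        (fun S _ => mul_nonneg (hg S) (pow_nonneg hp0.le _)) (Finset.mem_univ (∅ : Finset X))
      simp only [Finset.card_empty, pow_zero, mul_one] at this
      linarith
    have h1 := sum_powerset_split (g := g) D
    have h2 := Finset.sum_le_sum hlt
    have h3 := sum_wn_lt D.card
    linarith
  · unfold coverCost
    calc ∑ S ∈ (Finset.range m).biUnion C, r ^ S.card
        ≤ ∑ k ∈ Finset.range m, ∑ S ∈ C k, r ^ S.card :=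
          sum_biUnion_le_sum _ _ _ (fun S => pow_nonneg hr0.le _)
      _ ≤ ∑ k ∈ Finset.range m, ((1 : ℝ) / 2) ^ (k + 1 + 3) :=
          Finset.sum_le_sum (fun k _ => hC k)
      _ ≤ 1 / 8 := sum_geom_le m
      _ ≤ 1 / 2 := by norm_num

/-- The iterated logarithm in base two: the number of times `Nat.log 2` must be applied to `m`
to reach a value at most one. -/
def logStar (m : ℕ) : ℕ :=
  if h : m ≤ 1 then 0 else logStar (Nat.log 2 m) + 1
decreasing_by
  exact Nat.log_lt_self 2 (by omega)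

lemma tower_ge (j : ℕ) : 2 ^ 14 ≤ tower j := by
  induction j with
  | zero => exact le_rfl
  | succ j ih =>
    simp only [tower]
    refine Nat.pow_le_pow_right (by norm_num) ?_
    rw [Nat.le_sqrt]
    refine le_trans ?_ ih
    norm_num

lemma pow_four_le (y : ℕ) (hy : 128 ≤ y) : (y + 1) ^ 4 ≤ 2 ^ y := by
  induction y, hy using Nat.le_induction with
  | base => norm_num
  | succ y hy ih =>
    obtain ⟨t, rfl⟩ := Nat.exists_eq_add_of_le hy
    have h : (128 + t + 1 + 1) ^ 4 ≤ 2 * (128 + t + 1) ^ 4 := by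
      have e : 2 * (128 + t + 1) ^ 4 = (128 + t + 1 + 1) ^ 4 +
          (t ^ 4 + 512 * t ^ 3 + 98292 * t ^ 2 + 8385512 * t + 268235762) := by
        ring
      omega
    rw [pow_succ 2 (128 + t)]
    omega

lemma two_pow_tower_succ_le (j : ℕ) : 2 ^ (tower j + 1) ≤ tower (j + 2) := by
  have hx := tower_ge j
  set x := tower j with hxdef
  have e : tower (j + 2) = 2 ^ Nat.sqrt (2 ^ Nat.sqrt x) := rfl
  rw [e]
  refine Nat.pow_le_pow_right (by norm_num) ?_
  rw [Nat.le_sqrt]
  set y := Nat.sqrt x with hy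
  have hy128 : 128 ≤ y := by
    rw [hy, Nat.le_sqrt]
    refine le_trans ?_ hx
    norm_num
  have h1 : x < (y + 1) * (y + 1) := Nat.lt_succ_sqrt x
  have h2 : x + 1 ≤ (y + 1) * (y + 1) := h1
  calc (x + 1) * (x + 1) ≤ ((y + 1) * (y + 1)) * ((y + 1) * (y + 1)) := Nat.mul_le_mul h2 h2
    _ = (y + 1) ^ 4 := by ring
    _ ≤ 2 ^ y := pow_four_le y hy128

/-- Every number is bounded by the tower at twice its iterated logarithm. -/
lemma le_tower_logStar (m : ℕ) : m ≤ tower (2 * logStar m) := by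
  induction m using Nat.strong_induction_on with
  | _ m ih =>
    by_cases hm : m ≤ 1
    · rw [logStar, dif_pos hm]
      have := tower_ge 0
      simp only [mul_zero]
      omega
    · rw [logStar, dif_neg hm]
      have hlt : Nat.log 2 m < m := Nat.log_lt_self 2 (by omega)
      have h1 := ih _ hlt
      have h2 : m < 2 ^ (Nat.log 2 m + 1) := Nat.lt_pow_succ_log_self (by norm_num) m
      have h3 : 2 ^ (Nat.log 2 m + 1) ≤ 2 ^ (tower (2 * logStar (Nat.log 2 m)) + 1) :=
        Nat.pow_le_pow_right (by norm_num) (by omega)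
      have h4 := two_pow_tower_succ_le (2 * logStar (Nat.log 2 m))
      rw [show 2 * (logStar (Nat.log 2 m) + 1) = 2 * logStar (Nat.log 2 m) + 2 by ring]
      omega

/-- The main theorem in terms of the iterated logarithm. -/
theorem logStar_small (F : Finset (Finset X)) (g : Finset X → ℝ) (p : ℝ) (ℓ : ℕ)
    (hg : ∀ S, 0 ≤ g S) (hp0 : 0 < p) (hp1 : p ≤ 1) (hcost : ∑ S, g S * p ^ S.card ≤ 1 / 2)
    (hcov : ∀ H ∈ F, ∃ D, D ⊆ H ∧ D.card ≤ ℓ ∧ 1 ≤ ∑ S ∈ D.powerset, g S) :
    IsSmall F (p / (2 ^ 60 * (2 * (logStar ℓ : ℝ) + 2))) := by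
  have := tower_small F g p hg hp0 hp1 hcost (2 * logStar ℓ) (fun H hH => by
    obtain ⟨D, h1, h2, h3⟩ := hcov H hH
    exact ⟨D, h1, h2.trans (le_tower_logStar ℓ), h3⟩)
  push_cast at this
  exact this

end Vale.Agent.Lib.P034
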