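import Mathlib
import Vale.Agent.Lib.P034.Defs

namespace Vale.Agent.Lib.P034
open Finset
set_option linter.unusedSectionVars false
set_option linter.unusedVariables false
set_option linter.unusedSimpArgs false

variable {X : Type*} [Fintype X] [DecidableEq X]

/-- Field: value one on `Z`, value `τ` elsewhere. -/
noncomputable def fld (τ : ℝ) (Z : Finset X) (i : X) : ℝ := if i ∈ Z then 1 else τ

lemma fld_pos {τ : ℝ} (h : 0 < τ) (Z : Finset X) (i : X) : 0 < fld τ Z i := by
  unfold fld; split_ifs <;> linarith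

lemma fld_le_one {τ : ℝ} (h : τ ≤ 1) (Z : Finset X) (i : X) : fld τ Z i ≤ 1 := by
  unfold fld; split_ifs <;> linarith

lemma fld_of_mem {τ : ℝ} {Z : Finset X} {i : X} (h : i ∈ Z) : fld τ Z i = 1 := by
  simp [fld, h]

lemma fld_of_not_mem {τ : ℝ} {Z : Finset X} {i : X} (h : i ∉ Z) : fld τ Z i = τ := by
  simp [fld, h]

lemma polyWith_eq (g : Finset X → ℝ) (z : X → ℝ) (S : Finset X) :
    polyWith g z S = ∑ A, if S ⊆ A then g A * ∏ i ∈ A \ S, z i else 0 := by
  unfold polyWith; rw [Finset.sum_filter]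

lemma polyWith_nonneg {g : Finset X → ℝ} (hg : ∀ A, 0 ≤ g A) {z : X → ℝ} (hz : ∀ i, 0 ≤ z i)
    (S : Finset X) : 0 ≤ polyWith g z S := by
  unfold polyWith
  exact Finset.sum_nonneg fun A _ => mul_nonneg (hg A) (Finset.prod_nonneg fun i _ => hz i)

/-- The value at the field `fld τ Z`. -/
noncomputable def Fv (g : Finset X → ℝ) (τ : ℝ) (Z : Finset X) : ℝ := polyWith g (fld τ Z) ∅

/-- The derivative in direction `y` at the field `fld τ Z`. -/
noncomputable def Dv (g : Finset X → ℝ) (τ : ℝ) (Z : Finset X) (y : X) : ℝ :=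
  polyWith g (fld τ Z) {y}

lemma Fv_eq (g : Finset X → ℝ) (τ : ℝ) (Z : Finset X) :
    Fv g τ Z = ∑ A, g A * ∏ i ∈ A, fld τ Z i := by
  simp [Fv, polyWith]

lemma Dv_eq (g : Finset X → ℝ) (τ : ℝ) (Z : Finset X) (y : X) :
    Dv g τ Z y = ∑ A, if y ∈ A then g A * ∏ i ∈ A \ {y}, fld τ Z i else 0 := by
  simp [Dv, polyWith_eq]

/-- Adding a point to the field: the derivative formula. -/
lemma polyWith_fld_insert (g : Finset X → ℝ) (τ : ℝ) {Z S : Finset X} {x : X}
    (hxZ : x ∉ Z) (hxS : x ∉ S) :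
    polyWith g (fld τ (insert x Z)) S
      = polyWith g (fld τ Z) S + (1 - τ) * polyWith g (fld τ Z) (insert x S) := by
  simp only [polyWith_eq]
  rw [Finset.mul_sum, ← Finset.sum_add_distrib]
  refine Finset.sum_congr rfl fun A _ => ?_
  by_cases hSA : S ⊆ A
  · by_cases hxA : x ∈ A
    · have hins : insert x S ⊆ A := Finset.insert_subset hxA hSA
      rw [if_pos hSA, if_pos hSA, if_pos hins]
      have hmem : x ∈ A \ S := Finset.mem_sdiff.mpr ⟨hxA, hxS⟩
      have herase : (A \ S).erase x = A \ insert x S := by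
        ext i; simp only [mem_erase, mem_sdiff, mem_insert]; tauto
      have h1 : ∏ i ∈ A \ S, fld τ (insert x Z) i = ∏ i ∈ A \ insert x S, fld τ Z i := by
        rw [← Finset.mul_prod_erase _ _ hmem, herase, fld_of_mem (mem_insert_self x Z), one_mul]
        refine Finset.prod_congr rfl fun i hi => ?_
        have hix : i ≠ x := by
          intro h; subst h; simp at hi
        simp [fld, hix]
      have h2 : ∏ i ∈ A \ S, fld τ Z i = τ * ∏ i ∈ A \ insert x S, fld τ Z i := by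
        rw [← Finset.mul_prod_erase _ _ hmem, herase, fld_of_not_mem hxZ]
      rw [h1, h2]; ring
    · have hins : ¬ insert x S ⊆ A := fun h => hxA (h (mem_insert_self x S))
      rw [if_pos hSA, if_pos hSA, if_neg hins]
      have h1 : ∏ i ∈ A \ S, fld τ (insert x Z) i = ∏ i ∈ A \ S, fld τ Z i := by
        refine Finset.prod_congr rfl fun i hi => ?_
        have hix : i ≠ x := by
          intro h; subst h; exact hxA (Finset.mem_sdiff.mp hi).1
        simp [fld, hix]
      rw [h1]; ring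
  · have hins : ¬ insert x S ⊆ A := fun h => hSA ((Finset.subset_insert x S).trans h)
    rw [if_neg hSA, if_neg hSA, if_neg hins]; ring

/-- The field at `x` is irrelevant for a derivative in direction `x`. -/
lemma polyWith_fld_insert_self (g : Finset X → ℝ) (τ : ℝ) (Z S : Finset X) (x : X) :
    polyWith g (fld τ (insert x Z)) (insert x S) = polyWith g (fld τ Z) (insert x S) := by
  simp only [polyWith_eq]
  refine Finset.sum_congr rfl fun A _ => ?_
  by_cases h : insert x S ⊆ A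
  · rw [if_pos h, if_pos h]
    congr 1
    refine Finset.prod_congr rfl fun i hi => ?_
    have hix : i ≠ x := by
      intro h'; subst h'; simp at hi
    simp [fld, hix]
  · rw [if_neg h, if_neg h]

lemma Fv_insert (g : Finset X → ℝ) (τ : ℝ) {Z : Finset X} {x : X} (hxZ : x ∉ Z) :
    Fv g τ (insert x Z) = Fv g τ Z + (1 - τ) * Dv g τ Z x := by
  unfold Fv Dv
  rw [polyWith_fld_insert g τ hxZ (Finset.notMem_empty x)]
  simp

lemma Dv_insert_self (g : Finset X → ℝ) (τ : ℝ) (Z : Finset X) (x : X) :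
    Dv g τ (insert x Z) x = Dv g τ Z x := by
  unfold Dv
  have := polyWith_fld_insert_self g τ Z ∅ x
  simpa using this

lemma Fv_nonneg {g : Finset X → ℝ} (hg : ∀ A, 0 ≤ g A) {τ : ℝ} (hτ : 0 < τ) (Z : Finset X) :
    0 ≤ Fv g τ Z :=
  polyWith_nonneg hg (fun i => (fld_pos hτ Z i).le) _

lemma Dv_nonneg {g : Finset X → ℝ} (hg : ∀ A, 0 ≤ g A) {τ : ℝ} (hτ : 0 < τ) (Z : Finset X)
    (y : X) : 0 ≤ Dv g τ Z y :=
  polyWith_nonneg hg (fun i => (fld_pos hτ Z i).le) _

/-- Monotonicity of the value in the field. -/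
lemma Fv_mono {g : Finset X → ℝ} (hg : ∀ A, 0 ≤ g A) {τ : ℝ} (hτ : 0 < τ) (hτ1 : τ ≤ 1)
    {Z Z' : Finset X} (h : Z ⊆ Z') : Fv g τ Z ≤ Fv g τ Z' := by
  rw [Fv_eq, Fv_eq]
  refine Finset.sum_le_sum fun A _ => mul_le_mul_of_nonneg_left ?_ (hg A)
  refine Finset.prod_le_prod (fun i _ => (fld_pos hτ Z i).le) fun i _ => ?_
  unfold fld
  by_cases hi : i ∈ Z
  · simp [hi, h hi]
  · by_cases hi' : i ∈ Z'
    · simp [hi, hi', hτ1]
    · simp [hi, hi']

/-- The Rayleigh inequality in multiplicative monotone form. -/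
lemma Dv_insert_mul_le {g : Finset X → ℝ} (hg : ∀ A, 0 ≤ g A) (hR : IsRayleigh g) {τ : ℝ}
    (hτ : 0 < τ) (hτ1 : τ ≤ 1) {Z : Finset X} {x y : X} (hxZ : x ∉ Z) (hxy : x ≠ y) :
    Dv g τ (insert x Z) y * Fv g τ Z ≤ Dv g τ Z y * Fv g τ (insert x Z) := by
  have hR' := hR (fld τ Z) (fld_pos hτ Z) x y hxy
  have hD : Dv g τ (insert x Z) y
      = Dv g τ Z y + (1 - τ) * polyWith g (fld τ Z) {x, y} := by
    unfold Dv
    exact polyWith_fld_insert g τ hxZ (by simpa using hxy)
  rw [hD, Fv_insert g τ hxZ]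
  have h1 : 0 ≤ 1 - τ := by linarith
  have hF : polyWith g (fld τ Z) ∅ = Fv g τ Z := rfl
  have hDx : polyWith g (fld τ Z) {x} = Dv g τ Z x := rfl
  have hDy : polyWith g (fld τ Z) {y} = Dv g τ Z y := rfl
  rw [hF, hDx, hDy] at hR'
  nlinarith [mul_le_mul_of_nonneg_left hR' h1]

/-- Chain form of the Rayleigh inequality. -/
lemma Dv_chain {g : Finset X → ℝ} (hg : ∀ A, 0 ≤ g A) (hR : IsRayleigh g) {τ : ℝ}
    (hτ : 0 < τ) (hτ1 : τ ≤ 1) {W : Finset X} (hW : 0 < Fv g τ W) {y : X} (T : Finset X) :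
    Disjoint T W → y ∉ T → Dv g τ (T ∪ W) y * Fv g τ W ≤ Dv g τ W y * Fv g τ (T ∪ W) := by
  induction T using Finset.induction_on with
  | empty =>
    intro _ _
    simp [mul_comm]
  | insert x T hxT ih =>
    intro hd hy
    have hdT : Disjoint T W := by
      rw [Finset.disjoint_left] at hd ⊢
      exact fun a ha => hd (mem_insert_of_mem ha)
    have hyT : y ∉ T := fun h => hy (mem_insert_of_mem h)
    have hxW : x ∉ W := Finset.disjoint_left.mp hd (mem_insert_self x T)
    have hxZ : x ∉ T ∪ W := by simp [hxT, hxW]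
    have hxy : x ≠ y := by
      intro h; subst h; exact hy (mem_insert_self _ _)
    have hih := ih hdT hyT
    have hstep := Dv_insert_mul_le hg hR hτ hτ1 hxZ hxy
    have hins : insert x T ∪ W = insert x (T ∪ W) := Finset.insert_union x T W
    rw [hins]
    have hpos : 0 < Fv g τ (T ∪ W) :=
      lt_of_lt_of_le hW (Fv_mono hg hτ hτ1 Finset.subset_union_right)
    have hFins : 0 ≤ Fv g τ (insert x (T ∪ W)) := Fv_nonneg hg hτ _
    have hDins : 0 ≤ Dv g τ (insert x (T ∪ W)) y := Dv_nonneg hg hτ _ _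
    refine le_of_mul_le_mul_right ?_ hpos
    calc Dv g τ (insert x (T ∪ W)) y * Fv g τ W * Fv g τ (T ∪ W)
        = (Dv g τ (insert x (T ∪ W)) y * Fv g τ (T ∪ W)) * Fv g τ W := by ring
      _ ≤ (Dv g τ (T ∪ W) y * Fv g τ (insert x (T ∪ W))) * Fv g τ W :=
          mul_le_mul_of_nonneg_right hstep hW.le
      _ = (Dv g τ (T ∪ W) y * Fv g τ W) * Fv g τ (insert x (T ∪ W)) := by ring
      _ ≤ (Dv g τ W y * Fv g τ (T ∪ W)) * Fv g τ (insert x (T ∪ W)) :=
          mul_le_mul_of_nonneg_right hih hFins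
      _ = Dv g τ W y * Fv g τ (insert x (T ∪ W)) * Fv g τ (T ∪ W) := by ring

/-- Euler bound: for a weight living on sets of size `s`, the derivatives in directions
of `Z` sum to at most `s` times the value. -/
lemma sum_Dv_le {g : Finset X → ℝ} (hg : ∀ A, 0 ≤ g A) {s : ℕ}
    (hs : ∀ A, g A ≠ 0 → A.card = s) {τ : ℝ} (hτ : 0 < τ) (Z : Finset X) :
    ∑ y ∈ Z, Dv g τ Z y ≤ s * Fv g τ Z := by
  simp only [Dv_eq, Fv_eq]
  rw [Finset.sum_comm, Finset.mul_sum]
  refine Finset.sum_le_sum fun A _ => ?_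
  by_cases hA : g A = 0
  · simp [hA]
  have hcard : A.card = s := hs A hA
  have hterm : ∀ y ∈ Z, (if y ∈ A then g A * ∏ i ∈ A \ {y}, fld τ Z i else 0)
      = if y ∈ A then g A * ∏ i ∈ A, fld τ Z i else 0 := by
    intro y hy
    by_cases hyA : y ∈ A
    · rw [if_pos hyA, if_pos hyA]
      congr 1
      rw [← Finset.erase_eq, ← Finset.mul_prod_erase A _ hyA, fld_of_mem hy, one_mul] 
    · rw [if_neg hyA, if_neg hyA]
  rw [Finset.sum_congr rfl hterm, ← Finset.sum_filter, Finset.sum_const, nsmul_eq_mul]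
  have hnn : 0 ≤ g A * ∏ i ∈ A, fld τ Z i :=
    mul_nonneg (hg A) (Finset.prod_nonneg fun i _ => (fld_pos hτ Z i).le)
  refine mul_le_mul_of_nonneg_right ?_ hnn
  rw [← hcard]
  exact_mod_cast Finset.card_le_card (fun y hy => (Finset.mem_filter.mp hy).2)

/-- Value at a union is bounded by the derivatives at the smaller field. -/
lemma Fv_union_le {g : Finset X → ℝ} (hg : ∀ A, 0 ≤ g A) {τ : ℝ} (hτ : 0 < τ)
    (T W : Finset X) : Fv g τ (T ∪ W) ≤ ∑ B ∈ T.powerset, polyWith g (fld τ W) B := by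
  rw [Fv_eq]
  simp only [polyWith_eq]
  rw [Finset.sum_comm]
  refine Finset.sum_le_sum fun A _ => ?_
  have hmem : A ∩ T ∈ T.powerset := Finset.mem_powerset.mpr Finset.inter_subset_right
  have hnn : ∀ B ∈ T.powerset, 0 ≤ (if B ⊆ A then g A * ∏ i ∈ A \ B, fld τ W i else 0) := by
    intro B _
    split_ifs
    · exact mul_nonneg (hg A) (Finset.prod_nonneg fun i _ => (fld_pos hτ W i).le)
    · exact le_rfl
  refine le_trans ?_ (Finset.single_le_sum hnn hmem)
  rw [if_pos Finset.inter_subset_left]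
  refine le_of_eq ?_
  congr 1
  have hsplit : ∏ i ∈ A, fld τ (T ∪ W) i = ∏ i ∈ A \ (A ∩ T), fld τ (T ∪ W) i := by
    symm
    refine Finset.prod_subset Finset.sdiff_subset fun i hi hi' => ?_
    have : i ∈ T := by
      by_contra hT
      exact hi' (Finset.mem_sdiff.mpr ⟨hi, fun h => hT (Finset.mem_inter.mp h).2⟩)
    exact fld_of_mem (Finset.mem_union_left _ this)
  rw [hsplit]
  refine Finset.prod_congr rfl fun i hi => ?_
  have hiT : i ∉ T := by
    intro hT
    exact (Finset.mem_sdiff.mp hi).2 (Finset.mem_inter.mpr ⟨(Finset.mem_sdiff.mp hi).1, hT⟩)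
  simp [fld, hiT]

end Vale.Agent.Lib.P034
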