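import Mathlib
import Vale.Agent.Lib.P034.Defs

/-!
Definitions for the log-tangent case of Talagrand's conjecture on fractional covers.
-/

namespace Vale.Agent.Lib.P034
open Finset

variable {X : Type*} [Fintype X] [DecidableEq X]

/-- The polynomial with coefficients `g` lies below the exponential of its logarithmic tangent
in nonnegative directions: for every strictly positive point `z` with `P z > 0` and every
nonnegative `u`, one has `P (z + u) ≤ P z * exp (∑ x, u x * P_x z / P z)`. -/
def IsLogTangent (g : Finset X → ℝ) : Prop :=
  ∀ z u : X → ℝ, (∀ i, 0 < z i) → (∀ i, 0 ≤ u i) → 0 < polyWith g z ∅ →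
    polyWith g (fun i => z i + u i) ∅ ≤
      polyWith g z ∅ * Real.exp ((∑ x, u x * polyWith g z {x}) / polyWith g z ∅)

/-- The logarithm of the polynomial with coefficients `g` is concave on the open positive orthant. -/
def IsLogConcaveOrthant (g : Finset X → ℝ) : Prop :=
  ConcaveOn ℝ {z : X → ℝ | ∀ i, 0 < z i} (fun z => Real.log (polyWith g z ∅))

end Vale.Agent.Lib.P034
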