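import Mathlib
import Vale.Agent.Lib.P034.Defs

/-!
Regular sets for a weight function on subsets.
-/

namespace Vale.Agent.Lib.P034
open Finset

variable {X : Type*} [DecidableEq X]

/-- The total weight of the subsets of `D`. -/
noncomputable def fMass (g : Finset X → ℝ) (D : Finset X) : ℝ :=
  ∑ S ∈ D.powerset, g S

/-- The total weight of the subsets of `D` that contain `x`. -/
noncomputable def pMass (g : Finset X → ℝ) (D : Finset X) (x : X) : ℝ :=
  ∑ S ∈ D.powerset.filter (fun S => x ∈ S), g S

/-- `D` is regular for `g`: under the probability proportional to `g` on the subsets of `D`, all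
elements of `D` have the same probability `a` of lying in the random subset. -/
def IsRegular (g : Finset X → ℝ) (D : Finset X) : Prop :=
  ∃ a : ℝ, ∀ x ∈ D, pMass g D x = a * fMass g D

end Vale.Agent.Lib.P034
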