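import Mathlib
import Vale.Agent.Lib.P034.Core

namespace Vale.Agent.Lib.P034
open Finset
set_option linter.unusedSectionVars false
set_option linter.unusedVariables false
set_option linter.unusedSimpArgs false

variable {X : Type*} [Fintype X] [DecidableEq X]

/-- The product measure of density `δ` on subsets of `X`. -/
noncomputable def mu (δ : ℝ) (W : Finset X) : ℝ := δ ^ W.card * (1 - δ) ^ Wᶜ.card

lemma mu_pos {δ : ℝ} (h0 : 0 < δ) (h1 : δ < 1) (W : Finset X) : 0 < mu δ W :=
  mul_pos (pow_pos h0 _) (pow_pos (by linarith) _)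

lemma sum_mu_mul_prod (δ : ℝ) (a b : X → ℝ) :
    ∑ W : Finset X, mu δ W * ∏ i, (if i ∈ W then a i else b i)
      = ∏ i, (δ * a i + (1 - δ) * b i) := by
  rw [Finset.prod_add, Finset.powerset_univ]
  refine Finset.sum_congr rfl fun W _ => ?_
  have hsplit : ∏ i, (if i ∈ W then a i else b i)
      = (∏ i ∈ W, a i) * ∏ i ∈ Wᶜ, b i := by
    rw [← Finset.prod_mul_prod_compl W]
    congr 1
    · exact Finset.prod_congr rfl fun i hi => by simp [hi]
    · exact Finset.prod_congr rfl fun i hi => by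
        have : i ∉ W := by simpa using hi
        simp [this]
  rw [hsplit, mu, Finset.prod_mul_distrib, Finset.prod_mul_distrib, Finset.prod_const,
    Finset.prod_const, Finset.compl_eq_univ_sdiff]
  ring

lemma sum_mu (δ : ℝ) : ∑ W : Finset X, mu δ W = 1 := by
  have := sum_mu_mul_prod (X := X) δ (fun _ => 1) (fun _ => 1)
  simpa using this

/-- Expectation of the product of the field over `C`. -/
lemma expect_fld (δ τ : ℝ) (C : Finset X) :
    ∑ W : Finset X, mu δ W * ∏ i ∈ C, fld τ W i = (δ + (1 - δ) * τ) ^ C.card := by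
  have := sum_mu_mul_prod (X := X) δ (fun _ => 1) (fun i => if i ∈ C then τ else 1)
  have hL : ∀ W : Finset X, ∏ i, (if i ∈ W then (1 : ℝ) else if i ∈ C then τ else 1)
      = ∏ i ∈ C, fld τ W i := by
    intro W
    have h1 : ∀ i, (if i ∈ W then (1 : ℝ) else if i ∈ C then τ else 1)
        = if i ∈ C then fld τ W i else 1 := by
      intro i
      by_cases h : i ∈ W <;> by_cases h' : i ∈ C <;> simp [h, h', fld]
    simp only [h1]
    rw [Finset.prod_ite_mem]
    simp
  have hR : ∏ i, (δ * 1 + (1 - δ) * (if i ∈ C then τ else 1))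
      = (δ + (1 - δ) * τ) ^ C.card := by
    have h1 : ∀ i, (δ * 1 + (1 - δ) * (if i ∈ C then τ else 1))
        = if i ∈ C then (δ + (1 - δ) * τ) else 1 := by
      intro i
      by_cases h' : i ∈ C <;> simp [h']
    simp only [h1]
    rw [Finset.prod_ite_mem]
    simp
  simp only [hL, hR] at this
  exact this

/-- Expected weighted sum of all derivatives at the random field. -/
lemma expect_polyWith (g : Finset X → ℝ) (δ τ q : ℝ) :
    ∑ W : Finset X, mu δ W * ∑ B : Finset X, q ^ B.card * polyWith g (fld τ W) B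
      = ∑ A, g A * (q + (δ + (1 - δ) * τ)) ^ A.card := by
  simp only [polyWith_eq]
  have h1 : ∀ B A : Finset X, ∑ W : Finset X, mu δ W *
        (if B ⊆ A then g A * ∏ i ∈ A \ B, fld τ W i else 0)
      = if B ⊆ A then g A * (δ + (1 - δ) * τ) ^ (A.card - B.card) else 0 := by
    intro B A
    by_cases h : B ⊆ A
    · simp only [if_pos h]
      rw [← Finset.card_sdiff_of_subset h, ← expect_fld δ τ (A \ B), Finset.mul_sum]
      refine Finset.sum_congr rfl fun W _ => by ring
    · simp [if_neg h]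
  calc ∑ W : Finset X, mu δ W * ∑ B : Finset X, q ^ B.card *
          ∑ A, (if B ⊆ A then g A * ∏ i ∈ A \ B, fld τ W i else 0)
      = ∑ B : Finset X, q ^ B.card * ∑ A, ∑ W : Finset X, mu δ W *
          (if B ⊆ A then g A * ∏ i ∈ A \ B, fld τ W i else 0) := by
        simp only [Finset.mul_sum]
        rw [Finset.sum_comm]
        refine Finset.sum_congr rfl fun B _ => ?_
        rw [Finset.sum_comm]
        refine Finset.sum_congr rfl fun A _ => ?_
        refine Finset.sum_congr rfl fun W _ => by ring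
    _ = ∑ B : Finset X, q ^ B.card * ∑ A,
          (if B ⊆ A then g A * (δ + (1 - δ) * τ) ^ (A.card - B.card) else 0) := by
        simp only [h1]
    _ = ∑ A, ∑ B : Finset X, q ^ B.card *
          (if B ⊆ A then g A * (δ + (1 - δ) * τ) ^ (A.card - B.card) else 0) := by
        simp only [Finset.mul_sum]
        rw [Finset.sum_comm]
    _ = ∑ A, g A * (q + (δ + (1 - δ) * τ)) ^ A.card := by
        refine Finset.sum_congr rfl fun A _ => ?_
        rw [← Finset.sum_pow_mul_eq_add_pow, Finset.mul_sum]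
        have hset : A.powerset = univ.filter (fun B => B ⊆ A) := by
          ext B; simp
        rw [hset, Finset.sum_filter]
        refine Finset.sum_congr rfl fun B _ => ?_
        by_cases h : B ⊆ A
        · simp only [if_pos h]; ring
        · simp [if_neg h]

/-- The candidates at `W`. -/
def goodT (U : Finset X → Finset X) (m : ℕ) (W : Finset X) : Finset (Finset X) :=
  univ.filter fun T =>
    Disjoint T W ∧ T ⊆ U (T ∪ W) ∧ (U (T ∪ W)).card ≤ 5 * T.card ∧ m ≤ T.card

/-- The candidates seen from the union. -/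
def pickT (U : Finset X → Finset X) (m : ℕ) (Z : Finset X) : Finset (Finset X) :=
  (U Z).powerset.filter fun T => T ⊆ Z ∧ (U Z).card ≤ 5 * T.card ∧ m ≤ T.card

lemma mu_sdiff_mul_le {δ : ℝ} (h0 : 0 < δ) (h1 : δ < 1) {T Z : Finset X} (hTZ : T ⊆ Z) :
    mu δ (Z \ T) * (δ / 256) ^ T.card ≤ mu δ Z * (1 / 256) ^ T.card := by
  have hc1 : (Z \ T).card + T.card = Z.card := Finset.card_sdiff_add_card_eq_card hTZ
  have hc2 : (Z \ T)ᶜ.card = Zᶜ.card + T.card := by
    have hle := Finset.card_le_univ Z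
    rw [Finset.card_compl, Finset.card_compl]
    omega
  unfold mu
  rw [hc2, ← hc1]
  have h1' : 0 < 1 - δ := by linarith
  have hpow : (1 - δ) ^ T.card ≤ 1 := pow_le_one₀ h1'.le (by linarith)
  have hA : 0 ≤ δ ^ (Z \ T).card * (1 - δ) ^ Zᶜ.card * (δ / 256) ^ T.card := by positivity
  calc δ ^ (Z \ T).card * (1 - δ) ^ (Zᶜ.card + T.card) * (δ / 256) ^ T.card
      = (δ ^ (Z \ T).card * (1 - δ) ^ Zᶜ.card * (δ / 256) ^ T.card) * (1 - δ) ^ T.card := by
        rw [pow_add]; ring
    _ ≤ (δ ^ (Z \ T).card * (1 - δ) ^ Zᶜ.card * (δ / 256) ^ T.card) * 1 :=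
        mul_le_mul_of_nonneg_left hpow hA
    _ = δ ^ ((Z \ T).card + T.card) * (1 - δ) ^ Zᶜ.card * (1 / 256) ^ T.card := by
        rw [pow_add, div_pow, div_pow, one_pow]; ring

lemma sum_pickT_le (U : Finset X → Finset X) (m : ℕ) (Z : Finset X) :
    ∑ T ∈ pickT U m Z, ((1 : ℝ) / 256) ^ T.card ≤ (1 / 8) ^ m := by
  set u := (U Z).card with hu
  have hterm : ∀ T ∈ pickT U m Z, ((1 : ℝ) / 256) ^ T.card ≤ (1 / 2) ^ u * (1 / 8) ^ m := by
    intro T hT
    obtain ⟨-, -, hu5, hm⟩ := Finset.mem_filter.mp hT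
    have h256 : ((1 : ℝ) / 256) ^ T.card = (1 / 2) ^ (5 * T.card) * (1 / 8) ^ T.card := by
      rw [pow_mul, ← mul_pow]; norm_num
    rw [h256]
    refine mul_le_mul ?_ ?_ (by positivity) (by positivity)
    · exact pow_le_pow_of_le_one (by norm_num) (by norm_num) hu5
    · exact pow_le_pow_of_le_one (by norm_num) (by norm_num) hm
  have hcard : ((pickT U m Z).card : ℝ) ≤ 2 ^ u := by
    have : (pickT U m Z).card ≤ (U Z).powerset.card := Finset.card_filter_le _ _
    rw [Finset.card_powerset] at this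
    exact_mod_cast this
  calc ∑ T ∈ pickT U m Z, ((1 : ℝ) / 256) ^ T.card
      ≤ ∑ T ∈ pickT U m Z, ((1 : ℝ) / 2) ^ u * (1 / 8) ^ m := Finset.sum_le_sum hterm
    _ = ((pickT U m Z).card : ℝ) * ((1 / 2) ^ u * (1 / 8) ^ m) := by
        rw [Finset.sum_const, nsmul_eq_mul]
    _ ≤ 2 ^ u * ((1 / 2) ^ u * (1 / 8) ^ m) :=
        mul_le_mul_of_nonneg_right hcard (by positivity)
    _ = (1 / 8) ^ m := by
        rw [← mul_assoc, ← mul_pow]; norm_num

/-- The Kraft-type bound behind the integral cover. -/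
lemma kraft (U : Finset X → Finset X) (m : ℕ) {δ : ℝ} (h0 : 0 < δ) (h1 : δ < 1) :
    ∑ W : Finset X, mu δ W * ∑ T ∈ goodT U m W, (δ / 256) ^ T.card ≤ (1 / 8) ^ m := by
  have hbij : ∑ W : Finset X, mu δ W * ∑ T ∈ goodT U m W, (δ / 256) ^ T.card
      = ∑ Z : Finset X, ∑ T ∈ pickT U m Z, mu δ (Z \ T) * (δ / 256) ^ T.card := by
    simp only [Finset.mul_sum]
    rw [Finset.sum_sigma', Finset.sum_sigma']
    refine Finset.sum_nbij' (fun x => ⟨x.2 ∪ x.1, x.2⟩) (fun x => ⟨x.1 \ x.2, x.2⟩)
      ?_ ?_ ?_ ?_ ?_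
    · rintro ⟨W, T⟩ h
      simp only [Finset.mem_sigma, Finset.mem_univ, true_and, goodT, Finset.mem_filter] at h
      obtain ⟨hd, hs, hc, hm⟩ := h
      simp only [Finset.mem_sigma, Finset.mem_univ, true_and, pickT, Finset.mem_filter,
        Finset.mem_powerset]
      exact ⟨hs, Finset.subset_union_left, hc, hm⟩
    · rintro ⟨Z, T⟩ h
      simp only [Finset.mem_sigma, Finset.mem_univ, true_and, pickT, Finset.mem_filter,
        Finset.mem_powerset] at h
      obtain ⟨hs, hTZ, hc, hm⟩ := h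
      simp only [Finset.mem_sigma, Finset.mem_univ, true_and, goodT, Finset.mem_filter]
      have hU : T ∪ (Z \ T) = Z := Finset.union_sdiff_of_subset hTZ
      rw [hU]
      exact ⟨Finset.disjoint_sdiff, hs, hc, hm⟩
    · rintro ⟨W, T⟩ h
      simp only [Finset.mem_sigma, Finset.mem_univ, true_and, goodT, Finset.mem_filter] at h
      obtain ⟨hd, -, -, -⟩ := h
      have hW : (T ∪ W) \ T = W := by
        rw [Finset.union_sdiff_left]
        exact Finset.sdiff_eq_self_of_disjoint hd.symm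
      simp [hW]
    · rintro ⟨Z, T⟩ h
      simp only [Finset.mem_sigma, Finset.mem_univ, true_and, pickT, Finset.mem_filter,
        Finset.mem_powerset] at h
      obtain ⟨hs, hTZ, hc, hm⟩ := h
      have hU : T ∪ (Z \ T) = Z := Finset.union_sdiff_of_subset hTZ
      simp [hU]
    · rintro ⟨W, T⟩ h
      simp only [Finset.mem_sigma, Finset.mem_univ, true_and, goodT, Finset.mem_filter] at h
      obtain ⟨hd, -, -, -⟩ := h
      have hW : (T ∪ W) \ T = W := by
        rw [Finset.union_sdiff_left]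
        exact Finset.sdiff_eq_self_of_disjoint hd.symm
      simp [hW]
  rw [hbij]
  calc ∑ Z : Finset X, ∑ T ∈ pickT U m Z, mu δ (Z \ T) * (δ / 256) ^ T.card
      ≤ ∑ Z : Finset X, ∑ T ∈ pickT U m Z, mu δ Z * (1 / 256) ^ T.card := by
        refine Finset.sum_le_sum fun Z _ => Finset.sum_le_sum fun T hT => ?_
        exact mu_sdiff_mul_le h0 h1 (Finset.mem_filter.mp hT).2.1
    _ = ∑ Z : Finset X, mu δ Z * ∑ T ∈ pickT U m Z, (1 / 256) ^ T.card := by
        simp only [Finset.mul_sum]
    _ ≤ ∑ Z : Finset X, mu δ Z * (1 / 8) ^ m := by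
        refine Finset.sum_le_sum fun Z _ => ?_
        exact mul_le_mul_of_nonneg_left (sum_pickT_le U m Z) (mu_pos h0 h1 Z).le
    _ = (1 / 8) ^ m := by
        rw [← Finset.sum_mul, sum_mu, one_mul]

end Vale.Agent.Lib.P034
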