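import Mathlib
import Vale.Agent.Lib.P034.Measure

namespace Vale.Agent.Lib.P034
open Finset
set_option linter.unusedSectionVars false
set_option linter.unusedVariables false
set_option linter.unusedSimpArgs false

variable {X : Type*} [Fintype X] [DecidableEq X]

/-- The elements of `Z` whose derivative is large at scale `b`. -/
noncomputable def listU (g : Finset X → ℝ) (τ b : ℝ) (Z : Finset X) : Finset X :=
  Z.filter fun y => b * Fv g τ Z ≤ 2 * Dv g τ Z y

/-- The tilted objective. -/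
noncomputable def Theta (g : Finset X → ℝ) (τ : ℝ) (W : Finset X) (b : ℝ) (T : Finset X) : ℝ :=
  Fv g τ (T ∪ W) * Real.exp (-(b * T.card))

lemma Fv_pos_of_pos {g : Finset X → ℝ} (hg : ∀ A, 0 ≤ g A) {τ : ℝ} (hτ : 0 < τ)
    {Z : Finset X} (hZ : 0 < Fv g τ Z) (Z' : Finset X) : 0 < Fv g τ Z' := by
  rw [Fv_eq] at hZ ⊢
  obtain ⟨A, -, hA⟩ := Finset.exists_ne_zero_of_sum_ne_zero hZ.ne'
  have hgA : g A ≠ 0 := left_ne_zero_of_mul hA
  refine Finset.sum_pos' (fun A _ => mul_nonneg (hg A)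
    (Finset.prod_nonneg fun i _ => (fld_pos hτ Z' i).le)) ⟨A, Finset.mem_univ A, ?_⟩
  exact mul_pos (lt_of_le_of_ne (hg A) hgA.symm) (Finset.prod_pos fun i _ => fld_pos hτ Z' i)

lemma half_le_one_sub_exp {b : ℝ} (h0 : 0 ≤ b) (h1 : b ≤ 1) : b / 2 ≤ 1 - Real.exp (-b) := by
  have h2 : 1 + b ≤ Real.exp b := by linarith [Real.add_one_le_exp b]
  have h3 : Real.exp (-b) ≤ 1 / (1 + b) := by
    rw [Real.exp_neg, ← one_div]
    exact one_div_le_one_div_of_le (by linarith) h2
  have h4 : 1 / (1 + b) ≤ 1 - b / 2 := by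
    rw [div_le_iff₀ (by linarith)]
    nlinarith
  linarith

/-- A member of a maximiser of the tilted objective is on the list. -/
lemma stable_mem_list {g : Finset X → ℝ} (hg : ∀ A, 0 ≤ g A) {τ : ℝ} (hτ : 0 < τ) (hτ1 : τ ≤ 1)
    {W T : Finset X} {b : ℝ} (hb0 : 0 < b) (hb1 : b ≤ 1) {x : X} (hx : x ∈ T) (hxW : x ∉ W)
    (hmax : Theta g τ W b (T.erase x) ≤ Theta g τ W b T) :
    x ∈ listU g τ b (T ∪ W) := by
  have hZ : T ∪ W = insert x (T.erase x ∪ W) := by
    rw [← Finset.insert_union, Finset.insert_erase hx]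
  have hxZ' : x ∉ T.erase x ∪ W := by simp [hxW]
  refine Finset.mem_filter.mpr ⟨Finset.mem_union_left _ hx, ?_⟩
  have hcard : ((T.erase x).card : ℝ) = T.card - 1 := by
    rw [Finset.card_erase_of_mem hx]
    have : 1 ≤ T.card := Finset.card_pos.mpr ⟨x, hx⟩
    push_cast [Nat.cast_sub this]
    ring
  unfold Theta at hmax
  rw [hcard] at hmax
  have hexp : Real.exp (-(b * ((T.card : ℝ) - 1))) = Real.exp (-(b * T.card)) * Real.exp b := by
    rw [← Real.exp_add]; congr 1; ring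
  rw [hexp, ← mul_assoc] at hmax
  have hpos := Real.exp_pos (-(b * (T.card : ℝ)))
  have h1 : Fv g τ (T.erase x ∪ W) * Real.exp b ≤ Fv g τ (T ∪ W) := by
    refine le_of_mul_le_mul_right ?_ hpos
    calc Fv g τ (T.erase x ∪ W) * Real.exp b * Real.exp (-(b * (T.card : ℝ)))
        = Fv g τ (T.erase x ∪ W) * Real.exp (-(b * (T.card : ℝ))) * Real.exp b := by ring
      _ ≤ _ := by
        have := hmax
        nlinarith [this]
  have hexpb : Real.exp (-b) * Real.exp b = 1 := by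
    rw [← Real.exp_add]; simp
  have h2 : Fv g τ (T.erase x ∪ W) ≤ Fv g τ (T ∪ W) * Real.exp (-b) := by
    calc Fv g τ (T.erase x ∪ W) = Fv g τ (T.erase x ∪ W) * Real.exp b * Real.exp (-b) := by
          rw [mul_assoc, mul_comm (Real.exp b), hexpb, mul_one]
      _ ≤ Fv g τ (T ∪ W) * Real.exp (-b) :=
          mul_le_mul_of_nonneg_right h1 (Real.exp_pos _).le
  have h3 : Fv g τ (T ∪ W) = Fv g τ (T.erase x ∪ W) + (1 - τ) * Dv g τ (T.erase x ∪ W) x := by
    rw [hZ]
    rw [Fv_insert g τ hxZ']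
  have h4 : Dv g τ (T ∪ W) x = Dv g τ (T.erase x ∪ W) x := by
    rw [hZ, Dv_insert_self]
  have hDnn : 0 ≤ Dv g τ (T.erase x ∪ W) x := Dv_nonneg hg hτ _ _
  have hFnn : 0 ≤ Fv g τ (T ∪ W) := Fv_nonneg hg hτ _
  have h5 := half_le_one_sub_exp hb0.le hb1
  have h6 : Fv g τ (T ∪ W) * (b / 2) ≤ Fv g τ (T ∪ W) * (1 - Real.exp (-b)) :=
    mul_le_mul_of_nonneg_left h5 hFnn
  rw [h4]
  have h7 : (1 - τ) * Dv g τ (T.erase x ∪ W) x ≤ Dv g τ (T.erase x ∪ W) x := by
    nlinarith
  nlinarith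

/-- A list element in `W` has a large derivative at `W`. -/
lemma list_mem_W_le {g : Finset X → ℝ} (hg : ∀ A, 0 ≤ g A) (hR : IsRayleigh g) {τ : ℝ}
    (hτ : 0 < τ) (hτ1 : τ ≤ 1) {W T : Finset X} (hW : 0 < Fv g τ W) (hd : Disjoint T W) {b : ℝ}
    {y : X} (hy : y ∈ listU g τ b (T ∪ W)) (hyW : y ∈ W) :
    b ≤ 2 * Dv g τ W y / Fv g τ W := by
  have hyT : y ∉ T := fun h => Finset.disjoint_left.mp hd h hyW
  have hchain := Dv_chain hg hR hτ hτ1 hW T hd hyT
  have hmem := (Finset.mem_filter.mp hy).2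
  have hpos : 0 < Fv g τ (T ∪ W) :=
    lt_of_lt_of_le hW (Fv_mono hg hτ hτ1 Finset.subset_union_right)
  rw [le_div_iff₀ hW]
  refine le_of_mul_le_mul_right ?_ hpos
  nlinarith [mul_le_mul_of_nonneg_right hmem hW.le]

lemma geom_tail (a : ℝ) (K : ℕ) :
    ∑ k ∈ range K, (if ((1 : ℝ) / 2) ^ k ≤ a then ((1 : ℝ) / 2) ^ k else 0)
      ≤ max 0 (2 * a - 2 * (1 / 2) ^ K) := by
  induction K with
  | zero => simp
  | succ K ih =>
    rw [Finset.sum_range_succ]
    have hp : ((1 : ℝ) / 2) ^ (K + 1) = (1 / 2) ^ K / 2 := by rw [pow_succ]; ring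
    have hpos : (0 : ℝ) < (1 / 2) ^ K := by positivity
    by_cases h : ((1 : ℝ) / 2) ^ K ≤ a
    · rw [if_pos h, hp]
      have h1 : max 0 (2 * a - 2 * ((1 : ℝ) / 2) ^ K) = 2 * a - 2 * (1 / 2) ^ K :=
        max_eq_right (by linarith)
      rw [h1] at ih
      refine le_trans ?_ (le_max_right _ _)
      linarith
    · rw [if_neg h, hp, add_zero]
      refine le_trans ih (max_le_max le_rfl ?_)
      linarith

lemma geom_tail' {a : ℝ} (ha : 0 ≤ a) (K : ℕ) :
    ∑ j ∈ range K, (if ((1 : ℝ) / 2) ^ (j + 1) ≤ a then ((1 : ℝ) / 2) ^ (j + 1) else 0)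
      ≤ 2 * a := by
  have h := geom_tail a (K + 1)
  rw [Finset.sum_range_succ'] at h
  have h0 : (0 : ℝ) ≤ if ((1 : ℝ) / 2) ^ 0 ≤ a then ((1 : ℝ) / 2) ^ 0 else 0 := by
    split_ifs <;> norm_num
  have h2 : max 0 (2 * a - 2 * ((1 : ℝ) / 2) ^ (K + 1)) ≤ 2 * a :=
    max_le (by linarith) (by have : (0 : ℝ) < (1 / 2) ^ (K + 1) := by positivity
                             linarith)
  linarith

lemma sum_half_pow (K : ℕ) : ∑ j ∈ range K, ((1 : ℝ) / 2) ^ (j + 1) ≤ 1 := by
  have h : ∑ j ∈ range K, ((1 : ℝ) / 2) ^ (j + 1) = 1 - (1 / 2) ^ K := by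
    induction K with
    | zero => simp
    | succ K ih => rw [Finset.sum_range_succ, ih, pow_succ]; ring
  rw [h]
  have : (0 : ℝ) < (1 / 2) ^ K := by positivity
  linarith

lemma sum_mul_half_pow (K : ℕ) :
    ∑ j ∈ range K, (((j : ℝ) + 1)) * ((1 : ℝ) / 2) ^ (j + 1) ≤ 2 := by
  have h : ∑ j ∈ range K, (((j : ℝ) + 1)) * ((1 : ℝ) / 2) ^ (j + 1)
      = 2 - (K + 2) * (1 / 2) ^ K := by
    induction K with
    | zero => simp
    | succ K ih =>
      rw [Finset.sum_range_succ, ih, pow_succ]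
      push_cast
      ring
  rw [h]
  have : (0 : ℝ) < ((K : ℝ) + 2) * (1 / 2) ^ K := by positivity
  linarith

/-- The main lemma at a fixed level. -/
theorem level_lemma {g : Finset X → ℝ} (hg : ∀ A, 0 ≤ g A) {s : ℕ}
    (hs : ∀ A, g A ≠ 0 → A.card = s) (hR : IsRayleigh g) {τ : ℝ} (hτ : 0 < τ) (hτ1 : τ ≤ 1)
    (W H : Finset X) {c : ℝ} (hc : 0 < c) (hF : c ≤ Fv g τ (H ∪ W)) {K : ℕ}
    (hK : ((1 : ℝ) / 2) ^ K * (Fintype.card X : ℝ) ≤ 1) :
    (∃ k, k ≤ K ∧ ∃ T, T ⊆ H ∧ T ∈ goodT (listU g τ (((1 : ℝ) / 2) ^ k)) (k + s) W) ∨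
    (∃ B, B ⊆ H ∧ c * (1 / 2) ^ s * Real.exp (-3 - 2 * (s : ℝ)) ≤ polyWith g (fld τ W) B) := by
  classical
  -- notation-free abbreviations
  set β : ℕ → ℝ := fun k => (1 / 2) ^ k with hβ
  have hβpos : ∀ k, 0 < β k := fun k => by simp only [hβ]; positivity
  have hβle : ∀ k, β k ≤ 1 := fun k => pow_le_one₀ (by norm_num) (by norm_num)
  have hβsucc : ∀ k, β k = 2 * β (k + 1) := fun k => by simp only [hβ]; rw [pow_succ]; ring
  set H' := H \ W with hH'
  have hFpos : 0 < Fv g τ (H ∪ W) := lt_of_lt_of_le hc hF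
  have hWpos : 0 < Fv g τ W := Fv_pos_of_pos hg hτ hFpos W
  have hallpos : ∀ Z, 0 < Fv g τ Z := fun Z => Fv_pos_of_pos hg hτ hFpos Z
  have hne : H'.powerset.Nonempty := ⟨∅, Finset.empty_mem_powerset _⟩
  have hmaxex : ∀ k, ∃ T ∈ H'.powerset, ∀ T' ∈ H'.powerset,
      Theta g τ W (β k) T' ≤ Theta g τ W (β k) T := fun k =>
    Finset.exists_max_image _ _ hne
  choose Tk hTk hTmax using hmaxex
  have hTsub : ∀ k, Tk k ⊆ H' := fun k => Finset.mem_powerset.mp (hTk k)
  have hTH : ∀ k, Tk k ⊆ H := fun k => (hTsub k).trans Finset.sdiff_subset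
  have hTd : ∀ k, Disjoint (Tk k) W := fun k =>
    Finset.disjoint_of_subset_left (hTsub k) Finset.sdiff_disjoint
  -- stability
  have hstable : ∀ k, Tk k ⊆ listU g τ (β k) (Tk k ∪ W) := by
    intro k x hx
    refine stable_mem_list hg hτ hτ1 (hβpos k) (hβle k) hx
      (Finset.disjoint_left.mp (hTd k) hx) (hTmax k _ ?_)
    exact Finset.mem_powerset.mpr ((Finset.erase_subset _ _).trans (hTsub k))
  -- telescoping
  set t : ℕ → ℝ := fun k => ((Tk k).card : ℝ) with ht
  have htele : ∀ K', Theta g τ W (β K') (Tk K') *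
      Real.exp (-(∑ j ∈ range K', β (j + 1) * t (j + 1))) ≤ Theta g τ W (β 0) (Tk 0) := by
    intro K'
    induction K' with
    | zero => simp
    | succ K' ih =>
      refine le_trans ?_ ih
      rw [Finset.sum_range_succ]
      have hmax := hTmax K' (Tk (K' + 1)) (hTk _)
      have hrel : Theta g τ W (β (K' + 1)) (Tk (K' + 1))
          = Theta g τ W (β K') (Tk (K' + 1)) * Real.exp (β (K' + 1) * t (K' + 1)) := by
        unfold Theta
        rw [mul_assoc, ← Real.exp_add]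
        congr 2
        rw [hβsucc K']
        simp only [ht]
        ring
      rw [hrel]
      have hexp : Real.exp (β (K' + 1) * t (K' + 1)) *
          Real.exp (-(∑ j ∈ range K', β (j + 1) * t (j + 1) + β (K' + 1) * t (K' + 1)))
          = Real.exp (-(∑ j ∈ range K', β (j + 1) * t (j + 1))) := by
        rw [← Real.exp_add]; congr 1; ring
      calc Theta g τ W (β K') (Tk (K' + 1)) * Real.exp (β (K' + 1) * t (K' + 1)) *
            Real.exp (-(∑ j ∈ range K', β (j + 1) * t (j + 1) + β (K' + 1) * t (K' + 1)))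
          = Theta g τ W (β K') (Tk (K' + 1)) *
              Real.exp (-(∑ j ∈ range K', β (j + 1) * t (j + 1))) := by
            rw [mul_assoc, hexp]
        _ ≤ _ := mul_le_mul_of_nonneg_right hmax (Real.exp_pos _).le
  -- lower bound at the top scale
  have htop : c * Real.exp (-1) ≤ Theta g τ W (β K) (Tk K) := by
    refine le_trans ?_ (hTmax K H' (Finset.mem_powerset.mpr (Finset.Subset.refl _)))
    unfold Theta
    have hU : H' ∪ W = H ∪ W := by simp [hH']
    rw [hU]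
    refine mul_le_mul hF ?_ (Real.exp_pos _).le (hallpos _).le
    refine Real.exp_le_exp.mpr ?_
    have hcard : (H'.card : ℝ) ≤ Fintype.card X := by
      exact_mod_cast Finset.card_le_univ H'
    have : β K * H'.card ≤ 1 :=
      le_trans (mul_le_mul_of_nonneg_left hcard (hβpos K).le) hK
    linarith
  by_cases hgood : ∃ k, k ≤ K ∧ 1 ≤ k ∧ Tk k ∈ goodT (listU g τ (β k)) (k + s) W
  · obtain ⟨k, hk, -, hT⟩ := hgood
    exact Or.inl ⟨k, hk, Tk k, hTH k, hT⟩
  -- no good scale: the number bound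
  have hbad : ∀ j ∈ range K, t (j + 1) ≤
      ((j : ℝ) + 1) + s + (((listU g τ (β (j + 1)) (Tk (j + 1) ∪ W)) ∩ W).card : ℝ) / 4 := by
    intro j hj
    have hjK : j + 1 ≤ K := Finset.mem_range.mp hj
    by_contra hcon
    push Not at hcon
    apply hgood
    refine ⟨j + 1, hjK, by omega, ?_⟩
    simp only [goodT, Finset.mem_filter, Finset.mem_univ, true_and]
    refine ⟨hTd _, hstable _, ?_, ?_⟩
    · -- the list is small
      have hsplit : (listU g τ (β (j + 1)) (Tk (j + 1) ∪ W)).card ≤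
          (Tk (j + 1)).card + ((listU g τ (β (j + 1)) (Tk (j + 1) ∪ W)) ∩ W).card := by
        have hsub : listU g τ (β (j + 1)) (Tk (j + 1) ∪ W) ⊆
            Tk (j + 1) ∪ ((listU g τ (β (j + 1)) (Tk (j + 1) ∪ W)) ∩ W) := by
          intro y hy
          have hyZ := (Finset.mem_filter.mp hy).1
          rcases Finset.mem_union.mp hyZ with h | h
          · exact Finset.mem_union_left _ h
          · exact Finset.mem_union_right _ (Finset.mem_inter.mpr ⟨hy, h⟩)
        exact (Finset.card_le_card hsub).trans (Finset.card_union_le _ _)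
      have hN : ((((listU g τ (β (j + 1)) (Tk (j + 1) ∪ W)) ∩ W).card : ℕ) : ℝ)
          ≤ 4 * t (j + 1) := by
        have hnn : (0 : ℝ) ≤ (j : ℝ) + 1 + s := by positivity
        linarith
      have hN' : ((listU g τ (β (j + 1)) (Tk (j + 1) ∪ W)) ∩ W).card ≤ 4 * (Tk (j + 1)).card := by
        have hN2 : ((((listU g τ (β (j + 1)) (Tk (j + 1) ∪ W)) ∩ W).card : ℕ) : ℝ)
            ≤ 4 * ((Tk (j + 1)).card : ℝ) := hN
        exact_mod_cast hN2
      omega
    · -- the set is large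
      have hnn : (0 : ℝ) ≤ (((listU g τ (β (j + 1)) (Tk (j + 1) ∪ W)) ∩ W).card : ℝ) / 4 :=
        div_nonneg (Nat.cast_nonneg _) (by norm_num)
      have : ((j + 1 + s : ℕ) : ℝ) ≤ ((Tk (j + 1)).card : ℝ) := by
        push_cast
        have h' : (j : ℝ) + 1 + s + (((listU g τ (β (j + 1)) (Tk (j + 1) ∪ W)) ∩ W).card : ℝ) / 4
            < ((Tk (j + 1)).card : ℝ) := hcon
        linarith
      exact_mod_cast this
  -- sum of the list sizes in W
  have hNsum : ∑ j ∈ range K, β (j + 1) *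
      (((listU g τ (β (j + 1)) (Tk (j + 1) ∪ W)) ∩ W).card : ℝ) ≤ 4 * s := by
    have hterm : ∀ j ∈ range K, β (j + 1) *
        (((listU g τ (β (j + 1)) (Tk (j + 1) ∪ W)) ∩ W).card : ℝ)
        ≤ ∑ y ∈ W, (if β (j + 1) ≤ 2 * Dv g τ W y / Fv g τ W then β (j + 1) else 0) := by
      intro j _
      have hsubset : (listU g τ (β (j + 1)) (Tk (j + 1) ∪ W)) ∩ W ⊆
          W.filter (fun y => β (j + 1) ≤ 2 * Dv g τ W y / Fv g τ W) := by
        intro y hy
        obtain ⟨h1, h2⟩ := Finset.mem_inter.mp hy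
        exact Finset.mem_filter.mpr
          ⟨h2, list_mem_W_le hg hR hτ hτ1 hWpos (hTd _) h1 h2⟩
      rw [← Finset.sum_filter, Finset.sum_const, nsmul_eq_mul, mul_comm]
      refine mul_le_mul_of_nonneg_right ?_ (hβpos _).le
      exact_mod_cast Finset.card_le_card hsubset
    calc ∑ j ∈ range K, β (j + 1) *
          (((listU g τ (β (j + 1)) (Tk (j + 1) ∪ W)) ∩ W).card : ℝ)
        ≤ ∑ j ∈ range K, ∑ y ∈ W,
            (if β (j + 1) ≤ 2 * Dv g τ W y / Fv g τ W then β (j + 1) else 0) :=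
          Finset.sum_le_sum hterm
      _ = ∑ y ∈ W, ∑ j ∈ range K,
            (if β (j + 1) ≤ 2 * Dv g τ W y / Fv g τ W then β (j + 1) else 0) := Finset.sum_comm
      _ ≤ ∑ y ∈ W, 2 * (2 * Dv g τ W y / Fv g τ W) := by
          refine Finset.sum_le_sum fun y _ => ?_
          exact geom_tail' (div_nonneg (mul_nonneg (by norm_num) (Dv_nonneg hg hτ _ _)) hWpos.le) K
      _ = 4 * (∑ y ∈ W, Dv g τ W y) / Fv g τ W := by
          rw [Finset.mul_sum, Finset.sum_div]
          refine Finset.sum_congr rfl fun y _ => by ring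
      _ ≤ 4 * s := by
          rw [div_le_iff₀ hWpos]
          have := sum_Dv_le hg hs hτ W
          nlinarith
  -- the sum of the moves
  have hS : ∑ j ∈ range K, β (j + 1) * t (j + 1) ≤ 2 + 2 * s := by
    calc ∑ j ∈ range K, β (j + 1) * t (j + 1)
        ≤ ∑ j ∈ range K, (((j : ℝ) + 1) * β (j + 1) + s * β (j + 1) + (1 / 4) *
            (β (j + 1) * (((listU g τ (β (j + 1)) (Tk (j + 1) ∪ W)) ∩ W).card : ℝ))) := by
          refine Finset.sum_le_sum fun j hj => ?_
          have := mul_le_mul_of_nonneg_left (hbad j hj) (hβpos (j + 1)).le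
          calc β (j + 1) * t (j + 1) ≤ _ := this
            _ = _ := by ring
      _ = ∑ j ∈ range K, ((j : ℝ) + 1) * β (j + 1) + s * ∑ j ∈ range K, β (j + 1) + (1 / 4) *
            ∑ j ∈ range K, (β (j + 1) *
              (((listU g τ (β (j + 1)) (Tk (j + 1) ∪ W)) ∩ W).card : ℝ)) := by
          rw [Finset.sum_add_distrib, Finset.sum_add_distrib, Finset.mul_sum, Finset.mul_sum]
      _ ≤ 2 + s * 1 + (1 / 4) * (4 * s) := by
          have h1 := sum_mul_half_pow K
          have h2 := sum_half_pow K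
          have hs0 : (0 : ℝ) ≤ s := by positivity
          have h3 := mul_le_mul_of_nonneg_left h2 hs0
          simp only [hβ] at hNsum h1 h3 ⊢
          linarith
      _ = 2 + 2 * s := by ring
  -- lower bound on the value at the bottom scale
  have hbottom : c * Real.exp (-3 - 2 * (s : ℝ)) ≤ Theta g τ W (β 0) (Tk 0) := by
    refine le_trans ?_ (htele K)
    calc c * Real.exp (-3 - 2 * (s : ℝ))
        = c * Real.exp (-1) * Real.exp (-(2 + 2 * s)) := by
          rw [mul_assoc, ← Real.exp_add]; congr 2; ring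
      _ ≤ Theta g τ W (β K) (Tk K) * Real.exp (-(∑ j ∈ range K, β (j + 1) * t (j + 1))) := by
          refine mul_le_mul htop ?_ (Real.exp_pos _).le ((mul_pos hc (Real.exp_pos _)).le.trans htop)
          exact Real.exp_le_exp.mpr (by linarith)
  have hβ0 : β 0 = 1 := pow_zero _
  by_cases ht0 : s ≤ (Tk 0).card
  · -- the bottom set is good
    left
    refine ⟨0, Nat.zero_le _, Tk 0, hTH 0, ?_⟩
    have hβ0' : ((1 : ℝ) / 2) ^ 0 = β 0 := rfl
    simp only [goodT, Finset.mem_filter, Finset.mem_univ, true_and]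
    rw [hβ0']
    refine ⟨hTd 0, hstable 0, ?_, by omega⟩
    -- the whole list has at most twice the level elements
    have hlist : (((listU g τ (β 0) (Tk 0 ∪ W)).card : ℕ) : ℝ) ≤ 2 * s := by
      set Z := Tk 0 ∪ W with hZ
      have hFZ : 0 < Fv g τ Z := hallpos Z
      have h1 : ((listU g τ (β 0) Z).card : ℝ) * Fv g τ Z ≤ 2 * ∑ y ∈ Z, Dv g τ Z y := by
        calc ((listU g τ (β 0) Z).card : ℝ) * Fv g τ Z
            = ∑ y ∈ listU g τ (β 0) Z, Fv g τ Z := by
              rw [Finset.sum_const, nsmul_eq_mul]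
          _ ≤ ∑ y ∈ listU g τ (β 0) Z, 2 * Dv g τ Z y := by
              refine Finset.sum_le_sum fun y hy => ?_
              have := (Finset.mem_filter.mp hy).2
              rw [hβ0, one_mul] at this
              exact this
          _ ≤ ∑ y ∈ Z, 2 * Dv g τ Z y := by
              refine Finset.sum_le_sum_of_subset_of_nonneg (Finset.filter_subset _ _) ?_
              intro y _ _
              exact mul_nonneg (by norm_num) (Dv_nonneg hg hτ _ _)
          _ = 2 * ∑ y ∈ Z, Dv g τ Z y := by rw [Finset.mul_sum]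
      have h2 := sum_Dv_le hg hs hτ Z
      have h3 : ((listU g τ (β 0) Z).card : ℝ) * Fv g τ Z ≤ (2 * s) * Fv g τ Z := by
        nlinarith
      exact le_of_mul_le_mul_right h3 hFZ
    have hlist' : (listU g τ (β 0) (Tk 0 ∪ W)).card ≤ 2 * s := by exact_mod_cast hlist
    omega
  · -- the bottom set is small: a heavy subset
    right
    push Not at ht0
    have hval : c * Real.exp (-3 - 2 * (s : ℝ)) ≤ Fv g τ (Tk 0 ∪ W) := by
      have h1 : Theta g τ W (β 0) (Tk 0) ≤ Fv g τ (Tk 0 ∪ W) := by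
        unfold Theta
        have hexp : Real.exp (-(β 0 * ((Tk 0).card : ℝ))) ≤ 1 := by
          rw [Real.exp_le_one_iff, hβ0]
          have : (0 : ℝ) ≤ ((Tk 0).card : ℝ) := Nat.cast_nonneg _
          linarith
        have := hallpos (Tk 0 ∪ W)
        nlinarith
      linarith
    have hsum := (hval.trans (Fv_union_le hg hτ (Tk 0) W))
    by_contra hcon
    push Not at hcon
    have hlt : ∀ B ∈ (Tk 0).powerset, polyWith g (fld τ W) B
        ≤ c * (1 / 2) ^ s * Real.exp (-3 - 2 * (s : ℝ)) := by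
      intro B hB
      exact (hcon B ((Finset.mem_powerset.mp hB).trans (hTH 0))).le
    have hle : ∑ B ∈ (Tk 0).powerset, polyWith g (fld τ W) B
        ≤ ((Tk 0).powerset.card : ℝ) * (c * (1 / 2) ^ s * Real.exp (-3 - 2 * (s : ℝ))) := by
      rw [← nsmul_eq_mul]
      exact Finset.sum_le_card_nsmul _ _ _ hlt
    have hcardpow : ((Tk 0).powerset.card : ℝ) ≤ 2 ^ s := by
      rw [Finset.card_powerset]
      push_cast
      exact pow_le_pow_right₀ (by norm_num) ht0.le
    have hpos : 0 < c * Real.exp (-3 - 2 * (s : ℝ)) := mul_pos hc (Real.exp_pos _)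
    have hlast : ((Tk 0).powerset.card : ℝ) * (c * (1 / 2) ^ s * Real.exp (-3 - 2 * (s : ℝ)))
        ≤ c * Real.exp (-3 - 2 * (s : ℝ)) := by
      have hh : (2 : ℝ) ^ s * (1 / 2) ^ s = 1 := by
        rw [← mul_pow]; norm_num
      calc ((Tk 0).powerset.card : ℝ) * (c * (1 / 2) ^ s * Real.exp (-3 - 2 * (s : ℝ)))
          ≤ 2 ^ s * (c * (1 / 2) ^ s * Real.exp (-3 - 2 * (s : ℝ))) :=
            mul_le_mul_of_nonneg_right hcardpow (by positivity)
        _ = ((2 : ℝ) ^ s * (1 / 2) ^ s) * (c * Real.exp (-3 - 2 * (s : ℝ))) := by ring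
        _ = c * Real.exp (-3 - 2 * (s : ℝ)) := by rw [hh, one_mul]
    -- strictness: compare with a strict inequality on the empty set of subsets
    have hstrict : ∑ B ∈ (Tk 0).powerset, polyWith g (fld τ W) B
        < ((Tk 0).powerset.card : ℝ) * (c * (1 / 2) ^ s * Real.exp (-3 - 2 * (s : ℝ))) := by
      rw [← nsmul_eq_mul, ← Finset.sum_const]
      refine Finset.sum_lt_sum_of_nonempty ⟨∅, Finset.empty_mem_powerset _⟩ ?_
      intro B hB
      exact hcon B ((Finset.mem_powerset.mp hB).trans (hTH 0))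
    linarith

end Vale.Agent.Lib.P034
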