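import Mathlib
import Vale.Agent.Lib.P034.Level

namespace Vale.Agent.Lib.P034
open Finset
set_option linter.unusedSectionVars false
set_option linter.unusedVariables false
set_option linter.unusedSimpArgs false

variable {X : Type*} [Fintype X] [DecidableEq X]

lemma levelPart_nonneg {g : Finset X → ℝ} (hg : ∀ A, 0 ≤ g A) (s : ℕ) (A : Finset X) :
    0 ≤ levelPart g s A := by
  unfold levelPart; split_ifs
  · exact hg A
  · exact le_rfl

lemma levelPart_uniform (g : Finset X → ℝ) (s : ℕ) (A : Finset X) (h : levelPart g s A ≠ 0) :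
    A.card = s := by
  unfold levelPart at h
  by_contra h'
  exact h (if_neg h')

lemma sum_levelPart (g : Finset X → ℝ) (A : Finset X) :
    ∑ s ∈ range (Fintype.card X + 1), levelPart g s A = g A := by
  unfold levelPart
  rw [Finset.sum_ite_eq]
  have : A.card ∈ range (Fintype.card X + 1) :=
    Finset.mem_range.mpr (Nat.lt_succ_of_le (Finset.card_le_univ A))
  simp [this]

lemma sum_half_pow_two (n : ℕ) : ∑ j ∈ range n, ((1 : ℝ) / 2) ^ (j + 1 + 1) < 1 / 2 := by
  have h : ∑ j ∈ range n, ((1 : ℝ) / 2) ^ (j + 1 + 1) = 1 / 2 - (1 / 2) ^ (n + 1) := by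
    induction n with
    | zero => simp
    | succ n ih => rw [Finset.sum_range_succ, ih, pow_succ ((1 : ℝ) / 2) (n + 1)]; ring
  rw [h]
  have : (0 : ℝ) < (1 / 2) ^ (n + 1) := by positivity
  linarith

/-- Some level carries its share of the fractional weight of `H`. -/
lemma exists_level {g : Finset X → ℝ} {H : Finset X} (hH : 1 ≤ ∑ S ∈ H.powerset, g S)
    (h0 : g ∅ ≤ 1 / 2) (hg : ∀ A, 0 ≤ g A) :
    ∃ j ∈ range (Fintype.card X),
      ((1 : ℝ) / 2) ^ (j + 1 + 1) ≤ ∑ S ∈ H.powerset, levelPart g (j + 1) S := by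
  by_contra hcon
  push Not at hcon
  have h1 : ∑ S ∈ H.powerset, g S
      = ∑ s ∈ range (Fintype.card X + 1), ∑ S ∈ H.powerset, levelPart g s S := by
    rw [Finset.sum_comm]
    exact Finset.sum_congr rfl fun S _ => (sum_levelPart g S).symm
  rw [Finset.sum_range_succ'] at h1
  have h2 : ∑ S ∈ H.powerset, levelPart g 0 S ≤ 1 / 2 := by
    have h3 : ∑ S ∈ H.powerset, levelPart g 0 S = levelPart g 0 ∅ := by
      refine Finset.sum_eq_single_of_mem ∅ (Finset.empty_mem_powerset _) ?_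
      intro S _ hS
      unfold levelPart
      rw [if_neg]
      intro hc
      exact hS (Finset.card_eq_zero.mp hc)
    rw [h3]
    simpa [levelPart] using h0
  have h4 : ∑ j ∈ range (Fintype.card X), ∑ S ∈ H.powerset, levelPart g (j + 1) S
      ≤ ∑ j ∈ range (Fintype.card X), ((1 : ℝ) / 2) ^ (j + 1 + 1) :=
    Finset.sum_le_sum fun j hj => (hcon j hj).le
  have h5 := sum_half_pow_two (Fintype.card X)
  linarith

/-- The mass of `H` at a level is at most the value at any field containing `H`. -/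
lemma sum_powerset_le_Fv {g : Finset X → ℝ} (hg : ∀ A, 0 ≤ g A) {τ : ℝ} (hτ : 0 < τ)
    (H W : Finset X) : ∑ S ∈ H.powerset, g S ≤ Fv g τ (H ∪ W) := by
  rw [Fv_eq]
  calc ∑ S ∈ H.powerset, g S
      = ∑ S ∈ H.powerset, g S * ∏ i ∈ S, fld τ (H ∪ W) i := by
        refine Finset.sum_congr rfl fun S hS => ?_
        rw [Finset.prod_eq_one, mul_one]
        intro i hi
        exact fld_of_mem (Finset.mem_union_left _ (Finset.mem_powerset.mp hS hi))
    _ ≤ ∑ S, g S * ∏ i ∈ S, fld τ (H ∪ W) i := by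
        refine Finset.sum_le_sum_of_subset_of_nonneg (Finset.subset_univ _) ?_
        intro S _ _
        exact mul_nonneg (hg S) (Finset.prod_nonneg fun i _ => (fld_pos hτ _ i).le)

lemma sum_union_le {α : Type*} [DecidableEq α] {f : α → ℝ} (hf : ∀ a, 0 ≤ f a) (s t : Finset α) :
    ∑ a ∈ s ∪ t, f a ≤ ∑ a ∈ s, f a + ∑ a ∈ t, f a := by
  rw [← Finset.sum_union_inter]
  have : 0 ≤ ∑ a ∈ s ∩ t, f a := Finset.sum_nonneg fun a _ => hf a
  linarith

lemma sum_biUnion_le' {ι α : Type*} [DecidableEq α] [DecidableEq ι] {f : α → ℝ}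
    (hf : ∀ a, 0 ≤ f a) (s : Finset ι) (t : ι → Finset α) :
    ∑ a ∈ s.biUnion t, f a ≤ ∑ i ∈ s, ∑ a ∈ t i, f a := by
  induction s using Finset.induction_on with
  | empty => simp
  | insert i s his ih =>
    rw [Finset.biUnion_insert, Finset.sum_insert his]
    exact (sum_union_le hf _ _).trans (by linarith)

lemma exists_lt_of_expect {δ : ℝ} (h0 : 0 < δ) (h1 : δ < 1) {f : Finset X → ℝ} {a : ℝ}
    (h : ∑ W : Finset X, mu δ W * f W < a) : ∃ W, f W < a := by
  by_contra hcon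
  push Not at hcon
  have : a ≤ ∑ W : Finset X, mu δ W * f W := by
    calc a = ∑ W : Finset X, mu δ W * a := by rw [← Finset.sum_mul, sum_mu, one_mul]
      _ ≤ _ := Finset.sum_le_sum fun W _ =>
          mul_le_mul_of_nonneg_left (hcon W) (mu_pos h0 h1 W).le
  linarith

lemma sum_eighth (n s : ℕ) : ∑ k ∈ range n, ((1 : ℝ) / 8) ^ (k + s) ≤ 8 / 7 * (1 / 8) ^ s := by
  have h : ∑ k ∈ range n, ((1 : ℝ) / 8) ^ (k + s) = (8 / 7) * (1 / 8) ^ s * (1 - (1 / 8) ^ n) := by
    induction n with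
    | zero => simp
    | succ n ih =>
      rw [Finset.sum_range_succ, ih, pow_add, pow_succ]
      ring
  rw [h]
  have h1 : (0 : ℝ) < (1 / 8) ^ n := by positivity
  have h2 : (0 : ℝ) < 8 / 7 * (1 / 8) ^ s := by positivity
  nlinarith

/-- The level's expected value of the derivative sum. -/
lemma level_poly_bound {g : Finset X → ℝ} (hg : ∀ A, 0 ≤ g A) {p : ℝ} (hp : 0 < p)
    (hcost : ∑ S, g S * p ^ S.card ≤ 1 / 2) (s : ℕ) {y : ℝ} (hy0 : 0 ≤ y)
    (hy : y ≤ 3 * (p / 2 ^ 15)) :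
    ∑ A, levelPart g s A * y ^ A.card ≤ (3 / 2 ^ 15) ^ s * (1 / 2) := by
  calc ∑ A, levelPart g s A * y ^ A.card
      ≤ ∑ A, (3 / 2 ^ 15) ^ s * (g A * p ^ A.card) := by
        refine Finset.sum_le_sum fun A _ => ?_
        unfold levelPart
        by_cases hA : A.card = s
        · rw [if_pos hA, hA]
          have h1 : y ^ s ≤ (3 / 2 ^ 15) ^ s * p ^ s := by
            rw [← mul_pow]
            refine pow_le_pow_left₀ hy0 ?_ s
            calc y ≤ 3 * (p / 2 ^ 15) := hy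
              _ = 3 / 2 ^ 15 * p := by ring
          calc g A * y ^ s ≤ g A * ((3 / 2 ^ 15) ^ s * p ^ s) :=
                mul_le_mul_of_nonneg_left h1 (hg A)
            _ = _ := by ring
        · rw [if_neg hA, zero_mul]
          have := hg A
          positivity
    _ = (3 / 2 ^ 15) ^ s * ∑ A, g A * p ^ A.card := by rw [Finset.mul_sum]
    _ ≤ (3 / 2 ^ 15) ^ s * (1 / 2) :=
        mul_le_mul_of_nonneg_left hcost (by positivity)

/-- The threshold constant of level `s`. -/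
noncomputable def lam (s : ℕ) : ℝ := 54 * 36 ^ s

lemma lam_pos (s : ℕ) : 0 < lam s := by unfold lam; positivity

lemma threshold_le (s : ℕ) :
    1 / lam s ≤ ((1 : ℝ) / 2) ^ (s + 1) * (1 / 2) ^ s * Real.exp (-3 - 2 * (s : ℝ)) := by
  have hexp : Real.exp (3 + 2 * (s : ℝ)) ≤ 27 * 9 ^ s := by
    have h1 : (3 + 2 * (s : ℝ)) = ((3 + 2 * s : ℕ) : ℝ) * 1 := by push_cast; ring
    rw [h1, Real.exp_nat_mul]
    have h2 : Real.exp 1 ≤ 3 := by
      have := Real.exp_one_lt_d9
      linarith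
    calc Real.exp 1 ^ (3 + 2 * s) ≤ 3 ^ (3 + 2 * s) :=
          pow_le_pow_left₀ (Real.exp_pos 1).le h2 _
      _ = 27 * 9 ^ s := by rw [pow_add, pow_mul]; norm_num
  have hneg : Real.exp (-3 - 2 * (s : ℝ)) = 1 / Real.exp (3 + 2 * (s : ℝ)) := by
    rw [one_div, ← Real.exp_neg]; congr 1; ring
  rw [hneg]
  unfold lam
  have hpos : 0 < Real.exp (3 + 2 * (s : ℝ)) := Real.exp_pos _
  have hcalc : ((1 : ℝ) / 2) ^ (s + 1) * (1 / 2) ^ s * (1 / Real.exp (3 + 2 * (s : ℝ)))
      = 1 / (2 ^ (s + 1) * 2 ^ s * Real.exp (3 + 2 * (s : ℝ))) := by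
    rw [one_div_pow, one_div_pow]
    field_simp
  rw [hcalc]
  refine one_div_le_one_div_of_le (by positivity) ?_
  calc (2 : ℝ) ^ (s + 1) * 2 ^ s * Real.exp (3 + 2 * (s : ℝ))
      ≤ 2 ^ (s + 1) * 2 ^ s * (27 * 9 ^ s) :=
        mul_le_mul_of_nonneg_left hexp (by positivity)
    _ = 54 * 36 ^ s := by
        have : (36 : ℝ) ^ s = 2 ^ s * 2 ^ s * 9 ^ s := by
          rw [← mul_pow, ← mul_pow]; norm_num
        rw [this, pow_succ]
        ring

/-- The per-level objective. -/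
noncomputable def levelObj (g : Finset X → ℝ) (δ : ℝ) (s : ℕ) (W : Finset X) : ℝ :=
  ∑ k ∈ range (Fintype.card X + 1),
      ∑ T ∈ goodT (listU (levelPart g s) δ (((1 : ℝ) / 2) ^ k)) (k + s) W, (δ / 256) ^ T.card
    + lam s * ∑ B : Finset X, (δ / 256) ^ B.card * polyWith (levelPart g s) (fld δ W) B

lemma expect_levelObj {g : Finset X → ℝ} (hg : ∀ A, 0 ≤ g A) {p : ℝ} (hp : 0 < p) (hp1 : p ≤ 1)
    (hcost : ∑ S, g S * p ^ S.card ≤ 1 / 2) (j : ℕ) :
    ∑ W : Finset X, mu (p / 2 ^ 15) W * levelObj g (p / 2 ^ 15) (j + 1) W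
      ≤ 47 / 100 * (1 / 2) ^ (j + 1) := by
  set δ := p / 2 ^ 15 with hδ
  have h0 : 0 < δ := by positivity
  have h1 : δ < 1 := by
    rw [hδ, div_lt_one (by positivity)]
    linarith
  set s := j + 1 with hs
  have hsplit : ∑ W : Finset X, mu δ W * levelObj g δ s W
      = ∑ k ∈ range (Fintype.card X + 1), ∑ W : Finset X, mu δ W *
          ∑ T ∈ goodT (listU (levelPart g s) δ (((1 : ℝ) / 2) ^ k)) (k + s) W, (δ / 256) ^ T.card
        + lam s * ∑ W : Finset X, mu δ W *
          ∑ B : Finset X, (δ / 256) ^ B.card * polyWith (levelPart g s) (fld δ W) B := by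
    unfold levelObj
    simp only [mul_add, Finset.sum_add_distrib]
    congr 1
    · simp only [Finset.mul_sum]
      rw [Finset.sum_comm]
    · simp only [Finset.mul_sum]
      refine Finset.sum_congr rfl fun W _ => Finset.sum_congr rfl fun B _ => by ring
  rw [hsplit]
  have hpart1 : ∑ k ∈ range (Fintype.card X + 1), ∑ W : Finset X, mu δ W *
      ∑ T ∈ goodT (listU (levelPart g s) δ (((1 : ℝ) / 2) ^ k)) (k + s) W, (δ / 256) ^ T.card
      ≤ 8 / 7 * (1 / 8) ^ s := by
    refine le_trans (Finset.sum_le_sum fun k _ => kraft _ _ h0 h1) (sum_eighth _ _)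
  have hy : (δ / 256 + (δ + (1 - δ) * δ)) ≤ 3 * δ := by nlinarith
  have hy0 : 0 ≤ (δ / 256 + (δ + (1 - δ) * δ)) := by nlinarith
  have hpart2 : ∑ W : Finset X, mu δ W *
      ∑ B : Finset X, (δ / 256) ^ B.card * polyWith (levelPart g s) (fld δ W) B
      ≤ (3 / 2 ^ 15) ^ s * (1 / 2) := by
    rw [expect_polyWith]
    exact level_poly_bound hg hp hcost s hy0 hy
  have hlam : lam s * ((3 / 2 ^ 15) ^ s * (1 / 2)) = 27 * (108 / 2 ^ 15) ^ s := by
    unfold lam
    have : ((108 : ℝ) / 2 ^ 15) ^ s = 36 ^ s * (3 / 2 ^ 15) ^ s := by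
      rw [← mul_pow]; norm_num
    rw [this]; ring
  have hA : ((1 : ℝ) / 8) ^ s ≤ 1 / 4 * (1 / 2) ^ s := by
    rw [hs, pow_succ, pow_succ]
    have : ((1 : ℝ) / 8) ^ j ≤ (1 / 2) ^ j :=
      pow_le_pow_left₀ (by norm_num) (by norm_num) j
    nlinarith
  have hB : ((108 : ℝ) / 2 ^ 15) ^ s ≤ 216 / 2 ^ 15 * (1 / 2) ^ s := by
    have e1 : ((108 : ℝ) / 2 ^ 15) ^ (j + 1) = (108 / 2 ^ 15) ^ j * (108 / 2 ^ 15) := pow_succ _ _
    have e2 : ((1 : ℝ) / 2) ^ (j + 1) = (1 / 2) ^ j * (1 / 2) := pow_succ _ _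
    rw [hs, e1, e2]
    have : ((108 : ℝ) / 2 ^ 15) ^ j ≤ (1 / 2) ^ j :=
      pow_le_pow_left₀ (by norm_num) (by norm_num) j
    have h108 : (0 : ℝ) ≤ 108 / 2 ^ 15 := by norm_num
    calc ((108 : ℝ) / 2 ^ 15) ^ j * (108 / 2 ^ 15) ≤ (1 / 2) ^ j * (108 / 2 ^ 15) :=
          mul_le_mul_of_nonneg_right this h108
      _ = 216 / 2 ^ 15 * ((1 / 2) ^ j * (1 / 2)) := by ring
  have hpos : (0 : ℝ) < (1 / 2) ^ s := by positivity
  have hlamp := lam_pos s
  have hfinal := mul_le_mul_of_nonneg_left hpart2 hlamp.le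
  rw [hlam] at hfinal
  nlinarith

theorem rayleigh_small (F : Finset (Finset X)) (g : Finset X → ℝ) (hg : ∀ A, 0 ≤ g A)
    (hcov : ∀ H ∈ F, 1 ≤ ∑ S ∈ H.powerset, g S) {p : ℝ} (hp : 0 < p) (hp1 : p ≤ 1)
    (hcost : ∑ S, g S * p ^ S.card ≤ 1 / 2) (hR : ∀ s, IsRayleigh (levelPart g s)) :
    IsSmall F (p / 2 ^ 23) := by
  classical
  set n := Fintype.card X with hn
  set δ := p / 2 ^ 15 with hδ
  have h0 : 0 < δ := by positivity
  have h1 : δ < 1 := by
    rw [hδ, div_lt_one (by positivity)]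
    linarith
  have hq : p / 2 ^ 23 = δ / 256 := by rw [hδ]; ring
  have hqpos : 0 < δ / 256 := by positivity
  -- choice of W
  have hexpect : ∑ W : Finset X, mu δ W * ∑ j ∈ range n, levelObj g δ (j + 1) W < 1 / 2 := by
    calc ∑ W : Finset X, mu δ W * ∑ j ∈ range n, levelObj g δ (j + 1) W
        = ∑ j ∈ range n, ∑ W : Finset X, mu δ W * levelObj g δ (j + 1) W := by
          simp only [Finset.mul_sum]
          rw [Finset.sum_comm]
      _ ≤ ∑ j ∈ range n, 47 / 100 * (1 / 2) ^ (j + 1) :=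
          Finset.sum_le_sum fun j _ => expect_levelObj hg hp hp1 hcost j
      _ = 47 / 100 * ∑ j ∈ range n, (1 / 2) ^ (j + 1) := by rw [Finset.mul_sum]
      _ ≤ 47 / 100 * 1 := mul_le_mul_of_nonneg_left (sum_half_pow n) (by norm_num)
      _ < 1 / 2 := by norm_num
  obtain ⟨W, hW⟩ := exists_lt_of_expect h0 h1 hexpect
  -- the cover
  let Gtop : ℕ → Finset (Finset X) := fun s =>
    (range (n + 1)).biUnion fun k =>
      goodT (listU (levelPart g s) δ (((1 : ℝ) / 2) ^ k)) (k + s) W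
  let Ghv : ℕ → Finset (Finset X) := fun s =>
    univ.filter fun B => 1 / lam s ≤ polyWith (levelPart g s) (fld δ W) B
  let G : Finset (Finset X) := (range n).biUnion fun j => Gtop (j + 1) ∪ Ghv (j + 1)
  refine ⟨G, ?_, ?_⟩
  · -- covering
    intro H hH
    have hg0 : g ∅ ≤ 1 / 2 := by
      have h2 : g ∅ * p ^ (∅ : Finset X).card ≤ ∑ S, g S * p ^ S.card :=
        Finset.single_le_sum (f := fun S : Finset X => g S * p ^ S.card)
          (fun S _ => mul_nonneg (hg S) (by positivity)) (Finset.mem_univ _)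
      simp only [Finset.card_empty, pow_zero, mul_one] at h2
      linarith
    obtain ⟨j, hj, hjv⟩ := exists_level (hcov H hH) hg0 hg
    have hFv := hjv.trans (sum_powerset_le_Fv (levelPart_nonneg hg (j + 1)) h0 H W)
    have hcpos : (0 : ℝ) < (1 / 2) ^ (j + 1 + 1) := by positivity
    have hK : ((1 : ℝ) / 2) ^ n * (Fintype.card X : ℝ) ≤ 1 := by
      have hlt : ((n : ℕ) : ℝ) ≤ 2 ^ n := by
        exact_mod_cast (Nat.lt_two_pow_self (n := n)).le
      have h2 : ((1 : ℝ) / 2) ^ n * (2 : ℝ) ^ n = 1 := by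
        rw [← mul_pow]; norm_num
      calc ((1 : ℝ) / 2) ^ n * (Fintype.card X : ℝ)
          ≤ (1 / 2) ^ n * 2 ^ n := mul_le_mul_of_nonneg_left hlt (by positivity)
        _ = 1 := h2
    rcases level_lemma (levelPart_nonneg hg (j + 1)) (levelPart_uniform g (j + 1)) (hR (j + 1)) h0
      h1.le W H hcpos hFv hK with ⟨k, hk, T, hTH, hT⟩ | ⟨B, hBH, hB⟩
    · refine ⟨T, ?_, hTH⟩
      refine Finset.mem_biUnion.mpr ⟨j, hj, Finset.mem_union_left _ ?_⟩
      exact Finset.mem_biUnion.mpr ⟨k, Finset.mem_range.mpr (Nat.lt_succ_of_le hk), hT⟩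
    · refine ⟨B, ?_, hBH⟩
      refine Finset.mem_biUnion.mpr ⟨j, hj, Finset.mem_union_right _ ?_⟩
      refine Finset.mem_filter.mpr ⟨Finset.mem_univ _, ?_⟩
      exact (threshold_le (j + 1)).trans hB
  · -- cost
    unfold coverCost
    rw [hq]
    have hnn : ∀ S : Finset X, 0 ≤ (δ / 256) ^ S.card := fun S => by positivity
    have hlevel : ∀ s, ∑ S ∈ Gtop s ∪ Ghv s, (δ / 256) ^ S.card ≤ levelObj g δ s W := by
      intro s
      refine (sum_union_le hnn _ _).trans ?_
      unfold levelObj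
      refine add_le_add ?_ ?_
      · exact sum_biUnion_le' hnn _ _
      · have hlam := lam_pos s
        calc ∑ S ∈ Ghv s, (δ / 256) ^ S.card
            ≤ ∑ B ∈ Ghv s, lam s * ((δ / 256) ^ B.card *
                polyWith (levelPart g s) (fld δ W) B) := by
              refine Finset.sum_le_sum fun B hB => ?_
              have h2 := (Finset.mem_filter.mp hB).2
              have h3 : 1 ≤ lam s * polyWith (levelPart g s) (fld δ W) B := by
                rw [div_le_iff₀ hlam] at h2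
                linarith
              have h4 := hnn B
              nlinarith
          _ ≤ ∑ B : Finset X, lam s * ((δ / 256) ^ B.card *
                polyWith (levelPart g s) (fld δ W) B) := by
              refine Finset.sum_le_sum_of_subset_of_nonneg (Finset.subset_univ _) ?_
              intro B _ _
              refine mul_nonneg hlam.le (mul_nonneg (hnn B) ?_)
              exact polyWith_nonneg (levelPart_nonneg hg s) (fun i => (fld_pos h0 W i).le) B
          _ = _ := by rw [Finset.mul_sum]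
    calc ∑ S ∈ G, (δ / 256) ^ S.card
        ≤ ∑ j ∈ range n, ∑ S ∈ Gtop (j + 1) ∪ Ghv (j + 1), (δ / 256) ^ S.card :=
          sum_biUnion_le' hnn _ _
      _ ≤ ∑ j ∈ range n, levelObj g δ (j + 1) W :=
          Finset.sum_le_sum fun j _ => hlevel (j + 1)
      _ ≤ 1 / 2 := hW.le

end Vale.Agent.Lib.P034
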