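import Mathlib
import Vale.Agent.Lib.P034.Defs

/-!
Decision tree calculus for a measure on subsets of a ranked finite set.
-/

namespace Vale.Agent.Lib.P034
open Finset

section Tree

variable {Y : Type*} [Fintype Y] [DecidableEq Y]

/-- The elements of rank below `i`. -/
def pre (rk : Y → ℕ) (i : ℕ) : Finset Y := univ.filter (fun y => rk y < i)

/-- The sets in the family that agree with `H` on all elements of rank below `i`. -/
def cyl (𝓗 : Finset (Finset Y)) (rk : Y → ℕ) (i : ℕ) (H : Finset Y) : Finset (Finset Y) :=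
  𝓗.filter (fun H' => H' ∩ pre rk i = H ∩ pre rk i)

/-- The measure of the cylinder of `H` at level `i`. -/
noncomputable def cmass (ν : Finset Y → ℝ) (𝓗 : Finset (Finset Y)) (rk : Y → ℕ) (i : ℕ)
    (H : Finset Y) : ℝ := ∑ H' ∈ cyl 𝓗 rk i H, ν H'

/-- The inverse of the conditional probability, given the earlier answers, of the actual answer
of `H` at `y`. -/
noncomputable def rho (ν : Finset Y → ℝ) (𝓗 : Finset (Finset Y)) (rk : Y → ℕ) (y : Y)
    (H : Finset Y) : ℝ := cmass ν 𝓗 rk (rk y) H / cmass ν 𝓗 rk (rk y + 1) H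

variable {ν : Finset Y → ℝ} {𝓗 : Finset (Finset Y)} {rk : Y → ℕ}

lemma cmass_nonneg (hν : ∀ H, 0 ≤ ν H) (i : ℕ) (H : Finset Y) : 0 ≤ cmass ν 𝓗 rk i H :=
  Finset.sum_nonneg (fun _ _ => hν _)

lemma pre_succ (hinj : Function.Injective rk) {y0 : Y} {i : ℕ} (hy0 : rk y0 = i) :
    pre rk (i + 1) = insert y0 (pre rk i) := by
  ext y
  simp only [pre, mem_filter, mem_univ, true_and, mem_insert]
  constructor
  · intro h
    rcases Nat.lt_succ_iff_lt_or_eq.mp h with h | h
    · exact Or.inr h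
    · exact Or.inl (hinj (h.trans hy0.symm))
  · rintro (rfl | h)
    · omega
    · omega

lemma not_mem_pre {y0 : Y} {i : ℕ} (hy0 : rk y0 = i) : y0 ∉ pre rk i := by
  simp [pre, hy0]

lemma mem_pre_iff {y : Y} {i : ℕ} : y ∈ pre rk i ↔ rk y < i := by
  simp [pre]

/-- Agreeing below `i + 1` means agreeing below `i` and at the element of rank `i`. -/
lemma inter_pre_succ_eq_iff (hinj : Function.Injective rk) {y0 : Y} {i : ℕ} (hy0 : rk y0 = i)
    (A B : Finset Y) :
    A ∩ pre rk (i + 1) = B ∩ pre rk (i + 1) ↔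
      A ∩ pre rk i = B ∩ pre rk i ∧ (y0 ∈ A ↔ y0 ∈ B) := by
  rw [pre_succ hinj hy0]
  constructor
  · intro h
    constructor
    · ext y
      have := Finset.ext_iff.mp h y
      simp only [mem_inter, mem_insert] at this ⊢
      constructor
      · rintro ⟨h1, h2⟩
        exact ⟨(this.mp ⟨h1, Or.inr h2⟩).1, h2⟩
      · rintro ⟨h1, h2⟩
        exact ⟨(this.mpr ⟨h1, Or.inr h2⟩).1, h2⟩
    · have := Finset.ext_iff.mp h y0
      simp only [mem_inter, mem_insert, true_or, and_true] at this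
      exact this
  · rintro ⟨h1, h2⟩
    ext y
    have := Finset.ext_iff.mp h1 y
    simp only [mem_inter, mem_insert] at this ⊢
    by_cases hy : y = y0
    · subst hy
      simp [h2]
    · simp only [hy, false_or]
      exact this

lemma cyl_eq_of_agree {i : ℕ} {H H0 : Finset Y} (h : H ∩ pre rk i = H0 ∩ pre rk i) :
    cyl 𝓗 rk i H = cyl 𝓗 rk i H0 := by
  ext H'
  simp [cyl, h]

lemma cmass_eq_of_agree {i : ℕ} {H H0 : Finset Y} (h : H ∩ pre rk i = H0 ∩ pre rk i) :
    cmass ν 𝓗 rk i H = cmass ν 𝓗 rk i H0 := by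
  simp [cmass, cyl_eq_of_agree h]

lemma mem_cyl {i : ℕ} {H H0 : Finset Y} :
    H ∈ cyl 𝓗 rk i H0 ↔ H ∈ 𝓗 ∧ H ∩ pre rk i = H0 ∩ pre rk i := by
  simp [cyl]

/-- The cylinder of the branch of `H0` that contains `y0`. -/
lemma mem_cyl_insert (hinj : Function.Injective rk) {y0 : Y} {i : ℕ} (hy0 : rk y0 = i)
    {H H0 : Finset Y} :
    H ∈ cyl 𝓗 rk (i + 1) (insert y0 H0) ↔ H ∈ cyl 𝓗 rk i H0 ∧ y0 ∈ H := by
  rw [mem_cyl, mem_cyl, inter_pre_succ_eq_iff hinj hy0]
  have h1 : (insert y0 H0) ∩ pre rk i = H0 ∩ pre rk i := by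
    ext y
    simp only [mem_inter, mem_insert]
    constructor
    · rintro ⟨rfl | h, h2⟩
      · exact absurd h2 (not_mem_pre hy0)
      · exact ⟨h, h2⟩
    · rintro ⟨h, h2⟩
      exact ⟨Or.inr h, h2⟩
  rw [h1]
  simp only [mem_insert, true_or, iff_true]
  tauto

/-- The cylinder of the branch of `H0` that avoids `y0`. -/
lemma mem_cyl_erase (hinj : Function.Injective rk) {y0 : Y} {i : ℕ} (hy0 : rk y0 = i)
    {H H0 : Finset Y} :
    H ∈ cyl 𝓗 rk (i + 1) (H0.erase y0) ↔ H ∈ cyl 𝓗 rk i H0 ∧ y0 ∉ H := by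
  rw [mem_cyl, mem_cyl, inter_pre_succ_eq_iff hinj hy0]
  have h1 : (H0.erase y0) ∩ pre rk i = H0 ∩ pre rk i := by
    ext y
    simp only [mem_inter, mem_erase]
    constructor
    · rintro ⟨⟨_, h⟩, h2⟩
      exact ⟨h, h2⟩
    · rintro ⟨h, h2⟩
      refine ⟨⟨?_, h⟩, h2⟩
      rintro rfl
      exact not_mem_pre hy0 h2
  rw [h1]
  simp only [mem_erase, ne_eq, not_true_eq_false, false_and, iff_false]
  tauto

/-- The measure of a cylinder is the sum of the measures of its two branches. -/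
lemma cmass_split (hinj : Function.Injective rk) {y0 : Y} {i : ℕ} (hy0 : rk y0 = i)
    (H0 : Finset Y) :
    cmass ν 𝓗 rk i H0 =
      cmass ν 𝓗 rk (i + 1) (insert y0 H0) + cmass ν 𝓗 rk (i + 1) (H0.erase y0) := by
  unfold cmass
  rw [← Finset.sum_filter_add_sum_filter_not (cyl 𝓗 rk i H0) (fun H => y0 ∈ H)]
  congr 1
  · apply Finset.sum_congr _ (fun _ _ => rfl)
    ext H
    rw [mem_filter, mem_cyl_insert hinj hy0]
  · apply Finset.sum_congr _ (fun _ _ => rfl)
    ext H
    rw [mem_filter, mem_cyl_erase hinj hy0]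

/-- If `H` lies in the branch containing `y0`, then `rho` at `y0` is the ratio of the measures of
the cylinder and of the branch. -/
lemma rho_of_mem (hinj : Function.Injective rk) {y0 : Y} {i : ℕ} (hy0 : rk y0 = i)
    {H H0 : Finset Y} (hH : H ∈ cyl 𝓗 rk i H0) (hy : y0 ∈ H) :
    rho ν 𝓗 rk y0 H = cmass ν 𝓗 rk i H0 / cmass ν 𝓗 rk (i + 1) (insert y0 H0) := by
  unfold rho
  rw [hy0]
  have h1 := (mem_cyl.mp hH).2
  rw [cmass_eq_of_agree h1]
  congr 1
  apply cmass_eq_of_agree
  rw [inter_pre_succ_eq_iff hinj hy0]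
  refine ⟨?_, by simp [hy]⟩
  rw [h1]
  ext y
  simp only [mem_inter, mem_insert]
  constructor
  · rintro ⟨h, h2⟩
    exact ⟨Or.inr h, h2⟩
  · rintro ⟨rfl | h, h2⟩
    · exact absurd h2 (not_mem_pre hy0)
    · exact ⟨h, h2⟩

/-- If `H` lies in the branch avoiding `y0`, then `rho` at `y0` is the ratio of the measures of
the cylinder and of the branch. -/
lemma rho_of_not_mem (hinj : Function.Injective rk) {y0 : Y} {i : ℕ} (hy0 : rk y0 = i)
    {H H0 : Finset Y} (hH : H ∈ cyl 𝓗 rk i H0) (hy : y0 ∉ H) :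
    rho ν 𝓗 rk y0 H = cmass ν 𝓗 rk i H0 / cmass ν 𝓗 rk (i + 1) (H0.erase y0) := by
  unfold rho
  rw [hy0]
  have h1 := (mem_cyl.mp hH).2
  rw [cmass_eq_of_agree h1]
  congr 1
  apply cmass_eq_of_agree
  rw [inter_pre_succ_eq_iff hinj hy0]
  refine ⟨?_, by simp [hy]⟩
  rw [h1]
  ext y
  simp only [mem_inter, mem_erase]
  constructor
  · rintro ⟨h, h2⟩
    refine ⟨⟨?_, h⟩, h2⟩
    rintro rfl
    exact not_mem_pre hy0 h2
  · rintro ⟨⟨_, h⟩, h2⟩
    exact ⟨h, h2⟩

/-- `rho` at `y` depends only on the cylinder of `H` just below `y`, so it is unchanged when one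
moves within a cylinder of level at least `rk y + 1`. -/
lemma rho_congr {y : Y} {i : ℕ} (hi : rk y + 1 ≤ i) {H H' : Finset Y}
    (h : H ∩ pre rk i = H' ∩ pre rk i) : rho ν 𝓗 rk y H = rho ν 𝓗 rk y H' := by
  have mono : ∀ j, j ≤ i → H ∩ pre rk j = H' ∩ pre rk j := by
    intro j hj
    ext z
    have := Finset.ext_iff.mp h z
    simp only [mem_inter, mem_pre_iff] at this ⊢
    constructor
    · rintro ⟨h1, h2⟩
      exact ⟨(this.mp ⟨h1, by omega⟩).1, h2⟩
    · rintro ⟨h1, h2⟩
      exact ⟨(this.mpr ⟨h1, by omega⟩).1, h2⟩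
  unfold rho
  rw [cmass_eq_of_agree (mono _ (by omega)), cmass_eq_of_agree (mono _ hi)]

/-- The tilted sum over the cylinder of `H0` at level `i`, for a fixed set `S`: the process that
follows the measure except that it forces the elements of `S` from level `i` on. -/
noncomputable def tilted (ν : Finset Y → ℝ) (𝓗 : Finset (Finset Y)) (rk : Y → ℕ) (S : Finset Y)
    (i : ℕ) (H0 : Finset Y) : ℝ :=
  ∑ H ∈ (cyl 𝓗 rk i H0).filter (fun H => S ⊆ H),
    ν H * ∏ y ∈ S.filter (fun y => i ≤ rk y), rho ν 𝓗 rk y H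

lemma rho_nonneg (hν : ∀ H, 0 ≤ ν H) (y : Y) (H : Finset Y) : 0 ≤ rho ν 𝓗 rk y H :=
  div_nonneg (cmass_nonneg hν _ _) (cmass_nonneg hν _ _)

/-- The martingale bound: forcing the elements of `S` does not increase the total mass. -/
lemma tilted_le (hν : ∀ H, 0 ≤ ν H) (hinj : Function.Injective rk) {N : ℕ}
    (hlt : ∀ y, rk y < N) (hsurj : ∀ i, i < N → ∃ y, rk y = i) (S : Finset Y) :
    ∀ d i, i + d = N → ∀ H0, tilted ν 𝓗 rk S i H0 ≤ cmass ν 𝓗 rk i H0 := by
  intro d
  induction d with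
  | zero =>
    intro i hi H0
    have hi' : i = N := by omega
    subst hi'
    unfold tilted cmass
    have hempty : S.filter (fun y => i ≤ rk y) = ∅ := by
      apply Finset.filter_eq_empty_iff.mpr
      intro y _
      have := hlt y
      omega
    rw [hempty]
    simp only [prod_empty, mul_one]
    exact Finset.sum_le_sum_of_subset_of_nonneg (filter_subset _ _) (fun _ _ _ => hν _)
  | succ d ih =>
    intro i hi H0
    obtain ⟨y0, hy0⟩ := hsurj i (by omega)
    have IH : ∀ H1, tilted ν 𝓗 rk S (i + 1) H1 ≤ cmass ν 𝓗 rk (i + 1) H1 :=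
      ih (i + 1) (by omega)
    by_cases hS : y0 ∈ S
    · -- the element is forced
      have hfilter : S.filter (fun y => i ≤ rk y)
          = insert y0 (S.filter (fun y => i + 1 ≤ rk y)) := by
        ext y
        simp only [mem_filter, mem_insert]
        constructor
        · rintro ⟨h1, h2⟩
          by_cases hy : y = y0
          · exact Or.inl hy
          · refine Or.inr ⟨h1, ?_⟩
            have : rk y ≠ i := fun h => hy (hinj (h.trans hy0.symm))
            omega
        · rintro (rfl | ⟨h1, h2⟩)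
          · exact ⟨hS, hy0.ge⟩
          · exact ⟨h1, by omega⟩
      have hnot : y0 ∉ S.filter (fun y => i + 1 ≤ rk y) := by
        simp [hy0]
      have hset : (cyl 𝓗 rk i H0).filter (fun H => S ⊆ H)
          = (cyl 𝓗 rk (i + 1) (insert y0 H0)).filter (fun H => S ⊆ H) := by
        ext H
        simp only [mem_filter, mem_cyl_insert hinj hy0]
        constructor
        · rintro ⟨h1, h2⟩
          exact ⟨⟨h1, h2 hS⟩, h2⟩
        · rintro ⟨⟨h1, _⟩, h2⟩
          exact ⟨h1, h2⟩
      set m := cmass ν 𝓗 rk i H0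
      set m1 := cmass ν 𝓗 rk (i + 1) (insert y0 H0)
      have hterm : tilted ν 𝓗 rk S i H0 = (m / m1) * tilted ν 𝓗 rk S (i + 1) (insert y0 H0) := by
        unfold tilted
        rw [hset, Finset.mul_sum]
        apply Finset.sum_congr rfl
        intro H hH
        have hH' := (mem_filter.mp hH).1
        have hH2 := (mem_cyl_insert hinj hy0).mp hH'
        rw [hfilter, Finset.prod_insert hnot, rho_of_mem hinj hy0 hH2.1 hH2.2]
        ring
      have hm : 0 ≤ m := cmass_nonneg hν _ _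
      have hm1 : 0 ≤ m1 := cmass_nonneg hν _ _
      rw [hterm]
      rcases hm1.eq_or_lt with h0 | hpos
      · rw [← h0, div_zero, zero_mul]
        exact hm
      · calc m / m1 * tilted ν 𝓗 rk S (i + 1) (insert y0 H0)
            ≤ m / m1 * m1 := by
              apply mul_le_mul_of_nonneg_left (IH _)
              exact div_nonneg hm hm1
          _ = m := by field_simp
    · -- the element is free
      have hfilter : S.filter (fun y => i ≤ rk y) = S.filter (fun y => i + 1 ≤ rk y) := by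
        ext y
        simp only [mem_filter]
        constructor
        · rintro ⟨h1, h2⟩
          refine ⟨h1, ?_⟩
          have : y ≠ y0 := by
            rintro rfl
            exact hS h1
          have : rk y ≠ i := fun h => this (hinj (h.trans hy0.symm))
          omega
        · rintro ⟨h1, h2⟩
          exact ⟨h1, by omega⟩
      have hsplit : tilted ν 𝓗 rk S i H0 =
          tilted ν 𝓗 rk S (i + 1) (insert y0 H0) + tilted ν 𝓗 rk S (i + 1) (H0.erase y0) := by
        unfold tilted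
        rw [hfilter]
        rw [← Finset.sum_filter_add_sum_filter_not ((cyl 𝓗 rk i H0).filter (fun H => S ⊆ H))
          (fun H => y0 ∈ H)]
        congr 1
        · apply Finset.sum_congr _ (fun _ _ => rfl)
          ext H
          simp only [mem_filter, mem_cyl_insert hinj hy0]
          tauto
        · apply Finset.sum_congr _ (fun _ _ => rfl)
          ext H
          simp only [mem_filter, mem_cyl_erase hinj hy0]
          tauto
      rw [hsplit, cmass_split hinj hy0]
      exact add_le_add (IH _) (IH _)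

lemma cyl_zero (H0 : Finset Y) (_h : ∀ y, ¬ rk y < 0) : cyl 𝓗 rk 0 H0 = 𝓗 := by
  ext H
  have : pre rk 0 = ∅ := by simp [pre]
  simp [mem_cyl, this]

/-- The martingale bound at the root. -/
lemma tree_bound (hν : ∀ H, 0 ≤ ν H) (hinj : Function.Injective rk) {N : ℕ}
    (hlt : ∀ y, rk y < N) (hsurj : ∀ i, i < N → ∃ y, rk y = i) (S : Finset Y) :
    ∑ H ∈ 𝓗.filter (fun H => S ⊆ H), ν H * ∏ y ∈ S, rho ν 𝓗 rk y H ≤ ∑ H ∈ 𝓗, ν H := by
  have h := tilted_le (𝓗 := 𝓗) hν hinj hlt hsurj S N 0 (by omega) ∅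
  unfold tilted cmass at h
  rw [cyl_zero _ (by simp)] at h
  have hS : S.filter (fun y => 0 ≤ rk y) = S := by
    ext y; simp
  rwa [hS] at h

/-- The measure of the full-depth cylinder of a member is its own measure. -/
lemma cmass_top {N' : ℕ} (hlt : ∀ y, rk y < N') {H : Finset Y} (hH : H ∈ 𝓗) :
    cmass ν 𝓗 rk N' H = ν H := by
  unfold cmass
  have : cyl 𝓗 rk N' H = {H} := by
    ext H'
    simp only [mem_cyl, mem_singleton]
    have hpre : pre rk N' = univ := by
      ext y
      simp [pre, hlt y]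
    rw [hpre]
    simp only [inter_univ]
    constructor
    · rintro ⟨_, h⟩
      exact h
    · rintro rfl
      exact ⟨hH, rfl⟩
  rw [this]
  simp

lemma cmass_pos_of_mem (hν : ∀ H, 0 ≤ ν H) {H : Finset Y} (hH : H ∈ 𝓗) (hpos : 0 < ν H) (i : ℕ) :
    0 < cmass ν 𝓗 rk i H := by
  unfold cmass
  apply lt_of_lt_of_le hpos
  exact Finset.single_le_sum (f := ν) (fun _ _ => hν _) (mem_cyl.mpr ⟨hH, rfl⟩)

lemma rho_pos (hν : ∀ H, 0 ≤ ν H) {H : Finset Y} (hH : H ∈ 𝓗) (hpos : 0 < ν H) (y : Y) :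
    0 < rho ν 𝓗 rk y H :=
  div_pos (cmass_pos_of_mem hν hH hpos _) (cmass_pos_of_mem hν hH hpos _)

/-- Telescoping: the sum of `log rho` along the path of a member `H` is `log (total / ν H)`. -/
lemma sum_log_rho (hν : ∀ H, 0 ≤ ν H) (hinj : Function.Injective rk) {N : ℕ}
    (hlt : ∀ y, rk y < N) (hsurj : ∀ i, i < N → ∃ y, rk y = i) {H : Finset Y} (hH : H ∈ 𝓗)
    (hpos : 0 < ν H) :
    ∑ y, Real.log (rho ν 𝓗 rk y H) = Real.log (∑ H' ∈ 𝓗, ν H') - Real.log (ν H) := by
  have himage : (univ : Finset Y).image rk = range N := by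
    ext i
    simp only [mem_image, mem_univ, true_and, mem_range]
    constructor
    · rintro ⟨y, rfl⟩
      exact hlt y
    · exact hsurj i
  have h1 : ∑ y, Real.log (rho ν 𝓗 rk y H)
      = ∑ i ∈ range N, (Real.log (cmass ν 𝓗 rk i H) - Real.log (cmass ν 𝓗 rk (i + 1) H)) := by
    rw [← himage, Finset.sum_image (fun a _ b _ h => hinj h)]
    apply Finset.sum_congr rfl
    intro y _
    unfold rho
    exact Real.log_div (cmass_pos_of_mem hν hH hpos _).ne' (cmass_pos_of_mem hν hH hpos _).ne'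
  rw [h1, Finset.sum_range_sub', cmass_top hlt hH]
  congr 2
  unfold cmass
  rw [cyl_zero _ (by simp)]

/-- The measure of the no branch times the log of the inverse conditional probability of the no
answer is at most the measure of the yes branch. -/
lemma mul_log_div_le {m0 m1 : ℝ} (h0 : 0 ≤ m0) (h1 : 0 ≤ m1) :
    m0 * Real.log ((m0 + m1) / m0) ≤ m1 := by
  rcases h0.eq_or_lt with rfl | hpos
  · simpa using h1
  · have hpos2 : 0 < (m0 + m1) / m0 := by positivity
    have := Real.log_le_sub_one_of_pos hpos2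
    calc m0 * Real.log ((m0 + m1) / m0) ≤ m0 * ((m0 + m1) / m0 - 1) :=
          mul_le_mul_of_nonneg_left this h0
      _ = m1 := by field_simp; ring

/-- The cost of the no answers at `y0` is controlled by the mass of the yes answers at `y0`. -/
lemma sum_no_le (hν : ∀ H, 0 ≤ ν H) (hinj : Function.Injective rk) (y0 : Y) :
    ∑ H ∈ 𝓗.filter (fun H => y0 ∉ H), ν H * Real.log (rho ν 𝓗 rk y0 H)
      ≤ ∑ H ∈ 𝓗.filter (fun H => y0 ∈ H), ν H := by
  set i := rk y0 with hi
  have hy0 : rk y0 = i := rfl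
  set κ : Finset Y → Finset Y := fun H => H ∩ pre rk i with hκ
  set P := 𝓗.image κ with hP
  have hmaps0 : ∀ H ∈ 𝓗.filter (fun H => y0 ∉ H), κ H ∈ P := fun H hH =>
    mem_image_of_mem _ (mem_filter.mp hH).1
  have hmaps1 : ∀ H ∈ 𝓗.filter (fun H => y0 ∈ H), κ H ∈ P := fun H hH =>
    mem_image_of_mem _ (mem_filter.mp hH).1
  rw [← Finset.sum_fiberwise_of_maps_to hmaps0, ← Finset.sum_fiberwise_of_maps_to hmaps1]
  apply Finset.sum_le_sum
  intro b _
  -- fix a class `b`
  set m0 := ∑ H ∈ (𝓗.filter (fun H => y0 ∉ H)).filter (fun H => κ H = b), ν H with hm0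
  set m1 := ∑ H ∈ (𝓗.filter (fun H => y0 ∈ H)).filter (fun H => κ H = b), ν H with hm1
  have hm0n : 0 ≤ m0 := Finset.sum_nonneg (fun _ _ => hν _)
  have hm1n : 0 ≤ m1 := Finset.sum_nonneg (fun _ _ => hν _)
  have hterm : ∀ H ∈ (𝓗.filter (fun H => y0 ∉ H)).filter (fun H => κ H = b),
      Real.log (rho ν 𝓗 rk y0 H) = Real.log ((m0 + m1) / m0) := by
    intro H hH
    have hH1 := mem_filter.mp hH
    have hH2 := mem_filter.mp hH1.1
    congr 1
    have hmemcyl : H ∈ cyl 𝓗 rk i H := mem_cyl.mpr ⟨hH2.1, rfl⟩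
    rw [rho_of_not_mem hinj hy0 hmemcyl hH2.2]
    have hb : ∀ H', H' ∈ cyl 𝓗 rk i H ↔ H' ∈ 𝓗 ∧ κ H' = b := by
      intro H'
      rw [mem_cyl]
      have : H ∩ pre rk i = b := hH1.2
      rw [this]
    congr 1
    · -- the full cylinder
      unfold cmass
      rw [← Finset.sum_filter_add_sum_filter_not (cyl 𝓗 rk i H) (fun H => y0 ∉ H), add_comm]
      rw [hm0, hm1, add_comm]
      congr 1
      · apply Finset.sum_congr _ (fun _ _ => rfl)
        ext H'
        simp only [mem_filter, hb]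
        tauto
      · apply Finset.sum_congr _ (fun _ _ => rfl)
        ext H'
        simp only [mem_filter, hb]
        tauto
    · -- the no branch
      unfold cmass
      apply Finset.sum_congr _ (fun _ _ => rfl)
      ext H'
      simp only [mem_filter, mem_cyl_erase hinj hy0, hb]
      tauto
  have hleft : ∑ H ∈ (𝓗.filter (fun H => y0 ∉ H)).filter (fun H => κ H = b),
      ν H * Real.log (rho ν 𝓗 rk y0 H) = m0 * Real.log ((m0 + m1) / m0) := by
    rw [hm0, Finset.sum_mul]
    apply Finset.sum_congr rfl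
    intro H hH
    rw [hterm H hH]
  rw [hleft]
  exact mul_log_div_le hm0n hm1n

/-- `rho` is at least one at every member of positive measure. -/
lemma one_le_rho (hν : ∀ H, 0 ≤ ν H) (hinj : Function.Injective rk) {H : Finset Y} (hH : H ∈ 𝓗)
    (hpos : 0 < ν H) (y : Y) : 1 ≤ rho ν 𝓗 rk y H := by
  unfold rho
  have h2 := cmass_pos_of_mem (rk := rk) hν hH hpos (rk y + 1)
  rw [one_le_div h2]
  rw [cmass_split hinj (rfl : rk y = rk y) H]
  by_cases hy : y ∈ H
  · have : cmass ν 𝓗 rk (rk y + 1) H = cmass ν 𝓗 rk (rk y + 1) (insert y H) := by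
      rw [Finset.insert_eq_of_mem hy]
    rw [this]
    have := cmass_nonneg (𝓗 := 𝓗) (rk := rk) hν (rk y + 1) (H.erase y)
    linarith
  · have : cmass ν 𝓗 rk (rk y + 1) H = cmass ν 𝓗 rk (rk y + 1) (H.erase y) := by
      rw [Finset.erase_eq_of_notMem hy]
    rw [this]
    have := cmass_nonneg (𝓗 := 𝓗) (rk := rk) hν (rk y + 1) (insert y H)
    linarith

/-- The expected cost of all no answers is at most the expected size. -/
lemma sum_no_total_le (hν : ∀ H, 0 ≤ ν H) (hinj : Function.Injective rk) :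
    ∑ H ∈ 𝓗, ν H * ∑ y ∈ univ \ H, Real.log (rho ν 𝓗 rk y H) ≤ ∑ H ∈ 𝓗, ν H * (H.card : ℝ) := by
  have h1 : ∀ H ∈ 𝓗, ν H * ∑ y ∈ univ \ H, Real.log (rho ν 𝓗 rk y H)
      = ∑ y, if y ∉ H then ν H * Real.log (rho ν 𝓗 rk y H) else 0 := by
    intro H _
    rw [Finset.mul_sum, ← Finset.sum_filter]
    apply Finset.sum_congr _ (fun _ _ => rfl)
    ext y
    simp
  have h2 : ∀ H ∈ 𝓗, ν H * (H.card : ℝ) = ∑ y, if y ∈ H then ν H else 0 := by
    intro H _
    rw [← Finset.sum_filter, Finset.sum_const, nsmul_eq_mul, mul_comm]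
    congr 2
    congr 1
    ext y
    simp
  rw [Finset.sum_congr rfl h1, Finset.sum_congr rfl h2, Finset.sum_comm]
  rw [Finset.sum_comm (s := 𝓗) (t := univ)]
  apply Finset.sum_le_sum
  intro y _
  rw [← Finset.sum_filter, ← Finset.sum_filter]
  exact sum_no_le hν hinj y

end Tree

end Vale.Agent.Lib.P034
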