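import Mathlib
import Vale.Agent.Lib.P034.Reg1
import Vale.Agent.Lib.P034.Defs3

/-!
The weighted tree inequality and the counting bound for a regular class.
-/

namespace Vale.Agent.Lib.P034
open Finset

/-- Jensen for the exponential on a finite weighted set. -/
lemma weighted_exp_ge {ι : Type*} (s : Finset ι) (w u : ι → ℝ) (hw : ∀ i ∈ s, 0 ≤ w i)
    (hW : 0 < ∑ i ∈ s, w i) :
    (∑ i ∈ s, w i) * Real.exp ((∑ i ∈ s, w i * u i) / ∑ i ∈ s, w i) ≤
      ∑ i ∈ s, w i * Real.exp (u i) := by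
  set W := ∑ i ∈ s, w i
  set m := (∑ i ∈ s, w i * u i) / W
  have h1 : ∀ i ∈ s, w i * (Real.exp m * (1 + (u i - m))) ≤ w i * Real.exp (u i) := by
    intro i hi
    apply mul_le_mul_of_nonneg_left _ (hw i hi)
    have := Real.add_one_le_exp (u i - m)
    have hexp : Real.exp (u i) = Real.exp m * Real.exp (u i - m) := by
      rw [← Real.exp_add]
      congr 1
      ring
    rw [hexp]
    apply mul_le_mul_of_nonneg_left _ (Real.exp_pos m).le
    linarith
  have h2 : ∑ i ∈ s, w i * (Real.exp m * (1 + (u i - m))) = W * Real.exp m := by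
    have : ∀ i ∈ s, w i * (Real.exp m * (1 + (u i - m)))
        = Real.exp m * (w i * (1 - m)) + Real.exp m * (w i * u i) := by
      intro i _
      ring
    rw [Finset.sum_congr rfl this, Finset.sum_add_distrib, ← Finset.mul_sum, ← Finset.mul_sum,
      ← Finset.sum_mul]
    have hm : ∑ i ∈ s, w i * u i = m * W := by
      simp only [m]
      field_simp
    rw [hm]
    ring
  calc W * Real.exp m = ∑ i ∈ s, w i * (Real.exp m * (1 + (u i - m))) := h2.symm
    _ ≤ _ := Finset.sum_le_sum h1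

section
variable {X : Type*} [Fintype X] [DecidableEq X]

lemma fMass_nonneg {g : Finset X → ℝ} (hg : ∀ S, 0 ≤ g S) (D : Finset X) : 0 ≤ fMass g D :=
  Finset.sum_nonneg (fun _ _ => hg _)

/-- Swap of the double sum over subsets and their elements. -/
lemma sum_powerset_sum_mem (g : Finset X → ℝ) (D : Finset X) (l : X → ℝ) :
    ∑ S ∈ D.powerset, g S * ∑ y ∈ S, l y = ∑ y ∈ D, pMass g D y * l y := by
  have h1 : ∀ S ∈ D.powerset, g S * ∑ y ∈ S, l y = ∑ y ∈ D, if y ∈ S then g S * l y else 0 := by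
    intro S hS
    have hS' := Finset.mem_powerset.mp hS
    rw [Finset.mul_sum, ← Finset.sum_filter]
    apply Finset.sum_congr _ (fun _ _ => rfl)
    ext y
    simp only [mem_filter]
    exact ⟨fun h => ⟨hS' h, h⟩, fun h => h.2⟩
  rw [Finset.sum_congr rfl h1, Finset.sum_comm]
  apply Finset.sum_congr rfl
  intro y _
  unfold pMass
  rw [Finset.sum_mul, Finset.sum_filter]

variable {ν : Finset X → ℝ} {𝓗 : Finset (Finset X)} {rk : X → ℕ}

/-- The tree inequality for a weight `g`: averaged along `ν`, the total weight of the subsets of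
`H`, each multiplied by the product of `p * rho` over its elements, is at most the cost of `g`. -/
lemma tree_weight_bound (hν : ∀ H, 0 ≤ ν H) (hinj : Function.Injective rk) {N : ℕ}
    (hlt : ∀ y, rk y < N) (hsurj : ∀ i, i < N → ∃ y, rk y = i) {g : Finset X → ℝ}
    (hg : ∀ S, 0 ≤ g S) {p : ℝ} (hp : 0 < p) :
    ∑ H ∈ 𝓗, ν H * ∑ S ∈ H.powerset, g S * ∏ y ∈ S, (p * rho ν 𝓗 rk y H) ≤
      (∑ H ∈ 𝓗, ν H) * ∑ S, g S * p ^ S.card := by
  have h1 : ∀ H ∈ 𝓗, ν H * ∑ S ∈ H.powerset, g S * ∏ y ∈ S, (p * rho ν 𝓗 rk y H)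
      = ∑ S, if S ⊆ H then g S * p ^ S.card * (ν H * ∏ y ∈ S, rho ν 𝓗 rk y H) else 0 := by
    intro H _
    rw [Finset.mul_sum, ← Finset.sum_filter]
    apply Finset.sum_congr
    · ext S
      simp
    · intro S _
      rw [Finset.prod_mul_distrib, Finset.prod_const]
      ring
  rw [Finset.sum_congr rfl h1, Finset.sum_comm, Finset.mul_sum]
  apply Finset.sum_le_sum
  intro S _
  rw [← Finset.sum_filter, ← Finset.mul_sum]
  have := tree_bound (𝓗 := 𝓗) hν hinj hlt hsurj S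
  calc g S * p ^ S.card * ∑ H ∈ 𝓗.filter (fun H => S ⊆ H), ν H * ∏ y ∈ S, rho ν 𝓗 rk y H
      ≤ g S * p ^ S.card * ∑ H ∈ 𝓗, ν H :=
        mul_le_mul_of_nonneg_left this (mul_nonneg (hg S) (pow_nonneg hp.le _))
    _ = _ := by ring

/-- The main inequality, in exponential form, along a family of positive measure and mass at
least one. -/
theorem tree_log_bound (hν : ∀ H, 0 ≤ ν H) (hinj : Function.Injective rk) {N : ℕ}
    (hlt : ∀ y, rk y < N) (hsurj : ∀ i, i < N → ∃ y, rk y = i) {g : Finset X → ℝ}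
    (hg : ∀ S, 0 ≤ g S) {p : ℝ} (hp : 0 < p) (hpos : ∀ H ∈ 𝓗, 0 < ν H)
    (hne : 𝓗.Nonempty) (hf : ∀ H ∈ 𝓗, 1 ≤ fMass g H) :
    ∑ H ∈ 𝓗, ν H * ((∑ y ∈ H, pMass g H y * Real.log (p * rho ν 𝓗 rk y H)) / fMass g H) ≤
      (∑ H ∈ 𝓗, ν H) * Real.log (∑ S, g S * p ^ S.card) := by
  set τ := ∑ H ∈ 𝓗, ν H with hτ
  have hτpos : 0 < τ := Finset.sum_pos hpos hne
  set μ := ∑ S, g S * p ^ S.card with hμ
  set m : Finset X → ℝ :=
    fun H => (∑ y ∈ H, pMass g H y * Real.log (p * rho ν 𝓗 rk y H)) / fMass g H with hm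
  have hstep : ∀ H ∈ 𝓗, ν H * Real.exp (m H) ≤
      ν H * ∑ S ∈ H.powerset, g S * ∏ y ∈ S, (p * rho ν 𝓗 rk y H) := by
    intro H hH
    apply mul_le_mul_of_nonneg_left _ (hν H)
    have hfH : 1 ≤ fMass g H := hf H hH
    have hfpos : 0 < fMass g H := by linarith
    have hprod : ∀ S ∈ H.powerset, ∏ y ∈ S, (p * rho ν 𝓗 rk y H)
        = Real.exp (∑ y ∈ S, Real.log (p * rho ν 𝓗 rk y H)) := by
      intro S _
      rw [Real.exp_sum]
      apply Finset.prod_congr rfl
      intro y _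
      rw [Real.exp_log (mul_pos hp (rho_pos hν hH (hpos H hH) y))]
    rw [Finset.sum_congr rfl (fun S hS => by rw [hprod S hS])]
    have hJ := weighted_exp_ge H.powerset g
      (fun S => ∑ y ∈ S, Real.log (p * rho ν 𝓗 rk y H)) (fun S _ => hg S) hfpos
    have hsw := sum_powerset_sum_mem g H (fun y => Real.log (p * rho ν 𝓗 rk y H))
    have hJ' : fMass g H * Real.exp (m H) ≤
        ∑ S ∈ H.powerset, g S * Real.exp (∑ y ∈ S, Real.log (p * rho ν 𝓗 rk y H)) := by
      have : (∑ S ∈ H.powerset, g S * ∑ y ∈ S, Real.log (p * rho ν 𝓗 rk y H)) / fMass g H = m H := by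
        rw [hsw]
      unfold fMass at this hJ ⊢
      rw [this] at hJ
      exact hJ
    calc Real.exp (m H) = 1 * Real.exp (m H) := by ring
      _ ≤ fMass g H * Real.exp (m H) :=
        mul_le_mul_of_nonneg_right hfH (Real.exp_pos _).le
      _ ≤ _ := hJ'
  have hsum : ∑ H ∈ 𝓗, ν H * Real.exp (m H) ≤ τ * μ :=
    (Finset.sum_le_sum hstep).trans (tree_weight_bound hν hinj hlt hsurj hg hp)
  have hJ2 := weighted_exp_ge 𝓗 ν m (fun H _ => hν H) hτpos
  have hexp : Real.exp ((∑ H ∈ 𝓗, ν H * m H) / τ) ≤ μ := by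
    have := hJ2.trans hsum
    exact le_of_mul_le_mul_left this hτpos
  have hμpos : 0 < μ := lt_of_lt_of_le (Real.exp_pos _) hexp
  have hlog : (∑ H ∈ 𝓗, ν H * m H) / τ ≤ Real.log μ :=
    (Real.le_log_iff_exp_le hμpos).mpr hexp
  rw [div_le_iff₀ hτpos] at hlog
  linarith

/-- The core inequality for a class of regular sets of the same size. -/
theorem class_core {g : Finset X → ℝ} (hg : ∀ S, 0 ≤ g S) {p : ℝ} (hp : 0 < p)
    {𝓗 : Finset (Finset X)} (hne : 𝓗.Nonempty) (hf : ∀ H ∈ 𝓗, 1 ≤ fMass g H) {n : ℕ}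
    (hn : ∀ H ∈ 𝓗, H.card = n) {a : Finset X → ℝ}
    (ha : ∀ H ∈ 𝓗, ∀ x ∈ H, pMass g H x = a H * fMass g H) {A : ℝ}
    (hA : 0 < A) (haA : ∀ H ∈ 𝓗, a H ≤ A) :
    (∑ H ∈ 𝓗, a H) * ((n : ℝ) * Real.log p + Real.log (𝓗.card : ℝ)) ≤
      (𝓗.card : ℝ) * Real.log (∑ S, g S * p ^ S.card) + A * ((𝓗.card : ℝ) * n) := by
  classical
  -- the rank function
  set e := Fintype.equivFin X
  set rk : X → ℕ := fun y => (e y : ℕ) with hrk
  have hinj : Function.Injective rk := fun x y h => e.injective (Fin.ext h)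
  have hlt : ∀ y, rk y < Fintype.card X := fun y => (e y).isLt
  have hsurj : ∀ i, i < Fintype.card X → ∃ y, rk y = i := by
    intro i hi
    refine ⟨e.symm ⟨i, hi⟩, ?_⟩
    simp [hrk]
  set ν : Finset X → ℝ := fun _ => 1 with hν'
  have hν : ∀ H, 0 ≤ ν H := fun _ => zero_le_one
  have hνpos : ∀ H ∈ 𝓗, 0 < ν H := fun _ _ => one_pos
  have hmain := tree_log_bound (𝓗 := 𝓗) hν hinj hlt hsurj hg hp hνpos hne hf
  set L := Real.log (∑ S, g S * p ^ S.card) with hL
  set M : ℝ := (𝓗.card : ℝ) with hM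
  have hMpos : 0 < M := by
    rw [hM]
    exact_mod_cast hne.card_pos
  have hτ : ∑ H ∈ 𝓗, ν H = M := by
    simp [hν', hM]
  set R : Finset X → ℝ := fun H => ∑ y ∈ univ \ H, Real.log (rho ν 𝓗 rk y H) with hR
  have hRnonneg : ∀ H ∈ 𝓗, 0 ≤ R H := by
    intro H hH
    apply Finset.sum_nonneg
    intro y _
    exact Real.log_nonneg (one_le_rho hν hinj hH (hνpos H hH) y)
  have hRsum : ∑ H ∈ 𝓗, R H ≤ M * n := by
    have := sum_no_total_le (𝓗 := 𝓗) hν hinj
    simp only [hν', one_mul] at this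
    calc ∑ H ∈ 𝓗, R H ≤ ∑ H ∈ 𝓗, (H.card : ℝ) := this
      _ = ∑ H ∈ 𝓗, (n : ℝ) := by
        apply Finset.sum_congr rfl
        intro H hH
        rw [hn H hH]
      _ = M * n := by simp [hM]
  have hterm : ∀ H ∈ 𝓗, ν H * ((∑ y ∈ H, pMass g H y * Real.log (p * rho ν 𝓗 rk y H)) / fMass g H)
      = a H * ((n : ℝ) * Real.log p + Real.log M - R H) := by
    intro H hH
    have hfH := hf H hH
    have hfpos : 0 < fMass g H := by linarith
    have hs : ∑ y ∈ H, pMass g H y * Real.log (p * rho ν 𝓗 rk y H)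
        = fMass g H * (a H * ∑ y ∈ H, Real.log (p * rho ν 𝓗 rk y H)) := by
      rw [Finset.mul_sum, Finset.mul_sum]
      apply Finset.sum_congr rfl
      intro y hy
      rw [ha H hH y hy]
      ring
    have hlog : ∑ y ∈ H, Real.log (p * rho ν 𝓗 rk y H)
        = (n : ℝ) * Real.log p + ∑ y ∈ H, Real.log (rho ν 𝓗 rk y H) := by
      have : ∀ y ∈ H, Real.log (p * rho ν 𝓗 rk y H)
          = Real.log p + Real.log (rho ν 𝓗 rk y H) := by
        intro y _
        exact Real.log_mul hp.ne' (rho_pos hν hH (hνpos H hH) y).ne'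
      rw [Finset.sum_congr rfl this, Finset.sum_add_distrib, Finset.sum_const, hn H hH,
        nsmul_eq_mul]
    have htel := sum_log_rho (𝓗 := 𝓗) hν hinj hlt hsurj hH (hνpos H hH)
    have hsplit : ∑ y, Real.log (rho ν 𝓗 rk y H)
        = ∑ y ∈ H, Real.log (rho ν 𝓗 rk y H) + R H := by
      rw [hR]
      simp only
      rw [add_comm]
      exact (Finset.sum_sdiff (Finset.subset_univ H)).symm
    have hval : ∑ y ∈ H, Real.log (rho ν 𝓗 rk y H) = Real.log M - R H := by
      have h1 : Real.log (ν H) = 0 := by simp [hν']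
      rw [hτ, h1] at htel
      linarith
    simp only [hν', one_mul]
    rw [hs, hlog, hval]
    field_simp
    ring
  rw [Finset.sum_congr rfl hterm, hτ] at hmain
  -- the average density
  set Sa := ∑ H ∈ 𝓗, a H with hSa
  have hRa : ∑ H ∈ 𝓗, a H * R H ≤ A * (M * n) := by
    calc ∑ H ∈ 𝓗, a H * R H ≤ ∑ H ∈ 𝓗, A * R H :=
          Finset.sum_le_sum (fun H hH => mul_le_mul_of_nonneg_right (haA H hH) (hRnonneg H hH))
      _ = A * ∑ H ∈ 𝓗, R H := by rw [Finset.mul_sum]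
      _ ≤ A * (M * n) := mul_le_mul_of_nonneg_left hRsum hA.le
  set B := (n : ℝ) * Real.log p + Real.log M with hB
  have hexpand : ∑ H ∈ 𝓗, a H * (B - R H) = Sa * B - ∑ H ∈ 𝓗, a H * R H := by
    rw [hSa, Finset.sum_mul, ← Finset.sum_sub_distrib]
    apply Finset.sum_congr rfl
    intro H _
    ring
  rw [hexpand] at hmain
  -- now conclude: `Sa * B ≤ M * L + A * M * n`
  linarith

/-- The counting bound for a class of regular sets of the same size, with nearly equal
densities. -/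
theorem class_log_bound {g : Finset X → ℝ} (hg : ∀ S, 0 ≤ g S) {p : ℝ} (hp : 0 < p)
    {𝓗 : Finset (Finset X)} (hne : 𝓗.Nonempty) (hf : ∀ H ∈ 𝓗, 1 ≤ fMass g H) {n : ℕ}
    (hn : ∀ H ∈ 𝓗, H.card = n) {a : Finset X → ℝ}
    (ha : ∀ H ∈ 𝓗, ∀ x ∈ H, pMass g H x = a H * fMass g H) {A : ℝ}
    (hA : 0 < A) (haA : ∀ H ∈ 𝓗, a H ≤ A) (haA' : ∀ H ∈ 𝓗, A / 2 < a H)
    (hμ : Real.log (∑ S, g S * p ^ S.card) ≤ 0) :
    Real.log (𝓗.card : ℝ) ≤
      (n : ℝ) * (2 - Real.log p) + Real.log (∑ S, g S * p ^ S.card) / A := by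
  have hcore := class_core hg hp hne hf hn ha hA haA
  set L := Real.log (∑ S, g S * p ^ S.card) with hL
  set M : ℝ := (𝓗.card : ℝ) with hM
  have hMpos : 0 < M := by
    rw [hM]
    exact_mod_cast hne.card_pos
  set Sa := ∑ H ∈ 𝓗, a H with hSa
  have hSa1 : Sa ≤ A * M := by
    calc Sa ≤ ∑ H ∈ 𝓗, A := Finset.sum_le_sum haA
      _ = A * M := by simp [hM]; ring
  have hSa2 : A / 2 * M < Sa := by
    calc A / 2 * M = ∑ H ∈ 𝓗, A / 2 := by simp [hM]; ring
      _ < Sa := Finset.sum_lt_sum_of_nonempty hne haA'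
  have hSapos : 0 < Sa := lt_trans (by positivity) hSa2
  set B := (n : ℝ) * Real.log p + Real.log M with hB
  have h1 : Sa * B ≤ M * L + A * (M * n) := hcore
  have hLle : L ≤ 0 := hμ
  have hnn : (0 : ℝ) ≤ n := Nat.cast_nonneg n
  -- compare with the target multiplied by `Sa`
  have h2 : M * L ≤ Sa * (L / A) := by
    have : Sa * (L / A) = (Sa / A) * L := by ring
    rw [this]
    have h3 : Sa / A ≤ M := by
      rw [div_le_iff₀ hA]
      linarith
    exact mul_le_mul_of_nonpos_right h3 hLle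
  have h3 : A * (M * n) ≤ Sa * (2 * n) := by
    have : A * M ≤ Sa * 2 := by linarith
    calc A * (M * n) = (A * M) * n := by ring
      _ ≤ (Sa * 2) * n := mul_le_mul_of_nonneg_right this hnn
      _ = Sa * (2 * n) := by ring
  have h4 : Sa * B ≤ Sa * (2 * n + L / A) := by
    rw [mul_add]
    linarith
  have h5 : B ≤ 2 * n + L / A := le_of_mul_le_mul_left h4 hSapos
  rw [hB] at h5
  have hgoal : Real.log M ≤ (n : ℝ) * (2 - Real.log p) + L / A := by
    have : (n : ℝ) * (2 - Real.log p) = 2 * n - n * Real.log p := by ring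
    rw [this]
    linarith
  exact hgoal

/-- The exact counting bound: a family of `n`-sets of mass at least one, all regular with the same
density `a > 0`, has at most `(e / p) ^ n * μ ^ (1 / a)` members, where `μ` is the cost of `g`. -/
theorem regular_card_le {g : Finset X → ℝ} (hg : ∀ S, 0 ≤ g S) {p : ℝ} (hp : 0 < p)
    {𝓗 : Finset (Finset X)} (hne : 𝓗.Nonempty) (hf : ∀ H ∈ 𝓗, 1 ≤ fMass g H) {n : ℕ}
    (hn : ∀ H ∈ 𝓗, H.card = n) {a : ℝ} (ha0 : 0 < a)
    (ha : ∀ H ∈ 𝓗, ∀ x ∈ H, pMass g H x = a * fMass g H) :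
    Real.log (𝓗.card : ℝ) ≤
      (n : ℝ) * (1 - Real.log p) + Real.log (∑ S, g S * p ^ S.card) / a := by
  have hcore := class_core hg hp hne hf hn (a := fun _ => a) ha ha0 (fun _ _ => le_rfl)
  set L := Real.log (∑ S, g S * p ^ S.card) with hL
  set M : ℝ := (𝓗.card : ℝ) with hM
  have hMpos : 0 < M := by
    rw [hM]
    exact_mod_cast hne.card_pos
  have hSa : ∑ H ∈ 𝓗, (fun _ => a) H = a * M := by
    simp [hM]
    ring
  rw [hSa] at hcore
  have h1 : (a * M) * ((n : ℝ) * Real.log p + Real.log M) ≤ (a * M) * (L / a + n) := by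
    have : (a * M) * (L / a + n) = M * L + a * (M * n) := by
      field_simp
    rw [this]
    exact hcore
  have h2 := le_of_mul_le_mul_left h1 (mul_pos ha0 hMpos)
  have : (n : ℝ) * (1 - Real.log p) = n - n * Real.log p := by ring
  rw [this]
  linarith

end

end Vale.Agent.Lib.P034
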