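import Mathlib
import Vale.Agent.Lib.P034.Reg2

/-!
Regular sets form a cheap cover.
-/

namespace Vale.Agent.Lib.P034
open Finset

section
variable {X : Type*} [Fintype X] [DecidableEq X]

/-- A regular set of mass at least one, for a weight of cost at most one half, has density in
`(0, 1]` and is nonempty. -/
lemma regular_density {g : Finset X → ℝ} (hg : ∀ S, 0 ≤ g S) {p : ℝ} (hp : 0 < p)
    (hμ : ∑ S, g S * p ^ S.card ≤ 1 / 2) {D : Finset X} (hf : 1 ≤ fMass g D)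
    (hreg : IsRegular g D) :
    D.Nonempty ∧ ∃ a : ℝ, 0 < a ∧ a ≤ 1 ∧ ∀ x ∈ D, pMass g D x = a * fMass g D := by
  have hg0 : g ∅ ≤ 1 / 2 := by
    have h1 : g ∅ * p ^ (∅ : Finset X).card ≤ ∑ S, g S * p ^ S.card :=
      Finset.single_le_sum (f := fun S => g S * p ^ S.card)
        (fun S _ => mul_nonneg (hg S) (pow_nonneg hp.le _)) (mem_univ _)
    simp only [card_empty, pow_zero, mul_one] at h1
    linarith
  have hfpos : 0 < fMass g D := by linarith
  have hpm : ∀ x, 0 ≤ pMass g D x := fun x => Finset.sum_nonneg (fun _ _ => hg _)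
  obtain ⟨a, ha⟩ := hreg
  have hempty : ¬ (∀ S ∈ D.powerset, S ≠ ∅ → g S = 0) := by
    intro h
    have : fMass g D = g ∅ := by
      unfold fMass
      apply Finset.sum_eq_single_of_mem ∅ (by simp)
      intro S hS hne
      exact h S hS hne
    linarith
  push Not at hempty
  obtain ⟨S, hS, hne, hgS⟩ := hempty
  obtain ⟨x, hx⟩ := hne
  have hxD : x ∈ D := Finset.mem_powerset.mp hS hx
  have hle : g S ≤ pMass g D x :=
    Finset.single_le_sum (f := g) (fun _ _ => hg _) (mem_filter.mpr ⟨hS, hx⟩)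
  have hgSpos : 0 < g S := lt_of_le_of_ne (hg S) (Ne.symm hgS)
  have hpx : 0 < pMass g D x := lt_of_lt_of_le hgSpos hle
  have hax := ha x hxD
  refine ⟨⟨x, hxD⟩, a, ?_, ?_, ha⟩
  · by_contra hneg
    push Not at hneg
    have : a * fMass g D ≤ 0 := mul_nonpos_of_nonpos_of_nonneg hneg hfpos.le
    linarith
  · have hle2 : pMass g D x ≤ fMass g D :=
      Finset.sum_le_sum_of_subset_of_nonneg (filter_subset _ _) (fun _ _ _ => hg _)
    rw [hax] at hle2
    by_contra hgt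
    push Not at hgt
    nlinarith

lemma sum_quarter_le (s : Finset ℕ) (hs : ∀ n ∈ s, 1 ≤ n) :
    ∑ n ∈ s, ((1 : ℝ) / 4) ^ n ≤ 1 / 3 := by
  have key : ∀ K : ℕ, ∑ n ∈ Finset.Icc 1 K, ((1 : ℝ) / 4) ^ n ≤ 1 / 3 - (1 / 3) * (1 / 4) ^ K := by
    intro K
    induction K with
    | zero => simp
    | succ K ih =>
      rw [Finset.sum_Icc_succ_top (by omega)]
      rw [pow_succ]
      have : (0 : ℝ) < (1 / 4) ^ K := by positivity
      nlinarith
  have hsub : s ⊆ Finset.Icc 1 (s.sup id) := by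
    intro n hn
    exact Finset.mem_Icc.mpr ⟨hs n hn, Finset.le_sup (f := id) hn⟩
  calc ∑ n ∈ s, ((1 : ℝ) / 4) ^ n ≤ ∑ n ∈ Finset.Icc 1 (s.sup id), ((1 : ℝ) / 4) ^ n :=
        Finset.sum_le_sum_of_subset_of_nonneg hsub (fun _ _ _ => by positivity)
    _ ≤ 1 / 3 - (1 / 3) * (1 / 4) ^ (s.sup id) := key _
    _ ≤ 1 / 3 := by
      have : (0 : ℝ) < (1 / 4) ^ (s.sup id) := by positivity
      linarith

lemma sum_half_le (s : Finset ℕ) : ∑ n ∈ s, ((1 : ℝ) / 2) ^ n ≤ 2 := by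
  have hsub : s ⊆ range (s.sup id + 1) := by
    intro n hn
    exact mem_range.mpr (Nat.lt_succ_of_le (Finset.le_sup (f := id) hn))
  calc ∑ n ∈ s, ((1 : ℝ) / 2) ^ n ≤ ∑ n ∈ range (s.sup id + 1), ((1 : ℝ) / 2) ^ n :=
        Finset.sum_le_sum_of_subset_of_nonneg hsub (fun _ _ _ => by positivity)
    _ ≤ 2 := sum_geometric_two_le _

/-- `e ^ 2 ≤ 8`. -/
lemma exp_two_le_eight : Real.exp 2 ≤ 8 := by
  have h1 : Real.exp 2 = Real.exp 1 * Real.exp 1 := by
    rw [← Real.exp_add]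
    norm_num
  have h2 := Real.exp_one_lt_d9
  have h3 := Real.exp_pos 1
  rw [h1]
  nlinarith

/-- The cost, at `p / 32`, of one class of regular sets. -/
lemma class_cost {g : Finset X → ℝ} (hg : ∀ S, 0 ≤ g S) {p : ℝ} (hp : 0 < p) (hp1 : p ≤ 1)
    {μ : ℝ} (hμdef : μ = ∑ S, g S * p ^ S.card) (hμ : μ ≤ 1 / 2)
    {𝓗 : Finset (Finset X)} (hne : 𝓗.Nonempty) (hf : ∀ H ∈ 𝓗, 1 ≤ fMass g H) {n j : ℕ}
    (hn : ∀ H ∈ 𝓗, H.card = n) {a : Finset X → ℝ}
    (ha : ∀ H ∈ 𝓗, ∀ x ∈ H, pMass g H x = a H * fMass g H)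
    (haA : ∀ H ∈ 𝓗, a H ≤ (1 / 2) ^ j) (haA' : ∀ H ∈ 𝓗, (1 / 2 : ℝ) ^ (j + 1) < a H) :
    ∑ H ∈ 𝓗, (p / 32) ^ H.card ≤ (1 / 4) ^ n * (μ * (1 / 2) ^ j) := by
  -- positivity of the cost
  obtain ⟨H0, hH0⟩ := hne
  have hμpos : 0 < μ := by
    have h1 := hf H0 hH0
    obtain ⟨S, hS, hSpos⟩ : ∃ S ∈ H0.powerset, 0 < g S := by
      by_contra hcon
      push Not at hcon
      have : fMass g H0 ≤ 0 := Finset.sum_nonpos hcon
      linarith
    have : g S * p ^ S.card ≤ μ := by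
      rw [hμdef]
      exact Finset.single_le_sum (f := fun S => g S * p ^ S.card)
        (fun S _ => mul_nonneg (hg S) (pow_nonneg hp.le _)) (mem_univ S)
    have h2 : 0 < g S * p ^ S.card := mul_pos hSpos (pow_pos hp _)
    linarith
  have hlogμ : Real.log μ ≤ 0 := Real.log_nonpos hμpos.le (by linarith)
  set A : ℝ := (1 / 2) ^ j with hA
  have hApos : 0 < A := by positivity
  have hlog := class_log_bound hg hp ⟨H0, hH0⟩ hf hn ha hApos haA
    (fun H hH => by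
      have := haA' H hH
      rw [pow_succ] at this
      rw [hA]
      linarith)
    (by rw [← hμdef]; exact hlogμ)
  rw [← hμdef] at hlog
  set M : ℝ := (𝓗.card : ℝ) with hM
  have hMpos : 0 < M := by
    rw [hM]
    exact_mod_cast (Finset.card_pos.mpr ⟨H0, hH0⟩)
  -- `log μ / A = 2 ^ j * log μ`
  have h2j : Real.log μ / A = ((2 : ℝ) ^ j) * Real.log μ := by
    rw [hA, div_eq_mul_inv, mul_comm]
    congr 1
    rw [one_div, inv_pow, inv_inv]
  rw [h2j] at hlog
  have hexp : M ≤ Real.exp ((n : ℝ) * (2 - Real.log p)) * μ ^ (2 ^ j) := by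
    have h1 : μ ^ (2 ^ j) = Real.exp (((2 : ℝ) ^ j) * Real.log μ) := by
      rw [show ((2 : ℝ) ^ j) = ((2 ^ j : ℕ) : ℝ) by push_cast; ring]
      rw [Real.exp_nat_mul, Real.exp_log hμpos]
    rw [h1, ← Real.exp_add]
    calc M = Real.exp (Real.log M) := (Real.exp_log hMpos).symm
      _ ≤ _ := Real.exp_le_exp.mpr hlog
  have hexp2 : Real.exp ((n : ℝ) * (2 - Real.log p)) = (Real.exp 2 / p) ^ n := by
    rw [Real.exp_nat_mul, Real.exp_sub, Real.exp_log hp]
  rw [hexp2] at hexp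
  have hpow : μ ^ (2 ^ j) ≤ μ * (1 / 2) ^ j := by
    have hk : j + 1 ≤ 2 ^ j := Nat.lt_two_pow_self
    obtain ⟨k, hk'⟩ : ∃ k, 2 ^ j = k + 1 := ⟨2 ^ j - 1, by omega⟩
    rw [hk', pow_succ, mul_comm]
    apply mul_le_mul_of_nonneg_left _ hμpos.le
    calc μ ^ k ≤ (1 / 2) ^ k := pow_le_pow_left₀ hμpos.le hμ k
      _ ≤ (1 / 2) ^ j := pow_le_pow_of_le_one (by norm_num) (by norm_num) (by omega)
  have hsum : ∑ H ∈ 𝓗, (p / 32) ^ H.card = M * (p / 32) ^ n := by
    rw [Finset.sum_congr rfl (fun H hH => by rw [hn H hH]), Finset.sum_const, nsmul_eq_mul]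
  rw [hsum]
  have hppos : 0 ≤ (p / 32) ^ n := by positivity
  have hnum : (Real.exp 2 / p) ^ n * (p / 32) ^ n ≤ (1 / 4) ^ n := by
    rw [← mul_pow]
    apply pow_le_pow_left₀ (by positivity)
    have : Real.exp 2 / p * (p / 32) = Real.exp 2 / 32 := by
      field_simp
    rw [this]
    have := exp_two_le_eight
    linarith
  calc M * (p / 32) ^ n ≤ ((Real.exp 2 / p) ^ n * μ ^ (2 ^ j)) * (p / 32) ^ n :=
        mul_le_mul_of_nonneg_right hexp hppos
    _ = ((Real.exp 2 / p) ^ n * (p / 32) ^ n) * μ ^ (2 ^ j) := by ring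
    _ ≤ (1 / 4) ^ n * μ ^ (2 ^ j) :=
        mul_le_mul_of_nonneg_right hnum (pow_nonneg hμpos.le _)
    _ ≤ (1 / 4) ^ n * (μ * (1 / 2) ^ j) :=
        mul_le_mul_of_nonneg_left hpow (by positivity)

/-- The cost at `p / 32` of any finite family of regular sets of mass at least one. -/
lemma regular_family_cost {g : Finset X → ℝ} (hg : ∀ S, 0 ≤ g S) {p : ℝ} (hp : 0 < p) (hp1 : p ≤ 1)
    (hμ : ∑ S, g S * p ^ S.card ≤ 1 / 2) {𝓓 : Finset (Finset X)}
    (h𝓓 : ∀ D ∈ 𝓓, 1 ≤ fMass g D ∧ IsRegular g D) :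
    ∑ D ∈ 𝓓, (p / 32) ^ D.card ≤ (2 / 3) * ∑ S, g S * p ^ S.card := by
  classical
  set μ := ∑ S, g S * p ^ S.card with hμdef
  have hμ0 : 0 ≤ μ := Finset.sum_nonneg (fun S _ => mul_nonneg (hg S) (pow_nonneg hp.le _))
  -- choose the density and the dyadic index of each member
  have hex : ∀ D : Finset X, ∃ c : ℝ × ℕ, D ∈ 𝓓 →
      ((∀ x ∈ D, pMass g D x = c.1 * fMass g D) ∧ c.1 ≤ (1 / 2) ^ c.2 ∧
        (1 / 2 : ℝ) ^ (c.2 + 1) < c.1 ∧ 1 ≤ D.card) := by
    intro D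
    by_cases hD : D ∈ 𝓓
    · obtain ⟨hf, hreg⟩ := h𝓓 D hD
      obtain ⟨hne, a, ha0, ha1, ha⟩ := regular_density hg hp hμ hf hreg
      obtain ⟨j, hj1, hj2⟩ := exists_nat_pow_near_of_lt_one ha0 ha1
        (show (0 : ℝ) < 1 / 2 by norm_num) (show (1 / 2 : ℝ) < 1 by norm_num)
      exact ⟨(a, j), fun _ => ⟨ha, hj2, hj1, Finset.card_pos.mpr hne⟩⟩
    · exact ⟨(0, 0), fun h => absurd h hD⟩
  choose c hc using hex
  set a : Finset X → ℝ := fun D => (c D).1 with ha
  set J : Finset X → ℕ := fun D => (c D).2 with hJ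
  set key : Finset X → ℕ × ℕ := fun D => (D.card, J D) with hkey
  set T := 𝓓.image key with hT
  have hmaps : ∀ D ∈ 𝓓, key D ∈ T := fun D hD => mem_image_of_mem _ hD
  rw [← Finset.sum_fiberwise_of_maps_to hmaps]
  -- the bound on each class
  have hclass : ∀ t ∈ T, ∑ D ∈ 𝓓.filter (fun D => key D = t), (p / 32) ^ D.card
      ≤ μ * ((1 / 4) ^ t.1 * (1 / 2) ^ t.2) := by
    intro t ht
    obtain ⟨D0, hD0, rfl⟩ := mem_image.mp ht
    have hne : (𝓓.filter (fun D => key D = key D0)).Nonempty := ⟨D0, mem_filter.mpr ⟨hD0, rfl⟩⟩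
    have hmem : ∀ D ∈ 𝓓.filter (fun D => key D = key D0), D ∈ 𝓓 ∧ D.card = D0.card ∧ J D = J D0 := by
      intro D hD
      have h1 := mem_filter.mp hD
      have h2 := Prod.ext_iff.mp h1.2
      exact ⟨h1.1, h2.1, h2.2⟩
    have := class_cost hg hp hp1 hμdef hμ hne
      (fun H hH => (h𝓓 H (hmem H hH).1).1) (n := D0.card) (j := J D0)
      (fun H hH => (hmem H hH).2.1) (a := a)
      (fun H hH => ((hc H (hmem H hH).1).1))
      (fun H hH => by
        have h1 := (hc H (hmem H hH).1).2.1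
        have h2 := (hmem H hH).2.2
        rw [← h2]
        exact h1)
      (fun H hH => by
        have h1 := (hc H (hmem H hH).1).2.2.1
        have h2 := (hmem H hH).2.2
        rw [← h2]
        exact h1)
    calc _ ≤ (1 / 4) ^ D0.card * (μ * (1 / 2) ^ J D0) := this
      _ = _ := by simp only [hkey]; ring
  refine (Finset.sum_le_sum hclass).trans ?_
  rw [← Finset.mul_sum]
  -- sum over the index set
  set A := T.image Prod.fst with hA
  set B := T.image Prod.snd with hB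
  have hsub : T ⊆ A ×ˢ B := by
    intro t ht
    exact mem_product.mpr ⟨mem_image_of_mem _ ht, mem_image_of_mem _ ht⟩
  have hsum : ∑ t ∈ T, ((1 : ℝ) / 4) ^ t.1 * (1 / 2) ^ t.2 ≤ 2 / 3 := by
    calc ∑ t ∈ T, ((1 : ℝ) / 4) ^ t.1 * (1 / 2) ^ t.2
        ≤ ∑ t ∈ A ×ˢ B, ((1 : ℝ) / 4) ^ t.1 * (1 / 2) ^ t.2 :=
          Finset.sum_le_sum_of_subset_of_nonneg hsub (fun _ _ _ => by positivity)
      _ = (∑ n ∈ A, ((1 : ℝ) / 4) ^ n) * ∑ j ∈ B, ((1 : ℝ) / 2) ^ j := by
          rw [Finset.sum_product, Finset.sum_mul_sum]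
      _ ≤ (1 / 3) * 2 := by
          apply mul_le_mul _ (sum_half_le B) (Finset.sum_nonneg (fun _ _ => by positivity))
            (by norm_num)
          apply sum_quarter_le
          intro n hn
          obtain ⟨t, ht, rfl⟩ := mem_image.mp hn
          obtain ⟨D0, hD0, rfl⟩ := mem_image.mp ht
          exact (hc D0 hD0).2.2.2
      _ = 2 / 3 := by norm_num
  calc μ * ∑ t ∈ T, ((1 : ℝ) / 4) ^ t.1 * (1 / 2) ^ t.2 ≤ μ * (2 / 3) :=
        mul_le_mul_of_nonneg_left hsum hμ0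
    _ = 2 / 3 * μ := by ring

/-- A sum over a finite union of nonnegative terms is at most the sum of the sums. -/
lemma sum_biUnion_le_of_nonneg {ι α : Type*} [DecidableEq α] (s : Finset ι) (t : ι → Finset α)
    (f : α → ℝ) (hf : ∀ a, 0 ≤ f a) :
    ∑ a ∈ s.biUnion t, f a ≤ ∑ i ∈ s, ∑ a ∈ t i, f a := by
  classical
  induction s using Finset.induction_on with
  | empty => simp
  | insert i s hi ih =>
    rw [Finset.biUnion_insert, Finset.sum_insert hi]
    calc ∑ a ∈ t i ∪ s.biUnion t, f a ≤ ∑ a ∈ t i, f a + ∑ a ∈ s.biUnion t, f a := by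
          rw [← Finset.sum_union_inter]
          have : 0 ≤ ∑ a ∈ t i ∩ s.biUnion t, f a := Finset.sum_nonneg (fun _ _ => hf _)
          linarith
      _ ≤ _ := by linarith

/-- The regular cover theorem. Several weights are allowed, with their total cost at most one half;
each member of `F` must contain a set of mass at least one that is regular, for one of the
weights. Then `F` is `p / 32`-small. -/
theorem regular_small {ι : Type*} [Fintype ι] (F : Finset (Finset X)) (g : ι → Finset X → ℝ) (p : ℝ)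
    (hg : ∀ i S, 0 ≤ g i S) (hp : 0 < p) (hp1 : p ≤ 1)
    (hcost : ∑ i, ∑ S, g i S * p ^ S.card ≤ 1 / 2)
    (hcov : ∀ H ∈ F, ∃ i, ∃ D, D ⊆ H ∧ 1 ≤ fMass (g i) D ∧ IsRegular (g i) D) :
    IsSmall F (p / 32) := by
  classical
  set 𝓓 : ι → Finset (Finset X) :=
    fun i => univ.filter (fun D => 1 ≤ fMass (g i) D ∧ IsRegular (g i) D) with h𝓓
  refine ⟨univ.biUnion 𝓓, ?_, ?_⟩
  · intro H hH
    obtain ⟨i, D, hDH, hf, hr⟩ := hcov H hH
    exact ⟨D, mem_biUnion.mpr ⟨i, mem_univ _, mem_filter.mpr ⟨mem_univ _, hf, hr⟩⟩, hDH⟩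
  · unfold coverCost
    have hpos : ∀ D : Finset X, 0 ≤ (p / 32) ^ D.card := fun D => by positivity
    refine (sum_biUnion_le_of_nonneg _ _ _ hpos).trans ?_
    have hpiece : ∀ i ∈ (univ : Finset ι), ∑ D ∈ 𝓓 i, (p / 32) ^ D.card
        ≤ (2 / 3) * ∑ S, g i S * p ^ S.card := by
      intro i _
      have hi : ∑ S, g i S * p ^ S.card ≤ 1 / 2 := by
        refine le_trans ?_ hcost
        exact Finset.single_le_sum (f := fun i => ∑ S, g i S * p ^ S.card)
          (fun i _ => Finset.sum_nonneg (fun S _ => mul_nonneg (hg i S) (pow_nonneg hp.le _)))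
          (mem_univ i)
      apply regular_family_cost (hg i) hp hp1 hi
      intro D hD
      exact (mem_filter.mp hD).2
    refine (Finset.sum_le_sum hpiece).trans ?_
    rw [← Finset.mul_sum]
    linarith

end

end Vale.Agent.Lib.P034
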