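import Mathlib
import Vale.Agent.Lib.P034.Reg3

/-!
Symmetric families: averaging a fractional cover over a group makes sets with a transitive
stabilizer regular.
-/

namespace Vale.Agent.Lib.P034
open Finset

section
variable {X : Type*} [Fintype X] [DecidableEq X]

/-- The image of a set under a permutation. -/
def actOn (σ : Equiv.Perm X) (S : Finset X) : Finset X := S.map σ.toEmbedding

lemma actOn_card (σ : Equiv.Perm X) (S : Finset X) : (actOn σ S).card = S.card := by
  simp [actOn]

lemma actOn_mul (σ τ : Equiv.Perm X) (S : Finset X) : actOn (σ * τ) S = actOn σ (actOn τ S) := by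
  simp only [actOn, Finset.map_map]
  congr 1

lemma actOn_one (S : Finset X) : actOn (1 : Equiv.Perm X) S = S := by
  ext x
  simp only [actOn, Finset.mem_map_equiv]
  exact Iff.rfl

lemma actOn_subset (σ : Equiv.Perm X) {S D : Finset X} : actOn σ S ⊆ actOn σ D ↔ S ⊆ D := by
  simp [actOn]

lemma mem_actOn (σ : Equiv.Perm X) {x : X} {S : Finset X} : σ x ∈ actOn σ S ↔ x ∈ S := by
  simp [actOn]

/-- The action on sets as an equivalence. -/
def actEquiv (σ : Equiv.Perm X) : Finset X ≃ Finset X where
  toFun := actOn σ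
  invFun := actOn σ⁻¹
  left_inv := by
    intro S
    change actOn σ⁻¹ (actOn σ S) = S
    rw [← actOn_mul, inv_mul_cancel, actOn_one]
  right_inv := by
    intro S
    change actOn σ (actOn σ⁻¹ S) = S
    rw [← actOn_mul, mul_inv_cancel, actOn_one]

@[simp] lemma actEquiv_apply (σ : Equiv.Perm X) (S : Finset X) : actEquiv σ S = actOn σ S := rfl

/-- Summing over the subsets of the image of `D` is summing over the images of subsets of `D`. -/
lemma fMass_actOn (g : Finset X → ℝ) (σ : Equiv.Perm X) (D : Finset X) :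
    ∑ S ∈ D.powerset, g (actOn σ S) = fMass g (actOn σ D) := by
  unfold fMass
  apply Finset.sum_equiv (actEquiv σ)
  · intro S
    simp only [mem_powerset, actEquiv_apply, actOn_subset]
  · intro S _
    rfl

/-- The average of `g` over the finite set `Γ'` of permutations. -/
noncomputable def avgOver (Γ' : Finset (Equiv.Perm X)) (g : Finset X → ℝ) (S : Finset X) : ℝ :=
  (∑ σ ∈ Γ', g (actOn σ S)) / (Γ'.card : ℝ)

variable {Γ : Subgroup (Equiv.Perm X)}

open Classical in
/-- The elements of the subgroup as a finite set. -/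
noncomputable def groupSet (Γ : Subgroup (Equiv.Perm X)) : Finset (Equiv.Perm X) :=
  univ.filter (fun σ => σ ∈ Γ)

lemma mem_groupSet {σ : Equiv.Perm X} : σ ∈ groupSet Γ ↔ σ ∈ Γ := by
  simp [groupSet]

lemma groupSet_card_pos : 0 < ((groupSet Γ).card : ℝ) := by
  have : (groupSet Γ).Nonempty := ⟨1, mem_groupSet.mpr Γ.one_mem⟩
  exact_mod_cast this.card_pos

lemma avgOver_nonneg {g : Finset X → ℝ} (hg : ∀ S, 0 ≤ g S) (S : Finset X) :
    0 ≤ avgOver (groupSet Γ) g S :=
  div_nonneg (Finset.sum_nonneg (fun _ _ => hg _)) (Nat.cast_nonneg _)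

/-- The average is invariant under the group. -/
lemma avgOver_invariant (g : Finset X → ℝ) {τ : Equiv.Perm X} (hτ : τ ∈ Γ) (S : Finset X) :
    avgOver (groupSet Γ) g (actOn τ S) = avgOver (groupSet Γ) g S := by
  unfold avgOver
  congr 1
  apply Finset.sum_equiv (Equiv.mulRight τ)
  · intro σ
    simp only [mem_groupSet, Equiv.coe_mulRight]
    exact (Γ.mul_mem_cancel_right hτ).symm
  · intro σ _
    simp [actOn_mul]

/-- The cost of the average is the cost of `g`. -/
lemma avgOver_cost (g : Finset X → ℝ) (p : ℝ) :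
    ∑ S, avgOver (groupSet Γ) g S * p ^ S.card = ∑ S, g S * p ^ S.card := by
  have hpos := groupSet_card_pos (Γ := Γ)
  have h1 : ∀ σ : Equiv.Perm X, ∑ S, g (actOn σ S) * p ^ S.card = ∑ S, g S * p ^ S.card := by
    intro σ
    apply Finset.sum_equiv (actEquiv σ)
    · intro S
      simp
    · intro S _
      simp [actOn_card]
  unfold avgOver
  have h2 : ∀ S : Finset X, (∑ σ ∈ groupSet Γ, g (actOn σ S)) / ((groupSet Γ).card : ℝ) * p ^ S.card
      = (∑ σ ∈ groupSet Γ, g (actOn σ S) * p ^ S.card) / ((groupSet Γ).card : ℝ) := by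
    intro S
    rw [← Finset.sum_mul]
    ring
  simp_rw [h2]
  rw [← Finset.sum_div, Finset.sum_comm]
  simp_rw [h1]
  rw [Finset.sum_const, nsmul_eq_mul]
  field_simp

/-- The mass of the average on `D` is the average of the masses of the images of `D`. -/
lemma fMass_avgOver (g : Finset X → ℝ) (D : Finset X) :
    fMass (avgOver (groupSet Γ) g) D
      = (∑ σ ∈ groupSet Γ, fMass g (actOn σ D)) / ((groupSet Γ).card : ℝ) := by
  unfold fMass avgOver
  rw [← Finset.sum_div, Finset.sum_comm]
  congr 1
  apply Finset.sum_congr rfl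
  intro σ _
  exact fMass_actOn g σ D

/-- An invariant weight gives the same point mass to two points exchanged by a symmetry of `D`. -/
lemma pMass_eq_of_symm {g : Finset X → ℝ} {τ : Equiv.Perm X}
    (hinv : ∀ S, g (actOn τ S) = g S) {D : Finset X} (hD : actOn τ D = D) (x : X) :
    pMass g D (τ x) = pMass g D x := by
  unfold pMass
  symm
  apply Finset.sum_equiv (actEquiv τ)
  · intro S
    simp only [mem_filter, mem_powerset, actEquiv_apply]
    constructor
    · rintro ⟨h1, h2⟩
      refine ⟨?_, (mem_actOn τ).mpr h2⟩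
      have := (actOn_subset τ).mpr h1
      rwa [hD] at this
    · rintro ⟨h1, h2⟩
      refine ⟨?_, (mem_actOn τ).mp h2⟩
      rw [← hD] at h1
      exact (actOn_subset τ).mp h1
  · intro S _
    simp [hinv]

/-- The symmetric corollary: if `F` is invariant under a group of permutations of the ground set,
and every member of `F` contains a member whose stabilizer is transitive on it, then every
fractional cover of cost at most one half at `p` yields an integral cover of cost at most one half
at `p / 32`. -/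
theorem symmetric_small (Γ : Subgroup (Equiv.Perm X)) (F : Finset (Finset X)) (g : Finset X → ℝ)
    (p : ℝ) (hg : ∀ S, 0 ≤ g S) (hp : 0 < p) (hp1 : p ≤ 1)
    (hcost : ∑ S, g S * p ^ S.card ≤ 1 / 2) (hfrac : ∀ H ∈ F, 1 ≤ ∑ S ∈ H.powerset, g S)
    (hinv : ∀ σ ∈ Γ, ∀ H ∈ F, H.map σ.toEmbedding ∈ F)
    (htrans : ∀ H ∈ F, ∃ D ∈ F, D ⊆ H ∧ ∀ x ∈ D, ∀ y ∈ D,
      ∃ σ ∈ Γ, D.map σ.toEmbedding = D ∧ σ x = y) :
    IsSmall F (p / 32) := by
  set g' := avgOver (groupSet Γ) g with hg'
  have hpos := groupSet_card_pos (Γ := Γ)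
  have hmass : ∀ D ∈ F, 1 ≤ fMass g' D := by
    intro D hD
    rw [hg', fMass_avgOver, le_div_iff₀ hpos, one_mul]
    calc ((groupSet Γ).card : ℝ) = ∑ _σ ∈ groupSet Γ, (1 : ℝ) := by simp
      _ ≤ _ := by
        apply Finset.sum_le_sum
        intro σ hσ
        exact hfrac _ (hinv σ (mem_groupSet.mp hσ) D hD)
  apply regular_small (ι := Unit) F (fun _ => g') p (fun _ S => avgOver_nonneg hg S) hp hp1
  · simp only [univ_unique, sum_singleton, PUnit.default_eq_unit]
    rw [hg', avgOver_cost]
    exact hcost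
  · intro H hH
    obtain ⟨D, hD, hDH, hsym⟩ := htrans H hH
    refine ⟨(), D, hDH, hmass D hD, ?_⟩
    have hfpos : 0 < fMass g' D := lt_of_lt_of_le one_pos (hmass D hD)
    by_cases hne : D.Nonempty
    · obtain ⟨x0, hx0⟩ := hne
      refine ⟨pMass g' D x0 / fMass g' D, ?_⟩
      intro y hy
      obtain ⟨τ, hτ, hτD, hτx⟩ := hsym x0 hx0 y hy
      have : pMass g' D y = pMass g' D x0 := by
        rw [← hτx]
        exact pMass_eq_of_symm (fun S => avgOver_invariant g hτ S) hτD x0
      rw [this]
      field_simp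
    · refine ⟨0, ?_⟩
      intro x hx
      exact absurd ⟨x, hx⟩ hne

end

end Vale.Agent.Lib.P034
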