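import Mathlib
import Vale.Agent.Lib.P034.Main
import Vale.Agent.Lib.P034.Defs2

namespace Vale.Agent.Lib.P034
open Finset
set_option linter.unusedSectionVars false
set_option linter.unusedVariables false
set_option linter.unusedSimpArgs false

variable {X : Type*} [Fintype X] [DecidableEq X]

/-! ### Rayleigh implies log tangent -/

/-- Affine behaviour of the polynomial in one coordinate. -/
lemma polyWith_coord_add (g : Finset X → ℝ) (z : X → ℝ) (a : ℝ) {x : X} {S : Finset X}
    (hxS : x ∉ S) :
    polyWith g (fun i => if i = x then z i + a else z i) S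
      = polyWith g z S + a * polyWith g z (insert x S) := by
  simp only [polyWith_eq]
  rw [Finset.mul_sum, ← Finset.sum_add_distrib]
  refine Finset.sum_congr rfl fun A _ => ?_
  by_cases hSA : S ⊆ A
  · by_cases hxA : x ∈ A
    · have hins : insert x S ⊆ A := Finset.insert_subset hxA hSA
      rw [if_pos hSA, if_pos hSA, if_pos hins]
      have hmem : x ∈ A \ S := Finset.mem_sdiff.mpr ⟨hxA, hxS⟩
      have herase : (A \ S).erase x = A \ insert x S := by
        ext i; simp only [mem_erase, mem_sdiff, mem_insert]; tauto
      have h1 : ∏ i ∈ A \ S, (if i = x then z i + a else z i)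
          = (z x + a) * ∏ i ∈ A \ insert x S, z i := by
        rw [← Finset.mul_prod_erase _ _ hmem, herase, if_pos rfl]
        congr 1
        refine Finset.prod_congr rfl fun i hi => ?_
        have hix : i ≠ x := by
          intro h; subst h; simp at hi
        simp [hix]
      have h2 : ∏ i ∈ A \ S, z i = z x * ∏ i ∈ A \ insert x S, z i := by
        rw [← Finset.mul_prod_erase _ _ hmem, herase]
      rw [h1, h2]; ring
    · have hins : ¬ insert x S ⊆ A := fun h => hxA (h (mem_insert_self x S))
      rw [if_pos hSA, if_pos hSA, if_neg hins]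
      have h1 : ∏ i ∈ A \ S, (if i = x then z i + a else z i) = ∏ i ∈ A \ S, z i := by
        refine Finset.prod_congr rfl fun i hi => ?_
        have hix : i ≠ x := by
          intro h; subst h; exact hxA (Finset.mem_sdiff.mp hi).1
        simp [hix]
      rw [h1]; ring
  · have hins : ¬ insert x S ⊆ A := fun h => hSA ((Finset.subset_insert x S).trans h)
    rw [if_neg hSA, if_neg hSA, if_neg hins]; ring

/-- The point obtained from `z` by moving the coordinates of `R` by `u`. -/
def movePt (z u : X → ℝ) (R : Finset X) (i : X) : ℝ := if i ∈ R then z i + u i else z i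

lemma movePt_pos {z u : X → ℝ} (hz : ∀ i, 0 < z i) (hu : ∀ i, 0 ≤ u i) (R : Finset X) (i : X) :
    0 < movePt z u R i := by
  unfold movePt
  split_ifs
  · have := hz i; have := hu i; linarith
  · exact hz i

lemma movePt_empty (z u : X → ℝ) : movePt z u ∅ = z := by
  funext i; simp [movePt]

lemma movePt_insert (z u : X → ℝ) {R : Finset X} {x : X} (hx : x ∉ R) :
    movePt z u (insert x R) = fun i => if i = x then movePt z u R i + u x else movePt z u R i := by
  funext i
  by_cases hi : i = x
  · subst hi; simp [movePt, hx]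
  · simp [movePt, hi]

/-- The induction behind the tangent bound for Rayleigh polynomials. -/
lemma rayleigh_chain {g : Finset X → ℝ} (hg : ∀ A, 0 ≤ g A) (hR : IsRayleigh g) {z u : X → ℝ}
    (hz : ∀ i, 0 < z i) (hu : ∀ i, 0 ≤ u i) (hP : 0 < polyWith g z ∅) (R : Finset X) :
    polyWith g z ∅ ≤ polyWith g (movePt z u R) ∅ ∧
    polyWith g (movePt z u R) ∅ ≤
      polyWith g z ∅ * Real.exp (∑ x ∈ R, u x * polyWith g z {x} / polyWith g z ∅) ∧
    ∀ y, y ∉ R → polyWith g (movePt z u R) {y} * polyWith g z ∅
      ≤ polyWith g z {y} * polyWith g (movePt z u R) ∅ := by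
  induction R using Finset.induction_on with
  | empty =>
    rw [movePt_empty]
    refine ⟨le_rfl, ?_, fun y _ => le_of_eq (by ring)⟩
    simp
  | insert x R hxR ih =>
    obtain ⟨ih1, ih2, ih3⟩ := ih
    have hpt := movePt_pos hz hu R
    set zR := movePt z u R with hzR
    have hPR : 0 < polyWith g zR ∅ := lt_of_lt_of_le hP ih1
    have hadd : polyWith g (movePt z u (insert x R)) ∅
        = polyWith g zR ∅ + u x * polyWith g zR {x} := by
      rw [movePt_insert z u hxR]
      have := polyWith_coord_add g zR (u x) (Finset.notMem_empty x)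
      simpa using this
    have hPx : 0 ≤ polyWith g zR {x} := polyWith_nonneg hg (fun i => (hpt i).le) _
    have hPx' : 0 ≤ polyWith g z {x} := polyWith_nonneg hg (fun i => (hz i).le) _
    have hux := hu x
    have hbd : polyWith g zR {x} * polyWith g z ∅ ≤ polyWith g z {x} * polyWith g zR ∅ :=
      ih3 x hxR
    refine ⟨?_, ?_, ?_⟩
    · rw [hadd]
      have := mul_nonneg hux hPx
      linarith
    · rw [hadd, Finset.sum_insert hxR]
      have hquot : polyWith g zR {x} ≤ polyWith g z {x} / polyWith g z ∅ * polyWith g zR ∅ := by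
        rw [div_mul_eq_mul_div, le_div_iff₀ hP]
        exact hbd
      have h1 : polyWith g zR ∅ + u x * polyWith g zR {x}
          ≤ polyWith g zR ∅ * (1 + u x * polyWith g z {x} / polyWith g z ∅) := by
        have := mul_le_mul_of_nonneg_left hquot hux
        have e : polyWith g zR ∅ * (1 + u x * polyWith g z {x} / polyWith g z ∅)
            = polyWith g zR ∅ + u x * (polyWith g z {x} / polyWith g z ∅ * polyWith g zR ∅) := by
          ring
        rw [e]
        linarith
      have hnn : 0 ≤ u x * polyWith g z {x} / polyWith g z ∅ :=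
        div_nonneg (mul_nonneg hux hPx') hP.le
      have h2 : 1 + u x * polyWith g z {x} / polyWith g z ∅
          ≤ Real.exp (u x * polyWith g z {x} / polyWith g z ∅) := by
        have := Real.add_one_le_exp (u x * polyWith g z {x} / polyWith g z ∅)
        linarith
      calc polyWith g zR ∅ + u x * polyWith g zR {x}
          ≤ polyWith g zR ∅ * (1 + u x * polyWith g z {x} / polyWith g z ∅) := h1
        _ ≤ polyWith g zR ∅ * Real.exp (u x * polyWith g z {x} / polyWith g z ∅) :=
            mul_le_mul_of_nonneg_left h2 hPR.le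
        _ ≤ (polyWith g z ∅ * Real.exp (∑ x ∈ R, u x * polyWith g z {x} / polyWith g z ∅)) *
              Real.exp (u x * polyWith g z {x} / polyWith g z ∅) :=
            mul_le_mul_of_nonneg_right ih2 (Real.exp_pos _).le
        _ = polyWith g z ∅ * Real.exp (u x * polyWith g z {x} / polyWith g z ∅ +
              ∑ x ∈ R, u x * polyWith g z {x} / polyWith g z ∅) := by
            rw [mul_assoc, ← Real.exp_add, add_comm]
    · intro y hy
      have hyR : y ∉ R := fun h => hy (mem_insert_of_mem h)
      have hxy : x ≠ y := by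
        intro h; subst h; exact hy (mem_insert_self _ _)
      have hxys : x ∉ ({y} : Finset X) := by simpa using hxy
      have hDy : polyWith g (movePt z u (insert x R)) {y}
          = polyWith g zR {y} + u x * polyWith g zR {x, y} := by
        rw [movePt_insert z u hxR]
        have := polyWith_coord_add g zR (u x) hxys
        simpa using this
      have hRay := hR zR hpt x y hxy
      have hih := ih3 y hyR
      rw [hDy, hadd]
      set a := polyWith g zR ∅
      set b := polyWith g zR {x}
      set c := polyWith g zR {y}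
      set d := polyWith g zR {x, y}
      set e := polyWith g z ∅
      set f := polyWith g z {y}
      have hc : 0 ≤ c := polyWith_nonneg hg (fun i => (hpt i).le) _
      have hd : 0 ≤ d := polyWith_nonneg hg (fun i => (hpt i).le) _
      refine le_of_mul_le_mul_right ?_ hPR
      have h1 : (c + u x * d) * a ≤ c * (a + u x * b) := by nlinarith [mul_le_mul_of_nonneg_left hRay hux]
      calc (c + u x * d) * e * a = ((c + u x * d) * a) * e := by ring
        _ ≤ (c * (a + u x * b)) * e := mul_le_mul_of_nonneg_right h1 hP.le
        _ = (c * e) * (a + u x * b) := by ring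
        _ ≤ (f * a) * (a + u x * b) :=
            mul_le_mul_of_nonneg_right hih (by have := mul_nonneg hux hPx; linarith)
        _ = f * (a + u x * b) * a := by ring

/-- Rayleigh polynomials lie below their log tangents. -/
theorem rayleigh_logTangent {g : Finset X → ℝ} (hg : ∀ A, 0 ≤ g A) (hR : IsRayleigh g) :
    IsLogTangent g := by
  intro z u hz hu hP
  have h := (rayleigh_chain hg hR hz hu hP univ).2.1
  have h1 : movePt z u univ = fun i => z i + u i := by
    funext i; simp [movePt]
  rw [h1, ← Finset.sum_div] at h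
  exact h

/-! ### Log concave implies log tangent -/

lemma polyWith_pos_of_pos {g : Finset X → ℝ} (hg : ∀ A, 0 ≤ g A) {z z' : X → ℝ}
    (hz : ∀ i, 0 < z i) (hz' : ∀ i, 0 < z' i) (S : Finset X) (hP : 0 < polyWith g z S) :
    0 < polyWith g z' S := by
  unfold polyWith at hP ⊢
  obtain ⟨A, hA, hne⟩ := Finset.exists_ne_zero_of_sum_ne_zero hP.ne'
  have hgA : g A ≠ 0 := left_ne_zero_of_mul hne
  refine Finset.sum_pos' (fun A _ => mul_nonneg (hg A)
    (Finset.prod_nonneg fun i _ => (hz' i).le)) ⟨A, hA, ?_⟩
  exact mul_pos (lt_of_le_of_ne (hg A) hgA.symm) (Finset.prod_pos fun i _ => hz' i)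

lemma polyWith_empty_eq (g : Finset X → ℝ) (z : X → ℝ) :
    polyWith g z ∅ = ∑ A, g A * ∏ i ∈ A, z i := by
  simp [polyWith]

lemma sum_mul_polyWith_singleton (g : Finset X → ℝ) (z u : X → ℝ) :
    ∑ x, u x * polyWith g z {x}
      = ∑ A, g A * ∑ x ∈ A, (∏ i ∈ A.erase x, z i) * u x := by
  simp only [polyWith_eq, Finset.mul_sum]
  rw [Finset.sum_comm]
  refine Finset.sum_congr rfl fun A _ => ?_
  have h1 : ∀ x ∈ A, g A * ((∏ i ∈ A.erase x, z i) * u x)
      = u x * (if {x} ⊆ A then g A * ∏ i ∈ A \ {x}, z i else 0) := by
    intro x hx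
    rw [if_pos (by simpa using hx), ← Finset.erase_eq]
    ring
  rw [Finset.sum_congr rfl h1]
  have hsub : A ⊆ univ := Finset.subset_univ A
  rw [← Finset.sum_subset hsub]
  intro x _ hx
  rw [if_neg (by simpa using hx), mul_zero]

lemma hasDerivAt_polyWith (g : Finset X → ℝ) (z u : X → ℝ) :
    HasDerivAt (fun t : ℝ => polyWith g (fun i => z i + t * u i) ∅)
      (∑ x, u x * polyWith g z {x}) 0 := by
  rw [sum_mul_polyWith_singleton]
  simp only [polyWith_empty_eq]
  refine HasDerivAt.fun_sum fun A _ => ?_
  refine HasDerivAt.const_mul (g A) ?_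
  have h := HasDerivAt.fun_finsetProd (u := A) (f := fun i t => z i + t * u i) (f' := u) (x := (0 : ℝ))
    (fun i _ => by
      have h1 : HasDerivAt (fun t : ℝ => t * u i) (1 * u i) 0 := (hasDerivAt_id (0 : ℝ)).mul_const _
      have h2 := h1.const_add (z i)
      simpa using h2)
  simpa using h

/-- Log concave polynomials lie below their log tangents. -/
theorem logConcave_logTangent {g : Finset X → ℝ} (hg : ∀ A, 0 ≤ g A)
    (hC : IsLogConcaveOrthant g) : IsLogTangent g := by
  intro z u hz hu hP
  have hzu : ∀ i, 0 < z i + u i := fun i => by have := hz i; have := hu i; linarith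
  have hP1 : 0 < polyWith g (fun i => z i + u i) ∅ := polyWith_pos_of_pos hg hz hzu _ hP
  have hφ := hasDerivAt_polyWith g z u
  have hφ0 : polyWith g (fun i => z i + 0 * u i) ∅ = polyWith g z ∅ := by simp
  have hψ : HasDerivAt (fun t : ℝ => Real.log (polyWith g (fun i => z i + t * u i) ∅))
      ((∑ x, u x * polyWith g z {x}) / polyWith g z ∅) 0 := by
    have := hφ.log (by rw [hφ0]; exact hP.ne')
    rwa [hφ0] at this
  have hslope := hψ.tendsto_slope_zero_right
  have hbound : Real.log (polyWith g (fun i => z i + u i) ∅) - Real.log (polyWith g z ∅)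
      ≤ (∑ x, u x * polyWith g z {x}) / polyWith g z ∅ := by
    refine ge_of_tendsto hslope ?_
    filter_upwards [Ioc_mem_nhdsGT (show (0 : ℝ) < 1 by norm_num)] with t ht
    have ht0 : 0 < t := ht.1
    have ht1 : t ≤ 1 := ht.2
    have hcon := hC.2 (show z ∈ {z : X → ℝ | ∀ i, 0 < z i} from hz)
      (show (fun i => z i + u i) ∈ {z : X → ℝ | ∀ i, 0 < z i} from hzu)
      (show 0 ≤ 1 - t by linarith) ht0.le (by ring)
    have hpt : (1 - t) • z + t • (fun i => z i + u i) = fun i => z i + t * u i := by
      funext i
      simp only [Pi.add_apply, Pi.smul_apply, smul_eq_mul]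
      ring
    simp only [smul_eq_mul] at hcon
    rw [show (1 - t) • z + t • (fun i => z i + u i) = fun i => z i + t * u i from hpt] at hcon
    simp only [zero_add, smul_eq_mul]
    rw [hφ0, le_inv_mul_iff₀ ht0]
    nlinarith
  have h1 : polyWith g (fun i => z i + u i) ∅
      = Real.exp (Real.log (polyWith g (fun i => z i + u i) ∅)) := (Real.exp_log hP1).symm
  have h2 : polyWith g z ∅ * Real.exp ((∑ x, u x * polyWith g z {x}) / polyWith g z ∅)
      = Real.exp (Real.log (polyWith g z ∅) +
          (∑ x, u x * polyWith g z {x}) / polyWith g z ∅) := by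
    rw [Real.exp_add, Real.exp_log hP]
  rw [h1, h2]
  exact Real.exp_le_exp.mpr (by linarith)

end Vale.Agent.Lib.P034
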