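import Mathlib
import Vale.Agent.Lib.P034.Tangent1

namespace Vale.Agent.Lib.P034
open Finset
set_option linter.unusedSectionVars false
set_option linter.unusedVariables false
set_option linter.unusedSimpArgs false

variable {X : Type*} [Fintype X] [DecidableEq X]

/-- The logarithmic derivative at a field. -/
noncomputable def lamv (g : Finset X → ℝ) (τ : ℝ) (Z : Finset X) (x : X) : ℝ :=
  Dv g τ Z x / Fv g τ Z

lemma lamv_nonneg {g : Finset X → ℝ} (hg : ∀ A, 0 ≤ g A) {τ : ℝ} (hτ : 0 < τ) (Z : Finset X)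
    (x : X) : 0 ≤ lamv g τ Z x :=
  div_nonneg (Dv_nonneg hg hτ _ _) (Fv_nonneg hg hτ _)

/-- Euler bound in the directions of an arbitrary set. -/
lemma sum_fld_Dv_le {g : Finset X → ℝ} (hg : ∀ A, 0 ≤ g A) {s : ℕ}
    (hs : ∀ A, g A ≠ 0 → A.card = s) {τ : ℝ} (hτ : 0 < τ) (Z R : Finset X) :
    ∑ y ∈ R, fld τ Z y * Dv g τ Z y ≤ s * Fv g τ Z := by
  simp only [Dv_eq, Fv_eq, Finset.mul_sum]
  rw [Finset.sum_comm]
  refine Finset.sum_le_sum fun A _ => ?_
  by_cases hA : g A = 0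
  · simp [hA]
  have hcard : A.card = s := hs A hA
  have hterm : ∀ y ∈ R, fld τ Z y * (if y ∈ A then g A * ∏ i ∈ A \ {y}, fld τ Z i else 0)
      = if y ∈ A then g A * ∏ i ∈ A, fld τ Z i else 0 := by
    intro y hy
    by_cases hyA : y ∈ A
    · rw [if_pos hyA, if_pos hyA, ← Finset.erase_eq, ← Finset.mul_prod_erase A _ hyA]
      ring
    · rw [if_neg hyA, if_neg hyA, mul_zero]
  rw [Finset.sum_congr rfl hterm, ← Finset.sum_filter, Finset.sum_const, nsmul_eq_mul]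
  have hnn : 0 ≤ g A * ∏ i ∈ A, fld τ Z i :=
    mul_nonneg (hg A) (Finset.prod_nonneg fun i _ => (fld_pos hτ Z i).le)
  refine mul_le_mul_of_nonneg_right ?_ hnn
  rw [← hcard]
  exact_mod_cast Finset.card_le_card (fun y hy => (Finset.mem_filter.mp hy).2)

/-- The sum of the logarithmic derivatives outside the field is at most `s / τ`. -/
lemma sum_lamv_out_le {g : Finset X → ℝ} (hg : ∀ A, 0 ≤ g A) {s : ℕ}
    (hs : ∀ A, g A ≠ 0 → A.card = s) {τ : ℝ} (hτ : 0 < τ) {Z R : Finset X}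
    (hF : 0 < Fv g τ Z) (hRZ : Disjoint R Z) :
    τ * ∑ x ∈ R, lamv g τ Z x ≤ s := by
  unfold lamv
  rw [← Finset.sum_div, ← mul_div_assoc, div_le_iff₀ hF, Finset.mul_sum]
  refine le_trans (le_of_eq ?_) (sum_fld_Dv_le hg hs hτ Z R)
  refine Finset.sum_congr rfl fun x hx => ?_
  rw [fld_of_not_mem (Finset.disjoint_left.mp hRZ hx)]

/-- The tangent bound between two fields. -/
lemma tangent_fld {g : Finset X → ℝ} (hT : IsLogTangent g) {τ : ℝ} (hτ : 0 < τ) (hτ1 : τ ≤ 1)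
    {Z Y : Finset X} (hZY : Z ⊆ Y) (hF : 0 < Fv g τ Z) :
    Fv g τ Y ≤ Fv g τ Z * Real.exp ((1 - τ) * ∑ x ∈ Y \ Z, lamv g τ Z x) := by
  have h := hT (fld τ Z) (fun i => if i ∈ Y \ Z then 1 - τ else 0) (fld_pos hτ Z)
    (fun i => by
      split_ifs
      · linarith
      · exact le_rfl) hF
  have hpt : (fun i => fld τ Z i + if i ∈ Y \ Z then 1 - τ else 0) = fld τ Y := by
    funext i
    unfold fld
    by_cases h1 : i ∈ Z
    · have h2 : i ∈ Y := hZY h1
      simp [h1, h2]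
    · by_cases h2 : i ∈ Y
      · simp [h1, h2]
      · simp [h1, h2]
  rw [hpt] at h
  have hsum : (∑ x, (if x ∈ Y \ Z then 1 - τ else 0) * polyWith g (fld τ Z) {x})
        / polyWith g (fld τ Z) ∅
      = (1 - τ) * ∑ x ∈ Y \ Z, lamv g τ Z x := by
    have h1 : ∀ x, (if x ∈ Y \ Z then 1 - τ else 0) * polyWith g (fld τ Z) {x}
        = if x ∈ Y \ Z then (1 - τ) * polyWith g (fld τ Z) {x} else 0 := by
      intro x; split_ifs <;> simp
    simp only [h1]
    rw [Finset.sum_ite_mem, Finset.univ_inter, Finset.mul_sum, Finset.sum_div]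
    refine Finset.sum_congr rfl fun x _ => ?_
    unfold lamv Dv Fv
    ring
  rw [hsum] at h
  exact h

/-- The dyadic ladder. -/
lemma exists_dyadic {a : ℝ} (ha : a ≤ 1 / 8) (n : ℕ) (hn : (1 / 8) * (1 / 2) ^ (n + 1) < a) :
    ∃ j, j ≤ n ∧ (1 / 8) * ((1 : ℝ) / 2) ^ (j + 1) < a ∧ a ≤ (1 / 8) * (1 / 2) ^ j := by
  induction n with
  | zero =>
    exact ⟨0, le_rfl, hn, by simpa using ha⟩
  | succ n ih =>
    by_cases h : (1 / 8) * ((1 : ℝ) / 2) ^ (n + 1) < a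
    · obtain ⟨j, hj, h1, h2⟩ := ih h
      exact ⟨j, by omega, h1, h2⟩
    · exact ⟨n + 1, le_rfl, hn, not_lt.mp h⟩

/-- The dyadic class of index `j` outside the field. -/
noncomputable def clsSet (g : Finset X → ℝ) (τ : ℝ) (Z : Finset X) (j : ℕ) : Finset X :=
  (univ \ Z).filter fun x =>
    (1 / 8) * ((1 : ℝ) / 2) ^ (j + 1) < lamv g τ Z x ∧ lamv g τ Z x ≤ (1 / 8) * (1 / 2) ^ j

/-- The number of points taken from the class of index `j`. -/
noncomputable def mval (g : Finset X → ℝ) (τ c q : ℝ) (Z : Finset X) (j : ℕ) : ℕ :=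
  ⌈9 * q * ((clsSet g τ Z j).card : ℝ)⌉₊ + ⌈Real.log (c / Fv g τ Z) * ((j : ℝ) + 1)⌉₊

/-- The extension sets. -/
noncomputable def setsS (g : Finset X → ℝ) (τ c q : ℝ) (Z : Finset X) : Finset (Finset X) :=
  (range (Fintype.card X + 1)).biUnion fun j =>
    powersetCard (mval g τ c q Z j) (clsSet g τ Z j)

lemma clsSet_disjoint (g : Finset X → ℝ) (τ : ℝ) (Z : Finset X) {i j : ℕ} (h : i < j) :
    Disjoint (clsSet g τ Z i) (clsSet g τ Z j) := by
  rw [Finset.disjoint_left]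
  intro x hi hj
  have h1 := (Finset.mem_filter.mp hi).2.1
  have h2 := (Finset.mem_filter.mp hj).2.2
  have h3 : ((1 : ℝ) / 2) ^ j ≤ (1 / 2) ^ (i + 1) :=
    pow_le_pow_of_le_one (by norm_num) (by norm_num) h
  linarith

lemma clsSet_subset (g : Finset X → ℝ) (τ : ℝ) (Z : Finset X) (j : ℕ) :
    clsSet g τ Z j ⊆ univ \ Z := Finset.filter_subset _ _

lemma sum_clsSet_le {g : Finset X → ℝ} (hg : ∀ A, 0 ≤ g A) {τ : ℝ} (hτ : 0 < τ) (Z : Finset X)
    (n : ℕ) :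
    ∑ j ∈ range n, ∑ x ∈ clsSet g τ Z j, lamv g τ Z x ≤ ∑ x ∈ univ \ Z, lamv g τ Z x := by
  rw [← Finset.sum_biUnion]
  · refine Finset.sum_le_sum_of_subset_of_nonneg ?_ fun x _ _ => lamv_nonneg hg hτ Z x
    intro x hx
    obtain ⟨j, -, hj⟩ := Finset.mem_biUnion.mp hx
    exact clsSet_subset g τ Z j hj
  · intro i _ j _ hij
    rcases lt_or_gt_of_ne hij with h | h
    · exact clsSet_disjoint g τ Z h
    · exact (clsSet_disjoint g τ Z h).symm

lemma card_mul_le_sum_cls (g : Finset X → ℝ) (τ : ℝ) (Z : Finset X) (j : ℕ) :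
    ((clsSet g τ Z j).card : ℝ) * ((1 / 8) * ((1 : ℝ) / 2) ^ j)
      ≤ 2 * ∑ x ∈ clsSet g τ Z j, lamv g τ Z x := by
  rw [Finset.mul_sum, ← nsmul_eq_mul, ← Finset.sum_const]
  refine Finset.sum_le_sum fun x hx => ?_
  have h1 := (Finset.mem_filter.mp hx).2.1
  have h2 : ((1 : ℝ) / 2) ^ (j + 1) = (1 / 2) ^ j / 2 := by rw [pow_succ]; ring
  rw [h2] at h1
  linarith

/-- The pigeonhole step. -/
lemma exists_mem_setsS {g : Finset X → ℝ} (hg : ∀ A, 0 ≤ g A) {s : ℕ}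
    (hs : ∀ A, g A ≠ 0 → A.card = s) (hs1 : 1 ≤ s) {τ : ℝ} (hτ : 0 < τ) {q : ℝ} (hq : 0 < q)
    (hqτ : 256 * q ≤ τ) {Z R : Finset X} (hF : 0 < Fv g τ Z) (hRZ : Disjoint R Z) {c : ℝ}
    (hΛ : (s : ℝ) < Real.log (c / Fv g τ Z))
    (hΛR : Real.log (c / Fv g τ Z) ≤ ∑ x ∈ R, lamv g τ Z x)
    (hsmall : ∀ x ∈ R, lamv g τ Z x ≤ 1 / 8) :
    ∃ S ∈ setsS g τ c q Z, S ⊆ R := by
  classical
  set Λ := Real.log (c / Fv g τ Z) with hΛdef
  set n := Fintype.card X with hn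
  have hs1' : (1 : ℝ) ≤ s := by exact_mod_cast hs1
  have hΛ1 : 1 < Λ := by linarith
  by_contra hcon
  push Not at hcon
  -- each class meets `R` in few points
  have hfew : ∀ j ∈ range (n + 1),
      ((R ∩ clsSet g τ Z j).card : ℝ)
        ≤ 9 * q * ((clsSet g τ Z j).card : ℝ) + Λ * ((j : ℝ) + 1) + 1 := by
    intro j hj
    have hlt : (R ∩ clsSet g τ Z j).card < mval g τ c q Z j := by
      by_contra hge
      push Not at hge
      obtain ⟨S, hS, hScard⟩ := Finset.exists_subset_card_eq hge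
      refine hcon S ?_ (hS.trans Finset.inter_subset_left)
      refine Finset.mem_biUnion.mpr ⟨j, hj, Finset.mem_powersetCard.mpr ⟨?_, hScard⟩⟩
      exact hS.trans Finset.inter_subset_right
    have hle : (((R ∩ clsSet g τ Z j).card + 1 : ℕ) : ℝ) ≤ (mval g τ c q Z j : ℝ) := by
      exact_mod_cast hlt
    have h1 : ((mval g τ c q Z j : ℕ) : ℝ)
        < (9 * q * ((clsSet g τ Z j).card : ℝ) + 1) + (Λ * ((j : ℝ) + 1) + 1) := by
      unfold mval
      push_cast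
      refine add_lt_add (Nat.ceil_lt_add_one ?_) (Nat.ceil_lt_add_one ?_)
      · positivity
      · have : 0 ≤ Λ := by linarith
        positivity
    push_cast at hle
    linarith
  -- pointwise bound
  have hpoint : ∀ x ∈ R, lamv g τ Z x
      ≤ ∑ j ∈ range (n + 1), (if x ∈ clsSet g τ Z j then (1 / 8) * ((1 : ℝ) / 2) ^ j else 0)
        + (1 / 8) * (1 / 2) ^ (n + 1) := by
    intro x hx
    have hnn : 0 ≤ ∑ j ∈ range (n + 1),
        (if x ∈ clsSet g τ Z j then (1 / 8) * ((1 : ℝ) / 2) ^ j else 0) := by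
      refine Finset.sum_nonneg fun j _ => ?_
      split_ifs
      · positivity
      · exact le_rfl
    by_cases hlow : (1 / 8) * ((1 : ℝ) / 2) ^ (n + 1) < lamv g τ Z x
    · obtain ⟨j, hj, h1, h2⟩ := exists_dyadic (hsmall x hx) n hlow
      have hmem : x ∈ clsSet g τ Z j := by
        refine Finset.mem_filter.mpr ⟨?_, h1, h2⟩
        exact Finset.mem_sdiff.mpr ⟨Finset.mem_univ _, Finset.disjoint_left.mp hRZ hx⟩
      have hsingle := Finset.single_le_sum
        (f := fun j => if x ∈ clsSet g τ Z j then (1 / 8) * ((1 : ℝ) / 2) ^ j else 0)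
        (fun j _ => by
          show (0 : ℝ) ≤ if x ∈ clsSet g τ Z j then (1 / 8) * ((1 : ℝ) / 2) ^ j else 0
          split_ifs
          · positivity
          · exact le_rfl)
        (Finset.mem_range.mpr (Nat.lt_succ_of_le hj))
      simp only [if_pos hmem] at hsingle
      have : (0 : ℝ) < (1 / 8) * (1 / 2) ^ (n + 1) := by positivity
      linarith
    · have := not_lt.mp hlow
      linarith
  -- sum of the class parts
  have hswap : ∑ x ∈ R, ∑ j ∈ range (n + 1),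
        (if x ∈ clsSet g τ Z j then (1 / 8) * ((1 : ℝ) / 2) ^ j else 0)
      = ∑ j ∈ range (n + 1), ((R ∩ clsSet g τ Z j).card : ℝ) * ((1 / 8) * ((1 : ℝ) / 2) ^ j) := by
    rw [Finset.sum_comm]
    refine Finset.sum_congr rfl fun j _ => ?_
    rw [← Finset.sum_filter, Finset.sum_const, nsmul_eq_mul]
    congr 2
  have hτsum : ∑ j ∈ range (n + 1), ((clsSet g τ Z j).card : ℝ) * ((1 / 8) * ((1 : ℝ) / 2) ^ j)
      ≤ 2 * (s / τ) := by
    have h1 : ∑ j ∈ range (n + 1), ((clsSet g τ Z j).card : ℝ) * ((1 / 8) * ((1 : ℝ) / 2) ^ j)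
        ≤ 2 * ∑ j ∈ range (n + 1), ∑ x ∈ clsSet g τ Z j, lamv g τ Z x := by
      rw [Finset.mul_sum]
      exact Finset.sum_le_sum fun j _ => card_mul_le_sum_cls g τ Z j
    have h2 := sum_clsSet_le hg hτ Z (n + 1)
    have h3 : ∑ x ∈ univ \ Z, lamv g τ Z x ≤ s / τ := by
      rw [le_div_iff₀ hτ, mul_comm]
      exact sum_lamv_out_le hg hs hτ hF Finset.sdiff_disjoint
    linarith
  have hgeo1 : ∑ j ∈ range (n + 1), ((j : ℝ) + 1) * ((1 / 8) * ((1 : ℝ) / 2) ^ j) ≤ 1 / 2 := by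
    have h := sum_mul_half_pow (n + 1)
    have e : ∑ j ∈ range (n + 1), ((j : ℝ) + 1) * ((1 / 8) * ((1 : ℝ) / 2) ^ j)
        = (1 / 4) * ∑ j ∈ range (n + 1), ((j : ℝ) + 1) * ((1 : ℝ) / 2) ^ (j + 1) := by
      rw [Finset.mul_sum]
      refine Finset.sum_congr rfl fun j _ => ?_
      rw [pow_succ]; ring
    rw [e]; linarith
  have hgeo2 : ∑ j ∈ range (n + 1), ((1 / 8) * ((1 : ℝ) / 2) ^ j) ≤ 1 / 4 := by
    have h := sum_half_pow (n + 1)
    have e : ∑ j ∈ range (n + 1), ((1 / 8) * ((1 : ℝ) / 2) ^ j)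
        = (1 / 4) * ∑ j ∈ range (n + 1), ((1 : ℝ) / 2) ^ (j + 1) := by
      rw [Finset.mul_sum]
      refine Finset.sum_congr rfl fun j _ => ?_
      rw [pow_succ]; ring
    rw [e]; linarith
  have hclass : ∑ j ∈ range (n + 1), ((R ∩ clsSet g τ Z j).card : ℝ) *
        ((1 / 8) * ((1 : ℝ) / 2) ^ j)
      ≤ 18 * q * (s / τ) + Λ / 2 + 1 / 4 := by
    calc ∑ j ∈ range (n + 1), ((R ∩ clsSet g τ Z j).card : ℝ) * ((1 / 8) * ((1 : ℝ) / 2) ^ j)
        ≤ ∑ j ∈ range (n + 1), ((9 * q * ((clsSet g τ Z j).card : ℝ) + Λ * ((j : ℝ) + 1) + 1) *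
            ((1 / 8) * ((1 : ℝ) / 2) ^ j)) :=
          Finset.sum_le_sum fun j hj => mul_le_mul_of_nonneg_right (hfew j hj) (by positivity)
      _ = 9 * q * ∑ j ∈ range (n + 1), (((clsSet g τ Z j).card : ℝ) * ((1 / 8) * ((1 : ℝ) / 2) ^ j))
            + Λ * ∑ j ∈ range (n + 1), (((j : ℝ) + 1) * ((1 / 8) * ((1 : ℝ) / 2) ^ j))
            + ∑ j ∈ range (n + 1), ((1 / 8) * ((1 : ℝ) / 2) ^ j) := by
          rw [Finset.mul_sum, Finset.mul_sum, ← Finset.sum_add_distrib, ← Finset.sum_add_distrib]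
          refine Finset.sum_congr rfl fun j _ => by ring
      _ ≤ 9 * q * (2 * (s / τ)) + Λ * (1 / 2) + 1 / 4 := by
          have h9 : 0 ≤ 9 * q := by positivity
          have hΛ0 : 0 ≤ Λ := by linarith
          have h1 := mul_le_mul_of_nonneg_left hτsum h9
          have h2 := mul_le_mul_of_nonneg_left hgeo1 hΛ0
          linarith
      _ = _ := by ring
  have htail : ((R.card : ℕ) : ℝ) * ((1 / 8) * ((1 : ℝ) / 2) ^ (n + 1)) ≤ 1 / 16 := by
    have h1 : ((R.card : ℕ) : ℝ) ≤ 2 ^ n := by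
      have : R.card ≤ 2 ^ n := (Finset.card_le_univ R).trans (Nat.lt_two_pow_self (n := n)).le
      exact_mod_cast this
    have h2 : ((1 : ℝ) / 2) ^ (n + 1) = (1 / 2) ^ n * (1 / 2) := pow_succ _ _
    have h3 : (2 : ℝ) ^ n * (1 / 2) ^ n = 1 := by rw [← mul_pow]; norm_num
    rw [h2]
    calc ((R.card : ℕ) : ℝ) * ((1 / 8) * (((1 : ℝ) / 2) ^ n * (1 / 2)))
        ≤ 2 ^ n * ((1 / 8) * (((1 : ℝ) / 2) ^ n * (1 / 2))) :=
          mul_le_mul_of_nonneg_right h1 (by positivity)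
      _ = ((2 : ℝ) ^ n * (1 / 2) ^ n) * (1 / 16) := by ring
      _ = 1 / 16 := by rw [h3, one_mul]
  have hq' : 18 * q * (s / τ) ≤ (18 / 256) * s := by
    have h1 : q / τ ≤ 1 / 256 := by
      rw [div_le_div_iff₀ hτ (by norm_num)]
      linarith
    have h2 : 18 * q * (s / τ) = 18 * s * (q / τ) := by ring
    rw [h2]
    have := mul_le_mul_of_nonneg_left h1 (show (0 : ℝ) ≤ 18 * s by positivity)
    linarith
  have htotal : ∑ x ∈ R, lamv g τ Z x
      ≤ ∑ j ∈ range (n + 1), ((R ∩ clsSet g τ Z j).card : ℝ) * ((1 / 8) * ((1 : ℝ) / 2) ^ j)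
        + ((R.card : ℕ) : ℝ) * ((1 / 8) * ((1 : ℝ) / 2) ^ (n + 1)) := by
    refine (Finset.sum_le_sum hpoint).trans ?_
    rw [Finset.sum_add_distrib, hswap, Finset.sum_const, nsmul_eq_mul]
  linarith

lemma sum_powersetCard_le {q : ℝ} (hq : 0 ≤ q) (C : Finset X) (m : ℕ) :
    ∑ S ∈ powersetCard m C, q ^ S.card ≤ (1 / 9) ^ m * Real.exp (9 * q * (C.card : ℝ)) := by
  have h1 : ∑ S ∈ powersetCard m C, q ^ S.card
      = (1 / 9) ^ m * ∑ S ∈ powersetCard m C, (9 * q) ^ S.card := by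
    rw [Finset.mul_sum]
    refine Finset.sum_congr rfl fun S hS => ?_
    rw [(Finset.mem_powersetCard.mp hS).2, ← mul_pow]
    congr 1
    ring
  have h2 : ∑ S ∈ powersetCard m C, (9 * q) ^ S.card ≤ ∑ S ∈ C.powerset, (9 * q) ^ S.card := by
    refine Finset.sum_le_sum_of_subset_of_nonneg ?_ fun S _ _ => by positivity
    intro S hS
    exact Finset.mem_powerset.mpr (Finset.mem_powersetCard.mp hS).1
  have h3 : ∑ S ∈ C.powerset, (9 * q) ^ S.card = (9 * q + 1) ^ C.card := by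
    have := Finset.sum_pow_mul_eq_add_pow (9 * q) 1 C
    simpa using this
  have h4 : (9 * q + 1) ^ C.card ≤ Real.exp (9 * q * (C.card : ℝ)) := by
    rw [mul_comm (9 * q), Real.exp_nat_mul]
    exact pow_le_pow_left₀ (by positivity) (Real.add_one_le_exp _) _
  rw [h1]
  exact mul_le_mul_of_nonneg_left (h2.trans (h3.le.trans h4)) (by positivity)

/-- The cost of the extension sets. -/
lemma sum_setsS_le {g : Finset X → ℝ} {τ c q : ℝ} (hq : 0 < q) {Z : Finset X}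
    (hF : 0 < Fv g τ Z) (hc : 0 < c) (hΛ : 1 ≤ Real.log (c / Fv g τ Z)) :
    ∑ S ∈ setsS g τ c q Z, q ^ S.card ≤ 2 * (Fv g τ Z / c) := by
  set Λ := Real.log (c / Fv g τ Z) with hΛdef
  have hnn : ∀ S : Finset X, 0 ≤ q ^ S.card := fun S => by positivity
  have hexp1 : Real.exp 1 ≤ 3 := by
    have := Real.exp_one_lt_d9
    linarith
  have hexpm1 : (1 : ℝ) / 3 ≤ Real.exp (-1) := by
    rw [Real.exp_neg, ← one_div]
    exact one_div_le_one_div_of_le (Real.exp_pos 1) hexp1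
  have hexpm2 : Real.exp (-1) ≤ 1 / 2 := by
    rw [Real.exp_neg, ← one_div]
    refine one_div_le_one_div_of_le (by norm_num) ?_
    have := Real.add_one_le_exp (1 : ℝ)
    linarith
  have hterm : ∀ j, ∑ S ∈ powersetCard (mval g τ c q Z j) (clsSet g τ Z j), q ^ S.card
      ≤ Real.exp (-Λ) * (1 / 2) ^ j := by
    intro j
    set m := mval g τ c q Z j with hm
    have hm1 : 9 * q * ((clsSet g τ Z j).card : ℝ) ≤ (m : ℝ) := by
      rw [hm]; unfold mval; push_cast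
      have h1 := Nat.le_ceil (9 * q * ((clsSet g τ Z j).card : ℝ))
      have h2 : (0 : ℝ) ≤ (⌈Real.log (c / Fv g τ Z) * ((j : ℝ) + 1)⌉₊ : ℝ) := Nat.cast_nonneg _
      linarith
    have hm2 : Λ * ((j : ℝ) + 1) ≤ (m : ℝ) := by
      rw [hm]; unfold mval; push_cast
      have h1 := Nat.le_ceil (Real.log (c / Fv g τ Z) * ((j : ℝ) + 1))
      have h2 : (0 : ℝ) ≤ (⌈9 * q * ((clsSet g τ Z j).card : ℝ)⌉₊ : ℝ) := Nat.cast_nonneg _
      rw [hΛdef]
      linarith
    refine (sum_powersetCard_le hq.le _ m).trans ?_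
    have h1 : Real.exp (9 * q * ((clsSet g τ Z j).card : ℝ)) ≤ 3 ^ m := by
      calc Real.exp (9 * q * ((clsSet g τ Z j).card : ℝ)) ≤ Real.exp ((m : ℝ) * 1) :=
            Real.exp_le_exp.mpr (by linarith)
        _ = Real.exp 1 ^ m := Real.exp_nat_mul _ _
        _ ≤ 3 ^ m := pow_le_pow_left₀ (Real.exp_pos 1).le hexp1 _
    have h2 : ((1 : ℝ) / 9) ^ m * 3 ^ m = (1 / 3) ^ m := by rw [← mul_pow]; norm_num
    have h3 : ((1 : ℝ) / 3) ^ m ≤ Real.exp (-1) ^ m := pow_le_pow_left₀ (by norm_num) hexpm1 _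
    have h4 : Real.exp (-1) ^ m = Real.exp (-(m : ℝ)) := by
      rw [← Real.exp_nat_mul]; congr 1; ring
    have h5 : Real.exp (-(m : ℝ)) ≤ Real.exp (-(Λ * ((j : ℝ) + 1))) :=
      Real.exp_le_exp.mpr (by linarith)
    have h6 : Real.exp (-(Λ * ((j : ℝ) + 1))) ≤ Real.exp (-Λ) * (1 / 2) ^ j := by
      have e : -(Λ * ((j : ℝ) + 1)) = -Λ + (j : ℝ) * (-Λ) := by ring
      rw [e, Real.exp_add, Real.exp_nat_mul]
      refine mul_le_mul_of_nonneg_left ?_ (Real.exp_pos _).le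
      refine pow_le_pow_left₀ (Real.exp_pos _).le ?_ _
      refine le_trans (Real.exp_le_exp.mpr ?_) hexpm2
      linarith
    calc ((1 : ℝ) / 9) ^ m * Real.exp (9 * q * ((clsSet g τ Z j).card : ℝ))
        ≤ (1 / 9) ^ m * 3 ^ m := mul_le_mul_of_nonneg_left h1 (by positivity)
      _ = (1 / 3) ^ m := h2
      _ ≤ Real.exp (-1) ^ m := h3
      _ = Real.exp (-(m : ℝ)) := h4
      _ ≤ Real.exp (-(Λ * ((j : ℝ) + 1))) := h5
      _ ≤ Real.exp (-Λ) * (1 / 2) ^ j := h6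
  have hgeo : ∑ j ∈ range (Fintype.card X + 1), ((1 : ℝ) / 2) ^ j ≤ 2 := by
    have h := sum_half_pow (Fintype.card X + 1)
    have e : ∑ j ∈ range (Fintype.card X + 1), ((1 : ℝ) / 2) ^ j
        = 2 * ∑ j ∈ range (Fintype.card X + 1), ((1 : ℝ) / 2) ^ (j + 1) := by
      rw [Finset.mul_sum]
      refine Finset.sum_congr rfl fun j _ => ?_
      rw [pow_succ]; ring
    rw [e]; linarith
  have hval : Real.exp (-Λ) = Fv g τ Z / c := by
    rw [Real.exp_neg, hΛdef, Real.exp_log (div_pos hc hF), inv_div]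
  unfold setsS
  calc ∑ S ∈ (range (Fintype.card X + 1)).biUnion
        (fun j => powersetCard (mval g τ c q Z j) (clsSet g τ Z j)), q ^ S.card
      ≤ ∑ j ∈ range (Fintype.card X + 1),
          ∑ S ∈ powersetCard (mval g τ c q Z j) (clsSet g τ Z j), q ^ S.card :=
        sum_biUnion_le' hnn _ _
    _ ≤ ∑ j ∈ range (Fintype.card X + 1), Real.exp (-Λ) * (1 / 2) ^ j :=
        Finset.sum_le_sum fun j _ => hterm j
    _ = Real.exp (-Λ) * ∑ j ∈ range (Fintype.card X + 1), (1 / 2) ^ j := by rw [Finset.mul_sum]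
    _ ≤ Real.exp (-Λ) * 2 := mul_le_mul_of_nonneg_left hgeo (Real.exp_pos _).le
    _ = 2 * (Fv g τ Z / c) := by rw [hval]; ring

lemma mem_setsS_disjoint {g : Finset X → ℝ} {τ c q : ℝ} {Z S : Finset X}
    (hS : S ∈ setsS g τ c q Z) : Disjoint S Z := by
  obtain ⟨j, -, hj⟩ := Finset.mem_biUnion.mp hS
  have h1 := (Finset.mem_powersetCard.mp hj).1
  have h2 := h1.trans (clsSet_subset g τ Z j)
  rw [Finset.disjoint_left]
  intro x hx
  exact (Finset.mem_sdiff.mp (h2 hx)).2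

end Vale.Agent.Lib.P034
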