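import Mathlib
import Vale.Agent.Lib.P034.Tangent2

namespace Vale.Agent.Lib.P034
open Finset
set_option linter.unusedSectionVars false
set_option linter.unusedVariables false
set_option linter.unusedSimpArgs false

variable {X : Type*} [Fintype X] [DecidableEq X]

/-- The seeds at `W`. -/
def seedT (U : Finset X → Finset X) (N : ℕ) (W : Finset X) : Finset (Finset X) :=
  univ.filter fun T => Disjoint T W ∧ T ⊆ U (T ∪ W) ∧ (U (T ∪ W)).card ≤ N

/-- The seeds seen from the union. -/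
def pickS (U : Finset X → Finset X) (N : ℕ) (Z : Finset X) : Finset (Finset X) :=
  (U Z).powerset.filter fun T => T ⊆ Z ∧ (U Z).card ≤ N

lemma sum_pickS_le (U : Finset X → Finset X) (N : ℕ) (Z : Finset X) :
    ∑ T ∈ pickS U N Z, ((1 : ℝ) / 256) ^ T.card ≤ (1 + 1 / 256) ^ N := by
  by_cases h : (U Z).card ≤ N
  · have h1 : ∑ T ∈ pickS U N Z, ((1 : ℝ) / 256) ^ T.card
        ≤ ∑ T ∈ (U Z).powerset, ((1 : ℝ) / 256) ^ T.card :=
      Finset.sum_le_sum_of_subset_of_nonneg (Finset.filter_subset _ _)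
        fun T _ _ => by positivity
    have h2 : ∑ T ∈ (U Z).powerset, ((1 : ℝ) / 256) ^ T.card = (1 / 256 + 1) ^ (U Z).card := by
      have := Finset.sum_pow_mul_eq_add_pow ((1 : ℝ) / 256) 1 (U Z)
      simpa using this
    have h3 : ((1 : ℝ) / 256 + 1) ^ (U Z).card ≤ (1 + 1 / 256) ^ N := by
      rw [add_comm]
      exact pow_le_pow_right₀ (by norm_num) h
    linarith
  · have : pickS U N Z = ∅ := by
      unfold pickS
      rw [Finset.filter_eq_empty_iff]
      intro T _ hT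
      exact h hT.2
    rw [this, Finset.sum_empty]
    positivity

/-- The Kraft-type bound for seeds. -/
lemma kraft_seed (U : Finset X → Finset X) (N : ℕ) {δ : ℝ} (h0 : 0 < δ) (h1 : δ < 1)
    (Ψ : Finset X → ℝ) (hΨ : ∀ Z, 0 ≤ Ψ Z) :
    ∑ W : Finset X, mu δ W * ∑ T ∈ seedT U N W, (δ / 256) ^ T.card * Ψ (T ∪ W)
      ≤ (1 + 1 / 256) ^ N * ∑ Z : Finset X, mu δ Z * Ψ Z := by
  have hbij : ∑ W : Finset X, mu δ W * ∑ T ∈ seedT U N W, (δ / 256) ^ T.card * Ψ (T ∪ W)
      = ∑ Z : Finset X, ∑ T ∈ pickS U N Z, mu δ (Z \ T) * ((δ / 256) ^ T.card * Ψ Z) := by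
    simp only [Finset.mul_sum]
    rw [Finset.sum_sigma', Finset.sum_sigma']
    refine Finset.sum_nbij' (fun x => ⟨x.2 ∪ x.1, x.2⟩) (fun x => ⟨x.1 \ x.2, x.2⟩)
      ?_ ?_ ?_ ?_ ?_
    · rintro ⟨W, T⟩ h
      simp only [Finset.mem_sigma, Finset.mem_univ, true_and, seedT, Finset.mem_filter] at h
      obtain ⟨hd, hs, hc⟩ := h
      simp only [Finset.mem_sigma, Finset.mem_univ, true_and, pickS, Finset.mem_filter,
        Finset.mem_powerset]
      exact ⟨hs, Finset.subset_union_left, hc⟩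
    · rintro ⟨Z, T⟩ h
      simp only [Finset.mem_sigma, Finset.mem_univ, true_and, pickS, Finset.mem_filter,
        Finset.mem_powerset] at h
      obtain ⟨hs, hTZ, hc⟩ := h
      simp only [Finset.mem_sigma, Finset.mem_univ, true_and, seedT, Finset.mem_filter]
      have hU : T ∪ (Z \ T) = Z := Finset.union_sdiff_of_subset hTZ
      rw [hU]
      exact ⟨Finset.disjoint_sdiff, hs, hc⟩
    · rintro ⟨W, T⟩ h
      simp only [Finset.mem_sigma, Finset.mem_univ, true_and, seedT, Finset.mem_filter] at h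
      obtain ⟨hd, -, -⟩ := h
      have hW : (T ∪ W) \ T = W := by
        rw [Finset.union_sdiff_left]
        exact Finset.sdiff_eq_self_of_disjoint hd.symm
      simp [hW]
    · rintro ⟨Z, T⟩ h
      simp only [Finset.mem_sigma, Finset.mem_univ, true_and, pickS, Finset.mem_filter,
        Finset.mem_powerset] at h
      obtain ⟨hs, hTZ, hc⟩ := h
      have hU : T ∪ (Z \ T) = Z := Finset.union_sdiff_of_subset hTZ
      simp [hU]
    · rintro ⟨W, T⟩ h
      simp only [Finset.mem_sigma, Finset.mem_univ, true_and, seedT, Finset.mem_filter] at h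
      obtain ⟨hd, -, -⟩ := h
      have hW : (T ∪ W) \ T = W := by
        rw [Finset.union_sdiff_left]
        exact Finset.sdiff_eq_self_of_disjoint hd.symm
      simp [hW]
  rw [hbij]
  calc ∑ Z : Finset X, ∑ T ∈ pickS U N Z, mu δ (Z \ T) * ((δ / 256) ^ T.card * Ψ Z)
      ≤ ∑ Z : Finset X, ∑ T ∈ pickS U N Z, (mu δ Z * (1 / 256) ^ T.card) * Ψ Z := by
        refine Finset.sum_le_sum fun Z _ => Finset.sum_le_sum fun T hT => ?_
        rw [← mul_assoc]
        exact mul_le_mul_of_nonneg_right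
          (mu_sdiff_mul_le h0 h1 (Finset.mem_filter.mp hT).2.1) (hΨ Z)
    _ = ∑ Z : Finset X, (∑ T ∈ pickS U N Z, (1 / 256) ^ T.card) * (mu δ Z * Ψ Z) := by
        refine Finset.sum_congr rfl fun Z _ => ?_
        rw [Finset.sum_mul]
        refine Finset.sum_congr rfl fun T _ => by ring
    _ ≤ ∑ Z : Finset X, (1 + 1 / 256) ^ N * (mu δ Z * Ψ Z) := by
        refine Finset.sum_le_sum fun Z _ => ?_
        exact mul_le_mul_of_nonneg_right (sum_pickS_le U N Z)
          (mul_nonneg (mu_pos h0 h1 Z).le (hΨ Z))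
    _ = _ := by rw [Finset.mul_sum]

/-- The expected value of the polynomial at the random field. -/
lemma expect_Fv (g : Finset X → ℝ) (δ τ : ℝ) :
    ∑ Z : Finset X, mu δ Z * Fv g τ Z = ∑ A, g A * (δ + (1 - δ) * τ) ^ A.card := by
  simp only [Fv_eq, Finset.mul_sum]
  rw [Finset.sum_comm]
  refine Finset.sum_congr rfl fun A _ => ?_
  rw [← expect_fld δ τ A, Finset.mul_sum]
  refine Finset.sum_congr rfl fun Z _ => by ring

/-- Size of the list at scale `1 / 32`. -/
lemma listU_card_le {g : Finset X → ℝ} (hg : ∀ A, 0 ≤ g A) {s : ℕ}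
    (hs : ∀ A, g A ≠ 0 → A.card = s) {τ : ℝ} (hτ : 0 < τ) {Z : Finset X} (hF : 0 < Fv g τ Z) :
    (listU g τ (1 / 32) Z).card ≤ 64 * s := by
  have h1 : ((listU g τ (1 / 32) Z).card : ℝ) * (Fv g τ Z / 32) ≤ 2 * ∑ y ∈ Z, Dv g τ Z y := by
    calc ((listU g τ (1 / 32) Z).card : ℝ) * (Fv g τ Z / 32)
        = ∑ y ∈ listU g τ (1 / 32) Z, Fv g τ Z / 32 := by
          rw [Finset.sum_const, nsmul_eq_mul]
      _ ≤ ∑ y ∈ listU g τ (1 / 32) Z, 2 * Dv g τ Z y := by
          refine Finset.sum_le_sum fun y hy => ?_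
          have := (Finset.mem_filter.mp hy).2
          linarith
      _ ≤ ∑ y ∈ Z, 2 * Dv g τ Z y := by
          refine Finset.sum_le_sum_of_subset_of_nonneg (Finset.filter_subset _ _) ?_
          intro y _ _
          exact mul_nonneg (by norm_num) (Dv_nonneg hg hτ _ _)
      _ = 2 * ∑ y ∈ Z, Dv g τ Z y := by rw [Finset.mul_sum]
  have h2 := sum_Dv_le hg hs hτ Z
  have h3 : ((listU g τ (1 / 32) Z).card : ℝ) * Fv g τ Z ≤ (64 * s) * Fv g τ Z := by
    nlinarith
  have h4 : ((listU g τ (1 / 32) Z).card : ℝ) ≤ 64 * s := le_of_mul_le_mul_right h3 hF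
  exact_mod_cast h4

/-- Addition stability gives a small logarithmic derivative. -/
lemma add_stable_lam {g : Finset X → ℝ} (hg : ∀ A, 0 ≤ g A) {τ : ℝ} (hτ : 0 < τ)
    (hτ1 : τ ≤ 1 / 2) {W T : Finset X} {x : X} (hx : x ∉ T ∪ W) (hF : 0 < Fv g τ (T ∪ W))
    (hmax : Theta g τ W (1 / 32) (insert x T) ≤ Theta g τ W (1 / 32) T) :
    lamv g τ (T ∪ W) x ≤ 1 / 8 := by
  have hxT : x ∉ T := fun h => hx (Finset.mem_union_left _ h)
  unfold Theta at hmax
  rw [Finset.card_insert_of_notMem hxT, Finset.insert_union, Fv_insert g τ hx] at hmax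
  push_cast at hmax
  set a := Fv g τ (T ∪ W)
  set d := Dv g τ (T ∪ W) x
  have hd : 0 ≤ d := Dv_nonneg hg hτ _ _
  have hexp : Real.exp (-(1 / 32 * ((T.card : ℝ) + 1)))
      = Real.exp (-(1 / 32 * (T.card : ℝ))) * Real.exp (-(1 / 32)) := by
    rw [← Real.exp_add]; congr 1; ring
  rw [hexp, ← mul_assoc] at hmax
  have hpos := Real.exp_pos (-(1 / 32 * (T.card : ℝ)))
  have h1 : (a + (1 - τ) * d) * Real.exp (-(1 / 32)) ≤ a := by
    refine le_of_mul_le_mul_right ?_ hpos
    calc (a + (1 - τ) * d) * Real.exp (-(1 / 32)) * Real.exp (-(1 / 32 * (T.card : ℝ)))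
        = (a + (1 - τ) * d) * Real.exp (-(1 / 32 * (T.card : ℝ))) * Real.exp (-(1 / 32)) := by ring
      _ ≤ _ := hmax
  have h2 : (31 : ℝ) / 32 ≤ Real.exp (-(1 / 32)) := by
    have := Real.add_one_le_exp (-(1 / 32) : ℝ)
    linarith
  have h3 : 0 ≤ a + (1 - τ) * d := by
    have : 0 ≤ (1 - τ) * d := mul_nonneg (by linarith) hd
    linarith
  have h4 : (a + (1 - τ) * d) * (31 / 32) ≤ a :=
    le_trans (mul_le_mul_of_nonneg_left h2 h3) h1
  have h5 : d / 2 ≤ (1 - τ) * d := by nlinarith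
  unfold lamv
  rw [div_le_iff₀ hF]
  show d ≤ 1 / 8 * a
  nlinarith

/-- The seeds used directly. -/
noncomputable def famA (g : Finset X → ℝ) (τ c : ℝ) (s : ℕ) (W : Finset X) : Finset (Finset X) :=
  (seedT (listU g τ (1 / 32)) (64 * s) W).filter fun T =>
    c * Real.exp (-(s : ℝ)) ≤ Fv g τ (T ∪ W)

/-- The seeds with their extensions. -/
noncomputable def famB (g : Finset X → ℝ) (τ c q : ℝ) (s : ℕ) (W : Finset X) :
    Finset (Finset X) :=
  ((seedT (listU g τ (1 / 32)) (64 * s) W).filter fun T =>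
      0 < Fv g τ (T ∪ W) ∧ Fv g τ (T ∪ W) < c * Real.exp (-(s : ℝ))).biUnion
    fun T₀ => (setsS g τ c q (T₀ ∪ W)).image fun S => T₀ ∪ S

/-- The covering property of one piece. -/
lemma piece_cover {g : Finset X → ℝ} (hg : ∀ A, 0 ≤ g A) {s : ℕ}
    (hs : ∀ A, g A ≠ 0 → A.card = s) (hs1 : 1 ≤ s) (hT : IsLogTangent g) {δ : ℝ} (h0 : 0 < δ)
    (h1 : δ ≤ 1 / 2) (W H : Finset X) {c : ℝ} (hc : 0 < c) (hF : c ≤ Fv g δ (H ∪ W)) :
    ∃ T ∈ famA g δ c s W ∪ famB g δ c (δ / 256) s W, T ⊆ H := by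
  have h1' : δ ≤ 1 := by linarith
  have hFpos : 0 < Fv g δ (H ∪ W) := lt_of_lt_of_le hc hF
  have hallpos : ∀ Z, 0 < Fv g δ Z := fun Z => Fv_pos_of_pos hg h0 hFpos Z
  set H' := H \ W with hH'
  have hne : H'.powerset.Nonempty := ⟨∅, Finset.empty_mem_powerset _⟩
  obtain ⟨T₀, hT₀, hmax⟩ := Finset.exists_max_image H'.powerset (Theta g δ W (1 / 32)) hne
  have hsub : T₀ ⊆ H' := Finset.mem_powerset.mp hT₀
  have hTH : T₀ ⊆ H := hsub.trans Finset.sdiff_subset
  have hd : Disjoint T₀ W := Finset.disjoint_of_subset_left hsub Finset.sdiff_disjoint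
  have hstable : T₀ ⊆ listU g δ (1 / 32) (T₀ ∪ W) := by
    intro x hx
    refine stable_mem_list hg h0 h1' (by norm_num) (by norm_num) hx
      (Finset.disjoint_left.mp hd hx) (hmax _ ?_)
    exact Finset.mem_powerset.mpr ((Finset.erase_subset _ _).trans hsub)
  have hseed : T₀ ∈ seedT (listU g δ (1 / 32)) (64 * s) W := by
    refine Finset.mem_filter.mpr ⟨Finset.mem_univ _, hd, hstable, ?_⟩
    exact listU_card_le hg hs h0 (hallpos _)
  by_cases hcase : c * Real.exp (-(s : ℝ)) ≤ Fv g δ (T₀ ∪ W)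
  · exact ⟨T₀, Finset.mem_union_left _ (Finset.mem_filter.mpr ⟨hseed, hcase⟩), hTH⟩
  push Not at hcase
  set Z₀ := T₀ ∪ W with hZ₀
  have hFZ : 0 < Fv g δ Z₀ := hallpos _
  set R := H \ Z₀ with hR
  have hRZ : Disjoint R Z₀ := Finset.sdiff_disjoint
  have hΛ : (s : ℝ) < Real.log (c / Fv g δ Z₀) := by
    rw [Real.lt_log_iff_exp_lt (div_pos hc hFZ), lt_div_iff₀ hFZ]
    have h2 : Real.exp (s : ℝ) * Real.exp (-(s : ℝ)) = 1 := by
      rw [← Real.exp_add]; simp
    calc Real.exp (s : ℝ) * Fv g δ Z₀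
        < Real.exp (s : ℝ) * (c * Real.exp (-(s : ℝ))) :=
          mul_lt_mul_of_pos_left hcase (Real.exp_pos _)
      _ = c * (Real.exp (s : ℝ) * Real.exp (-(s : ℝ))) := by ring
      _ = c := by rw [h2, mul_one]
  have hZY : Z₀ ⊆ H ∪ W := by
    intro x hx
    rcases Finset.mem_union.mp hx with h | h
    · exact Finset.mem_union_left _ (hTH h)
    · exact Finset.mem_union_right _ h
  have hYZ : (H ∪ W) \ Z₀ = R := by
    ext x
    simp only [hR, hZ₀, Finset.mem_sdiff, Finset.mem_union]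
    tauto
  have hΛR : Real.log (c / Fv g δ Z₀) ≤ ∑ x ∈ R, lamv g δ Z₀ x := by
    have htan := tangent_fld hT h0 h1' hZY hFZ
    rw [hYZ] at htan
    have hsumnn : 0 ≤ ∑ x ∈ R, lamv g δ Z₀ x :=
      Finset.sum_nonneg fun x _ => lamv_nonneg hg h0 _ _
    have hle : c / Fv g δ Z₀ ≤ Real.exp ((1 - δ) * ∑ x ∈ R, lamv g δ Z₀ x) := by
      rw [div_le_iff₀ hFZ]
      linarith
    rw [Real.log_le_iff_le_exp (div_pos hc hFZ)]
    refine hle.trans (Real.exp_le_exp.mpr ?_)
    nlinarith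
  have hsmall : ∀ x ∈ R, lamv g δ Z₀ x ≤ 1 / 8 := by
    intro x hx
    have hxH : x ∈ H := (Finset.mem_sdiff.mp hx).1
    have hxZ : x ∉ Z₀ := (Finset.mem_sdiff.mp hx).2
    refine add_stable_lam hg h0 h1 hxZ hFZ (hmax _ ?_)
    refine Finset.mem_powerset.mpr (Finset.insert_subset ?_ hsub)
    refine Finset.mem_sdiff.mpr ⟨hxH, fun hxW => hxZ (Finset.mem_union_right _ hxW)⟩
  obtain ⟨S, hS, hSR⟩ := exists_mem_setsS hg hs hs1 h0 (show 0 < δ / 256 by positivity)
    (by linarith) hFZ hRZ hΛ hΛR hsmall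
  refine ⟨T₀ ∪ S, Finset.mem_union_right _ ?_, ?_⟩
  · refine Finset.mem_biUnion.mpr ⟨T₀, Finset.mem_filter.mpr ⟨hseed, hFZ, hcase⟩, ?_⟩
    exact Finset.mem_image.mpr ⟨S, hS, rfl⟩
  · exact Finset.union_subset hTH (hSR.trans Finset.sdiff_subset)

/-- The objective of one piece. -/
noncomputable def costObj (g : Finset X → ℝ) (δ c : ℝ) (s : ℕ) (W : Finset X) : ℝ :=
  ∑ T ∈ seedT (listU g δ (1 / 32)) (64 * s) W,
    (δ / 256) ^ T.card * (Fv g δ (T ∪ W) * ((Real.exp (s : ℝ) + 2) / c))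

/-- The cost of one piece. -/
lemma piece_cost {g : Finset X → ℝ} (hg : ∀ A, 0 ≤ g A) {s : ℕ} (hs1 : 1 ≤ s) {δ : ℝ}
    (h0 : 0 < δ) (W : Finset X) {c : ℝ} (hc : 0 < c) :
    ∑ T ∈ famA g δ c s W ∪ famB g δ c (δ / 256) s W, (δ / 256) ^ T.card ≤ costObj g δ c s W := by
  set q := δ / 256 with hq
  have hqpos : 0 < q := by positivity
  have hnn : ∀ T : Finset X, 0 ≤ q ^ T.card := fun T => by positivity
  have hFnn : ∀ Z, 0 ≤ Fv g δ Z := fun Z => Fv_nonneg hg h0 Z
  set seed := seedT (listU g δ (1 / 32)) (64 * s) W with hseed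
  have hs1' : (1 : ℝ) ≤ s := by exact_mod_cast hs1
  have hA : ∑ T ∈ famA g δ c s W, q ^ T.card
      ≤ ∑ T ∈ seed, q ^ T.card * (Fv g δ (T ∪ W) * (Real.exp (s : ℝ) / c)) := by
    calc ∑ T ∈ famA g δ c s W, q ^ T.card
        ≤ ∑ T ∈ famA g δ c s W, q ^ T.card * (Fv g δ (T ∪ W) * (Real.exp (s : ℝ) / c)) := by
          refine Finset.sum_le_sum fun T hT => ?_
          have h1 := (Finset.mem_filter.mp hT).2
          have h2 : 1 ≤ Fv g δ (T ∪ W) * (Real.exp (s : ℝ) / c) := by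
            rw [mul_div_assoc', le_div_iff₀ hc]
            have h3 : Real.exp (s : ℝ) * Real.exp (-(s : ℝ)) = 1 := by
              rw [← Real.exp_add]; simp
            have h4 := mul_le_mul_of_nonneg_left h1 (Real.exp_pos (s : ℝ)).le
            calc 1 * c = c * (Real.exp (s : ℝ) * Real.exp (-(s : ℝ))) := by rw [h3]; ring
              _ = Real.exp (s : ℝ) * (c * Real.exp (-(s : ℝ))) := by ring
              _ ≤ Real.exp (s : ℝ) * Fv g δ (T ∪ W) := h4
              _ = _ := by ring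
          have := hnn T
          nlinarith
      _ ≤ _ := by
          refine Finset.sum_le_sum_of_subset_of_nonneg (Finset.filter_subset _ _) ?_
          intro T _ _
          exact mul_nonneg (hnn T) (mul_nonneg (hFnn _) (div_nonneg (Real.exp_pos _).le hc.le))
  have hB : ∑ T ∈ famB g δ c q s W, q ^ T.card
      ≤ ∑ T ∈ seed, q ^ T.card * (Fv g δ (T ∪ W) * (2 / c)) := by
    unfold famB
    refine (sum_biUnion_le' hnn _ _).trans ?_
    calc ∑ T₀ ∈ seed.filter (fun T =>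
            0 < Fv g δ (T ∪ W) ∧ Fv g δ (T ∪ W) < c * Real.exp (-(s : ℝ))),
          ∑ T ∈ (setsS g δ c q (T₀ ∪ W)).image (fun S => T₀ ∪ S), q ^ T.card
        ≤ ∑ T₀ ∈ seed.filter (fun T =>
            0 < Fv g δ (T ∪ W) ∧ Fv g δ (T ∪ W) < c * Real.exp (-(s : ℝ))),
          q ^ T₀.card * (Fv g δ (T₀ ∪ W) * (2 / c)) := by
          refine Finset.sum_le_sum fun T₀ hT₀ => ?_
          obtain ⟨-, hpos, hlt⟩ := Finset.mem_filter.mp hT₀
          have hdis : ∀ S ∈ setsS g δ c q (T₀ ∪ W), Disjoint T₀ S := by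
            intro S hS
            have h1 := mem_setsS_disjoint hS
            exact (Finset.disjoint_of_subset_right Finset.subset_union_left h1).symm
          rw [Finset.sum_image]
          · have hΛ : 1 ≤ Real.log (c / Fv g δ (T₀ ∪ W)) := by
              rw [Real.le_log_iff_exp_le (div_pos hc hpos), le_div_iff₀ hpos]
              have hle : Real.exp (-(s : ℝ)) ≤ Real.exp (-1) :=
                Real.exp_le_exp.mpr (by linarith)
              have h1e : Real.exp 1 * Real.exp (-1) = 1 := by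
                rw [← Real.exp_add]; simp
              calc Real.exp 1 * Fv g δ (T₀ ∪ W)
                  ≤ Real.exp 1 * (c * Real.exp (-(s : ℝ))) :=
                    mul_le_mul_of_nonneg_left hlt.le (Real.exp_pos _).le
                _ ≤ Real.exp 1 * (c * Real.exp (-1)) :=
                    mul_le_mul_of_nonneg_left (mul_le_mul_of_nonneg_left hle hc.le)
                      (Real.exp_pos _).le
                _ = c * (Real.exp 1 * Real.exp (-1)) := by ring
                _ = c := by rw [h1e, mul_one]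
            have hcost := sum_setsS_le (g := g) (τ := δ) hqpos hpos hc hΛ
            calc ∑ S ∈ setsS g δ c q (T₀ ∪ W), q ^ (T₀ ∪ S).card
                = q ^ T₀.card * ∑ S ∈ setsS g δ c q (T₀ ∪ W), q ^ S.card := by
                  rw [Finset.mul_sum]
                  refine Finset.sum_congr rfl fun S hS => ?_
                  rw [Finset.card_union_of_disjoint (hdis S hS), pow_add]
              _ ≤ q ^ T₀.card * (2 * (Fv g δ (T₀ ∪ W) / c)) :=
                  mul_le_mul_of_nonneg_left hcost (hnn _)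
              _ = _ := by ring
          · intro S hS S' hS' heq
            have hS1 : S = (T₀ ∪ S) \ T₀ := by
              rw [Finset.union_sdiff_left]
              exact (Finset.sdiff_eq_self_of_disjoint (hdis S hS).symm).symm
            have hS2 : S' = (T₀ ∪ S') \ T₀ := by
              rw [Finset.union_sdiff_left]
              exact (Finset.sdiff_eq_self_of_disjoint (hdis S' hS').symm).symm
            have heq' : T₀ ∪ S = T₀ ∪ S' := heq
            rw [hS1, hS2, heq']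
      _ ≤ _ := by
          refine Finset.sum_le_sum_of_subset_of_nonneg (Finset.filter_subset _ _) ?_
          intro T _ _
          exact mul_nonneg (hnn T) (mul_nonneg (hFnn _) (div_nonneg (by norm_num) hc.le))
  refine (sum_union_le hnn _ _).trans ?_
  unfold costObj
  have : ∑ T ∈ seed, q ^ T.card * (Fv g δ (T ∪ W) * ((Real.exp (s : ℝ) + 2) / c))
      = ∑ T ∈ seed, q ^ T.card * (Fv g δ (T ∪ W) * (Real.exp (s : ℝ) / c))
        + ∑ T ∈ seed, q ^ T.card * (Fv g δ (T ∪ W) * (2 / c)) := by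
    rw [← Finset.sum_add_distrib]
    refine Finset.sum_congr rfl fun T _ => by ring
  rw [this]
  exact add_le_add hA hB

/-- The expected objective of one piece. -/
lemma expect_costObj {g : Finset X → ℝ} (hg : ∀ A, 0 ≤ g A) {δ : ℝ} (h0 : 0 < δ) (h1 : δ < 1)
    {c : ℝ} (hc : 0 < c) (s : ℕ) :
    ∑ W : Finset X, mu δ W * costObj g δ c s W
      ≤ (1 + 1 / 256) ^ (64 * s) * (((Real.exp (s : ℝ) + 2) / c) *
          ∑ A, g A * (δ + (1 - δ) * δ) ^ A.card) := by
  have h := kraft_seed (listU g δ (1 / 32)) (64 * s) h0 h1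
    (fun Z => Fv g δ Z * ((Real.exp (s : ℝ) + 2) / c))
    (fun Z => mul_nonneg (Fv_nonneg hg h0 Z) (div_nonneg (by positivity) hc.le))
  have e : ∑ Z : Finset X, mu δ Z * (Fv g δ Z * ((Real.exp (s : ℝ) + 2) / c))
      = ((Real.exp (s : ℝ) + 2) / c) * ∑ A, g A * (δ + (1 - δ) * δ) ^ A.card := by
    rw [← expect_Fv, Finset.mul_sum]
    refine Finset.sum_congr rfl fun Z _ => by ring
  rw [e] at h
  exact h

/-- The numerical factor at level `s`. -/
lemma factor_le {s : ℕ} (hs1 : 1 ≤ s) :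
    ((1 : ℝ) + 1 / 256) ^ (64 * s) * ((Real.exp (s : ℝ) + 2) / (1 / 2) ^ (s + 1)) * (1 / 64) ^ s
      ≤ 27 / 32 := by
  have h1 : ((1 : ℝ) + 1 / 256) ^ (64 * s) ≤ (3 / 2) ^ s := by
    rw [pow_mul]
    exact pow_le_pow_left₀ (by norm_num) (by norm_num) s
  have h2 : Real.exp (s : ℝ) ≤ 3 ^ s := by
    have : Real.exp (s : ℝ) = Real.exp 1 ^ s := by
      rw [← Real.exp_nat_mul]; simp
    rw [this]
    exact pow_le_pow_left₀ (Real.exp_pos 1).le (by have := Real.exp_one_lt_d9; linarith) s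
  have h3 : (1 : ℝ) ≤ 3 ^ s := one_le_pow₀ (by norm_num)
  have h4 : (Real.exp (s : ℝ) + 2) / (1 / 2) ^ (s + 1) ≤ 6 * 6 ^ s := by
    rw [div_le_iff₀ (by positivity)]
    have e : (6 : ℝ) * 6 ^ s * (1 / 2) ^ (s + 1) = 3 * 3 ^ s := by
      have : (6 : ℝ) ^ s = 3 ^ s * 2 ^ s := by rw [← mul_pow]; norm_num
      rw [this, pow_succ]
      have h5 : (2 : ℝ) ^ s * (1 / 2) ^ s = 1 := by rw [← mul_pow]; norm_num
      calc 6 * (3 ^ s * 2 ^ s) * ((1 / 2) ^ s * (1 / 2))
          = 3 * 3 ^ s * ((2 : ℝ) ^ s * (1 / 2) ^ s) := by ring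
        _ = 3 * 3 ^ s := by rw [h5, mul_one]
    rw [e]
    linarith
  have h6 : ((3 : ℝ) / 2) ^ s * (6 * 6 ^ s) * (1 / 64) ^ s = 6 * (9 / 64) ^ s := by
    have : ((9 : ℝ) / 64) ^ s = (3 / 2) ^ s * 6 ^ s * (1 / 64) ^ s := by
      rw [← mul_pow, ← mul_pow]; norm_num
    rw [this]; ring
  have h7 : ((9 : ℝ) / 64) ^ s ≤ (9 / 64) ^ 1 :=
    pow_le_pow_of_le_one (by norm_num) (by norm_num) hs1
  calc ((1 : ℝ) + 1 / 256) ^ (64 * s) * ((Real.exp (s : ℝ) + 2) / (1 / 2) ^ (s + 1)) * (1 / 64) ^ s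
      ≤ (3 / 2) ^ s * (6 * 6 ^ s) * (1 / 64) ^ s := by
        refine mul_le_mul_of_nonneg_right ?_ (by positivity)
        exact mul_le_mul h1 h4 (div_nonneg (by positivity) (by positivity)) (by positivity)
    _ = 6 * (9 / 64) ^ s := h6
    _ ≤ 27 / 32 := by norm_num at h7 ⊢; linarith

/-- The main theorem. -/
theorem tangent_small {ι : Type*} [Fintype ι] (F : Finset (Finset X)) (g : ι → Finset X → ℝ)
    (hg : ∀ i A, 0 ≤ g i A) (hcov : ∀ H ∈ F, ∃ i, 1 ≤ ∑ S ∈ H.powerset, g i S) {p : ℝ}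
    (hp : 0 < p) (hp1 : p ≤ 1) (hcost : ∑ i, ∑ S, g i S * p ^ S.card ≤ 1 / 2)
    (hT : ∀ i s, IsLogTangent (levelPart (g i) s)) :
    IsSmall F (p / 2 ^ 15) := by
  classical
  set n := Fintype.card X with hn
  set δ := p / 2 ^ 7 with hδ
  have h0 : 0 < δ := by positivity
  have h1 : δ ≤ 1 / 128 := by
    rw [hδ, div_le_iff₀ (by positivity)]
    linarith
  have h1' : δ < 1 := by linarith
  have hq : p / 2 ^ 15 = δ / 256 := by rw [hδ]; ring
  have hqpos : 0 < δ / 256 := by positivity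
  -- the pieces
  let cc : ℕ → ℝ := fun j => (1 / 2) ^ (j + 1 + 1)
  have hcc : ∀ j, 0 < cc j := fun j => by simp only [cc]; positivity
  let w : ι → ℕ → ℝ := fun i s => ∑ A, levelPart (g i) s A * p ^ A.card
  have hwnn : ∀ i s, 0 ≤ w i s := fun i s => Finset.sum_nonneg fun A _ =>
    mul_nonneg (levelPart_nonneg (hg i) s A) (by positivity)
  have hpiece : ∀ i j, ∑ W : Finset X, mu δ W * costObj (levelPart (g i) (j + 1)) δ (cc j) (j + 1) W
      ≤ 27 / 32 * w i (j + 1) := by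
    intro i j
    have hnn := levelPart_nonneg (hg i) (j + 1)
    refine (expect_costObj hnn h0 h1' (hcc j) (j + 1)).trans ?_
    have hsum : ∑ A, levelPart (g i) (j + 1) A * (δ + (1 - δ) * δ) ^ A.card
        ≤ (1 / 64) ^ (j + 1) * w i (j + 1) := by
      simp only [w]
      rw [Finset.mul_sum]
      refine Finset.sum_le_sum fun A _ => ?_
      unfold levelPart
      by_cases hA : A.card = j + 1
      · rw [if_pos hA, hA]
        have h2 : (δ + (1 - δ) * δ) ^ (j + 1) ≤ (1 / 64) ^ (j + 1) * p ^ (j + 1) := by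
          rw [← mul_pow]
          refine pow_le_pow_left₀ (by nlinarith) ?_ _
          have : δ + (1 - δ) * δ ≤ 2 * δ := by nlinarith
          rw [hδ] at this ⊢
          linarith
        have h3 := hg i A
        calc g i A * (δ + (1 - δ) * δ) ^ (j + 1)
            ≤ g i A * ((1 / 64) ^ (j + 1) * p ^ (j + 1)) :=
              mul_le_mul_of_nonneg_left h2 h3
          _ = _ := by ring
      · simp [if_neg hA]
    have hfac := factor_le (s := j + 1) (by omega)
    have hpos : 0 ≤ ((1 : ℝ) + 1 / 256) ^ (64 * (j + 1)) *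
        ((Real.exp (((j + 1 : ℕ) : ℝ)) + 2) / cc j) :=
      mul_nonneg (by positivity) (div_nonneg (by positivity) (hcc j).le)
    calc ((1 : ℝ) + 1 / 256) ^ (64 * (j + 1)) *
          (((Real.exp (((j + 1 : ℕ) : ℝ)) + 2) / cc j) *
            ∑ A, levelPart (g i) (j + 1) A * (δ + (1 - δ) * δ) ^ A.card)
        = ((1 : ℝ) + 1 / 256) ^ (64 * (j + 1)) *
          ((Real.exp (((j + 1 : ℕ) : ℝ)) + 2) / cc j) *
            ∑ A, levelPart (g i) (j + 1) A * (δ + (1 - δ) * δ) ^ A.card := by ring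
      _ ≤ ((1 : ℝ) + 1 / 256) ^ (64 * (j + 1)) *
          ((Real.exp (((j + 1 : ℕ) : ℝ)) + 2) / cc j) *
            ((1 / 64) ^ (j + 1) * w i (j + 1)) := mul_le_mul_of_nonneg_left hsum hpos
      _ = (((1 : ℝ) + 1 / 256) ^ (64 * (j + 1)) *
          ((Real.exp (((j + 1 : ℕ) : ℝ)) + 2) / cc j) * (1 / 64) ^ (j + 1)) * w i (j + 1) := by
          ring
      _ ≤ 27 / 32 * w i (j + 1) := mul_le_mul_of_nonneg_right hfac (hwnn i _)
  have hwsum : ∀ i, ∑ j ∈ range n, w i (j + 1) ≤ ∑ S, g i S * p ^ S.card := by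
    intro i
    simp only [w]
    rw [Finset.sum_comm]
    refine Finset.sum_le_sum fun A _ => ?_
    rw [← Finset.sum_mul]
    refine mul_le_mul_of_nonneg_right ?_ (by positivity)
    have h2 := sum_levelPart (g i) A
    rw [Finset.sum_range_succ'] at h2
    have h3 := levelPart_nonneg (hg i) 0 A
    linarith
  have hexpect : ∑ W : Finset X, mu δ W *
      ∑ i, ∑ j ∈ range n, costObj (levelPart (g i) (j + 1)) δ (cc j) (j + 1) W < 1 / 2 := by
    calc ∑ W : Finset X, mu δ W *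
          ∑ i, ∑ j ∈ range n, costObj (levelPart (g i) (j + 1)) δ (cc j) (j + 1) W
        = ∑ i, ∑ j ∈ range n, ∑ W : Finset X, mu δ W *
            costObj (levelPart (g i) (j + 1)) δ (cc j) (j + 1) W := by
          simp only [Finset.mul_sum]
          rw [Finset.sum_comm]
          refine Finset.sum_congr rfl fun i _ => ?_
          rw [Finset.sum_comm]
      _ ≤ ∑ i, ∑ j ∈ range n, 27 / 32 * w i (j + 1) :=
          Finset.sum_le_sum fun i _ => Finset.sum_le_sum fun j _ => hpiece i j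
      _ = 27 / 32 * ∑ i, ∑ j ∈ range n, w i (j + 1) := by
          simp only [Finset.mul_sum]
      _ ≤ 27 / 32 * (1 / 2) := by
          refine mul_le_mul_of_nonneg_left ?_ (by norm_num)
          exact (Finset.sum_le_sum fun i _ => hwsum i).trans hcost
      _ < 1 / 2 := by norm_num
  obtain ⟨W, hW⟩ := exists_lt_of_expect h0 h1' hexpect
  -- the cover
  let G : Finset (Finset X) := univ.biUnion fun i => (range n).biUnion fun j =>
    famA (levelPart (g i) (j + 1)) δ (cc j) (j + 1) W ∪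
      famB (levelPart (g i) (j + 1)) δ (cc j) (δ / 256) (j + 1) W
  refine ⟨G, ?_, ?_⟩
  · intro H hH
    obtain ⟨i, hi⟩ := hcov H hH
    have hg0 : g i ∅ ≤ 1 / 2 := by
      have h2 : g i ∅ * p ^ (∅ : Finset X).card ≤ ∑ S, g i S * p ^ S.card :=
        Finset.single_le_sum (f := fun S : Finset X => g i S * p ^ S.card)
          (fun S _ => mul_nonneg (hg i S) (by positivity)) (Finset.mem_univ _)
      simp only [Finset.card_empty, pow_zero, mul_one] at h2
      have h3 : ∑ S, g i S * p ^ S.card ≤ ∑ i, ∑ S, g i S * p ^ S.card :=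
        Finset.single_le_sum (f := fun i => ∑ S, g i S * p ^ S.card)
          (fun i _ => Finset.sum_nonneg fun S _ => mul_nonneg (hg i S) (by positivity))
          (Finset.mem_univ i)
      linarith
    obtain ⟨j, hj, hjv⟩ := exists_level hi hg0 (hg i)
    have hFv := hjv.trans (sum_powerset_le_Fv (levelPart_nonneg (hg i) (j + 1)) h0 H W)
    obtain ⟨T, hT1, hT2⟩ := piece_cover (levelPart_nonneg (hg i) (j + 1))
      (levelPart_uniform (g i) (j + 1)) (by omega) (hT i (j + 1)) h0 (by linarith) W H (hcc j) hFv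
    refine ⟨T, ?_, hT2⟩
    exact Finset.mem_biUnion.mpr ⟨i, Finset.mem_univ _, Finset.mem_biUnion.mpr ⟨j, hj, hT1⟩⟩
  · unfold coverCost
    rw [hq]
    have hnn : ∀ S : Finset X, 0 ≤ (δ / 256) ^ S.card := fun S => by positivity
    calc ∑ S ∈ G, (δ / 256) ^ S.card
        ≤ ∑ i, ∑ S ∈ (range n).biUnion (fun j =>
            famA (levelPart (g i) (j + 1)) δ (cc j) (j + 1) W ∪
              famB (levelPart (g i) (j + 1)) δ (cc j) (δ / 256) (j + 1) W), (δ / 256) ^ S.card :=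
          sum_biUnion_le' hnn _ _
      _ ≤ ∑ i, ∑ j ∈ range n, ∑ S ∈ famA (levelPart (g i) (j + 1)) δ (cc j) (j + 1) W ∪
              famB (levelPart (g i) (j + 1)) δ (cc j) (δ / 256) (j + 1) W, (δ / 256) ^ S.card :=
          Finset.sum_le_sum fun i _ => sum_biUnion_le' hnn _ _
      _ ≤ ∑ i, ∑ j ∈ range n, costObj (levelPart (g i) (j + 1)) δ (cc j) (j + 1) W :=
          Finset.sum_le_sum fun i _ => Finset.sum_le_sum fun j _ =>
            piece_cost (levelPart_nonneg (hg i) (j + 1)) (by omega) h0 W (hcc j)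
      _ ≤ 1 / 2 := hW.le

end Vale.Agent.Lib.P034
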